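import Vale.Agent.P210.R2.H973.RicA

set_option linter.all false

open scoped Manifold ContDiff Topology Bundle
open Set Metric Filter Bundle IsManifold MeasureTheory Manifold

set_option maxSynthPendingDepth 3

noncomputable section

namespace Vale.Agent.P210.R2.H973

open Vale.Agent.P210.R2.H53

section Met

variable {X : Type*} [MetricSpace X]

theorem minGeo_continuousOn {c : ℝ → X} {a b : ℝ} (h : MinGeo c a b) :
    ContinuousOn c (Icc a b) := by
  have : LipschitzOnWith 1 c (Icc a b) := LipschitzOnWith.of_dist_le_mul fun s hs t ht => by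
    rw [h s hs t ht, Real.dist_eq]
    simp
  exact this.continuousOn

theorem minGeo_continuousAt {c : ℝ → X} {a b s : ℝ} (h : MinGeo c a b) (hs : s ∈ Ioo a b) :
    ContinuousAt c s :=
  (minGeo_continuousOn h).continuousAt (Icc_mem_nhds hs.1 hs.2)

theorem minGeo_mono {c : ℝ → X} {a b a' b' : ℝ} (h : MinGeo c a b) (h' : Icc a' b' ⊆ Icc a b) :
    MinGeo c a' b' := fun s hs t ht => h s (h' hs) t (h' ht)

theorem minGeo_shift {c : ℝ → X} {b : ℝ} (a : ℝ) (h : MinGeo c 0 b) :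
    MinGeo (fun t => c (t - a)) a (a + b) := by
  intro s hs t ht
  have h1 : s - a ∈ Icc 0 b := ⟨by linarith [hs.1], by linarith [hs.2]⟩
  have h2 : t - a ∈ Icc 0 b := ⟨by linarith [ht.1], by linarith [ht.2]⟩
  have := h _ h1 _ h2
  rw [this]
  congr 1
  ring

theorem minGeo_concat {c₁ c₂ : ℝ → X} {a b : ℝ} (ha : 0 ≤ a) (hb : 0 ≤ b)
    (h₁ : MinGeo c₁ 0 a) (h₂ : MinGeo c₂ a (a + b)) (hz : c₁ a = c₂ a)
    (hd : dist (c₁ 0) (c₂ (a + b)) = a + b) :
    MinGeo (fun t => if t ≤ a then c₁ t else c₂ t) 0 (a + b) := by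
  have key : ∀ s ∈ Icc 0 (a + b), ∀ t ∈ Icc 0 (a + b), s ≤ a → a < t →
      dist (c₁ s) (c₂ t) = |s - t| := by
    intro s hs t ht hsa hat
    have e1 := h₁ s ⟨hs.1, hsa⟩ a ⟨ha, le_rfl⟩
    have e2 := h₂ a ⟨le_rfl, by linarith⟩ t ⟨hat.le, ht.2⟩
    have e3 := h₁ 0 ⟨le_rfl, ha⟩ s ⟨hs.1, hsa⟩
    have e4 := h₂ t ⟨hat.le, ht.2⟩ (a + b) ⟨by linarith, le_rfl⟩
    have f1 : |s - a| = a - s := by rw [abs_sub_comm]; exact abs_of_nonneg (by linarith)
    have f2 : |a - t| = t - a := by rw [abs_sub_comm]; exact abs_of_nonneg (by linarith)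
    have f3 : |0 - s| = s := by rw [zero_sub, abs_neg]; exact abs_of_nonneg hs.1
    have f4 : |t - (a + b)| = a + b - t := by
      rw [abs_sub_comm]; exact abs_of_nonneg (by linarith [ht.2])
    have f5 : |s - t| = t - s := by rw [abs_sub_comm]; exact abs_of_nonneg (by linarith)
    have g1 := dist_triangle (c₁ s) (c₁ a) (c₂ t)
    have g2 := dist_triangle4 (c₁ 0) (c₁ s) (c₂ t) (c₂ (a + b))
    rw [hz] at g1 e1
    rw [f5]
    apply le_antisymm
    · linarith
    · linarith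
  intro s hs t ht
  by_cases hsa : s ≤ a <;> by_cases hta : t ≤ a
  · simp only [hsa, hta, if_true]
    exact h₁ s ⟨hs.1, hsa⟩ t ⟨ht.1, hta⟩
  · simp only [hsa, hta, if_true, if_false]
    exact key s hs t ht hsa (not_le.1 hta)
  · simp only [hsa, hta, if_true, if_false]
    rw [dist_comm, abs_sub_comm]
    exact key t ht s hs hta (not_le.1 hsa)
  · simp only [hsa, hta, if_false]
    exact h₂ s ⟨(not_le.1 hsa).le, hs.2⟩ t ⟨(not_le.1 hta).le, ht.2⟩

end Met

variable {E : Type} [NormedAddCommGroup E] [NormedSpace ℝ E] [FiniteDimensional ℝ E]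
  {M : Type} [MetricSpace M] [ChartedSpace E M]
  [RiemannianBundle (fun x : M => TangentSpace 𝓘(ℝ, E) x)]
  [IsManifold 𝓘(ℝ, E) ∞ M]
  [IsContMDiffRiemannianBundle 𝓘(ℝ, E) ∞ E (fun x : M => TangentSpace 𝓘(ℝ, E) x)]

theorem localRiem_chartG {e : OpenPartialHomeomorph M E}
    (he : e ∈ maximalAtlas 𝓘(ℝ, E) ∞ M) : LocalRiem (chartG e) e.target where
  isOpen := e.open_target
  smooth := contDiffOn_chartG he
  symm := fun z _ v w => chartG_symm e z v w
  pos := fun z hz v hv => chartG_pos he hz v hv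

theorem ric_chart {e e' : OpenPartialHomeomorph M E} (he : e ∈ maximalAtlas 𝓘(ℝ, E) ∞ M)
    (he' : e' ∈ maximalAtlas 𝓘(ℝ, E) ∞ M) {x : M} (hx : x ∈ e.source) (hx' : x ∈ e'.source)
    (v : E) :
    ric (chartG e) (e x) v = ric (chartG e') (e' x) (fderiv ℝ (e' ∘ e.symm) (e x) v) := by
  have hpt : (e' ∘ e.symm) (e x) = e' x := by simp [e.left_inv hx]
  have hz : e x ∈ e.target := e.map_source hx
  have hz' : e' x ∈ e'.target := e'.map_source hx'
  have hzV : e x ∈ (e.symm ≫ₕ e').source := by simp [hx, hx']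
  have hopen := (e.symm ≫ₕ e').open_source.mem_nhds hzV
  have hbij : Function.Bijective (fderiv ℝ (e' ∘ e.symm) (e x)) := by
    have hinj : Function.Injective (fderiv ℝ (e' ∘ e.symm) (e x) : E →ₗ[ℝ] E) := by
      rw [injective_iff_map_eq_zero]
      intro v hv
      by_contra hne
      have h1 := chartG_pos he hz v hne
      have h2 := chartG_change he he' hx hx' v v
      have h3 : fderiv ℝ (e' ∘ e.symm) (e x) v = 0 := hv
      rw [h3] at h2
      simp at h2
      linarith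
    exact ⟨hinj, LinearMap.injective_iff_surjective.1 hinj⟩
  have := ric_change (G := chartG e') (G' := chartG e) (τ := e' ∘ e.symm) (z := e x)
    ((transition_real he he').contDiffAt hopen)
    (by rw [hpt]; exact (contDiffOn_chartG he').contDiffAt (e'.open_target.mem_nhds hz'))
    ((contDiffOn_chartG he).contDiffAt (e.open_target.mem_nhds hz))
    (Eventually.of_forall fun y v w => chartG_symm e' y v w)
    (by rw [hpt]; exact fun v hv => chartG_pos he' hz' v hv)
    (fun v hv => chartG_pos he hz v hv) hbij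
    (by
      filter_upwards [hopen] with y hy v w
      have hy1 : y ∈ e.target := by
        have := hy
        simp at this
        exact this.1
      have hy2 : e.symm y ∈ e'.source := by
        have := hy
        simp at this
        exact this.2
      have := chartG_change he he' (e.map_target hy1) hy2 v w
      rw [e.right_inv hy1] at this
      exact this.symm) v
  rw [this, hpt]

theorem hasDerivAt_chart {e e' : OpenPartialHomeomorph M E}
    (he : e ∈ maximalAtlas 𝓘(ℝ, E) ∞ M)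
    (he' : e' ∈ maximalAtlas 𝓘(ℝ, E) ∞ M) {c : ℝ → M} {s : ℝ} (hc : ContinuousAt c s)
    (hx : c s ∈ e.source) (hx' : c s ∈ e'.source) {v : E}
    (h : HasDerivAt (fun t => e (c t)) v s) :
    HasDerivAt (fun t => e' (c t)) (fderiv ℝ (e' ∘ e.symm) (e (c s)) v) s := by
  have hzV : e (c s) ∈ (e.symm ≫ₕ e').source := by simp [hx, hx']
  have hd : DifferentiableAt ℝ (e' ∘ e.symm) (e (c s)) :=
    ((transition_real he he').contDiffAt
      ((e.symm ≫ₕ e').open_source.mem_nhds hzV)).differentiableAt (by simp)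
  have h1 := hd.hasFDerivAt.comp_hasDerivAt s h
  refine h1.congr_of_eventuallyEq ?_
  filter_upwards [hc.preimage_mem_nhds (e.open_source.mem_nhds hx)] with t ht
  have : c t ∈ e.source := ht
  simp [e.left_inv this]

/-- velocity at `z` of a minimal geodesic from `p` through `z` -/
def Vel (p : M) (e : OpenPartialHomeomorph M E) (z : M) (v : E) : Prop :=
  ∃ (c : ℝ → M) (ℓ s : ℝ), MinGeo c 0 ℓ ∧ c 0 = p ∧ s ∈ Ioo 0 ℓ ∧ c s = z ∧
    HasDerivAt (fun t => e (c t)) v s

theorem Vel.change {p : M} {e e' : OpenPartialHomeomorph M E} {z : M} {v : E}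
    (he : e ∈ maximalAtlas 𝓘(ℝ, E) ∞ M) (he' : e' ∈ maximalAtlas 𝓘(ℝ, E) ∞ M)
    (hx : z ∈ e.source) (hx' : z ∈ e'.source) (h : Vel p e z v) :
    Vel p e' z (fderiv ℝ (e' ∘ e.symm) (e z) v) := by
  obtain ⟨c, ℓ, s, h1, h2, h3, rfl, h5⟩ := h
  exact ⟨c, ℓ, s, h1, h2, h3, rfl, hasDerivAt_chart he he' (minGeo_continuousAt h1 h3) hx hx' h5⟩

/-- second part of GEO -/
def Geo2 (E : Type) [NormedAddCommGroup E] [NormedSpace ℝ E]
    (M : Type) [MetricSpace M] [ChartedSpace E M]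
    [RiemannianBundle (fun x : M => TangentSpace 𝓘(ℝ, E) x)]
    [IsManifold 𝓘(ℝ, E) ∞ M] : Prop :=
  ∀ (c : ℝ → M) (a b s₀ : ℝ), a < b → MinGeo c a b → s₀ ∈ Icc a b →
    ∀ e ∈ maximalAtlas 𝓘(ℝ, E) ∞ M, c s₀ ∈ e.source →
    ∃ δ > 0, ∃ w w' : ℝ → E, (∀ t, |t - s₀| < δ → GeoAt e w w' t) ∧
      ∀ t ∈ Icc a b, |t - s₀| < δ → c t ∈ e.source ∧ e (c t) = w t

theorem exists_vel (h2 : Geo2 E M) {c : ℝ → M} {a b s : ℝ} (hc : MinGeo c a b)
    (hs : s ∈ Ioo a b) {e : OpenPartialHomeomorph M E} (he : e ∈ maximalAtlas 𝓘(ℝ, E) ∞ M)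
    (hx : c s ∈ e.source) :
    ∃ v, HasDerivAt (fun t => e (c t)) v s ∧ chartG e (e (c s)) v v = 1 := by
  obtain ⟨δ, hδ, w, w', hw, hcw⟩ := h2 c a b s (hs.1.trans hs.2) hc (Ioo_subset_Icc_self hs) e he hx
  have h0 := hw s (by simpa using hδ)
  have h1 := hcw s (Ioo_subset_Icc_self hs) (by simpa using hδ)
  refine ⟨w' s, ?_, ?_⟩
  · refine h0.1.congr_of_eventuallyEq ?_
    filter_upwards [Icc_mem_nhds hs.1 hs.2, Metric.ball_mem_nhds s hδ] with t ht ht'
    exact (hcw t ht (by rwa [mem_ball, Real.dist_eq] at ht')).2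
  · rw [h1.2]
    exact h0.2.2.2

theorem vel_unique (h2 : Geo2 E M) {p : M} {e : OpenPartialHomeomorph M E} {z : M} {v v' : E}
    (he : e ∈ maximalAtlas 𝓘(ℝ, E) ∞ M) (hx : z ∈ e.source) (h : Vel p e z v)
    (h' : Vel p e z v') : v = v' := by
  obtain ⟨c₁, ℓ₁, s₁, a1, a2, a3, a4, a5⟩ := h
  obtain ⟨c₂, ℓ₂, s₂, b1, b2, b3, b4, b5⟩ := h'
  have hs₁ : dist p z = s₁ := by
    rw [← a2, ← a4, a1 0 ⟨le_rfl, (a3.1.trans a3.2).le⟩ s₁ (Ioo_subset_Icc_self a3), zero_sub,
      abs_neg, abs_of_pos a3.1]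
  have hs₂ : dist p z = s₂ := by
    rw [← b2, ← b4, b1 0 ⟨le_rfl, (b3.1.trans b3.2).le⟩ s₂ (Ioo_subset_Icc_self b3), zero_sub,
      abs_neg, abs_of_pos b3.1]
  obtain rfl : s₁ = s₂ := hs₁.symm.trans hs₂
  have hc : MinGeo (fun t => if t ≤ s₁ then c₁ t else c₂ t) 0 (s₁ + (ℓ₂ - s₁)) := by
    refine minGeo_concat a3.1.le (sub_nonneg.2 b3.2.le)
      (minGeo_mono a1 (Icc_subset_Icc le_rfl a3.2.le)) ?_ (a4.trans b4.symm) ?_
    · rw [add_sub_cancel]
      exact minGeo_mono b1 (Icc_subset_Icc b3.1.le le_rfl)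
    · rw [add_sub_cancel, a2, ← b2, b1 0 ⟨le_rfl, (b3.1.trans b3.2).le⟩ ℓ₂
        ⟨(b3.1.trans b3.2).le, le_rfl⟩, zero_sub, abs_neg, abs_of_pos (b3.1.trans b3.2)]
  rw [add_sub_cancel] at hc
  have hcs : (fun t => if t ≤ s₁ then c₁ t else c₂ t) s₁ = z := by simp [a4]
  obtain ⟨u, hu, -⟩ := exists_vel h2 hc b3 he (by simpa [a4] using hx)
  have e1 : v = u := by
    refine UniqueDiffWithinAt.eq_deriv (Iic s₁) (uniqueDiffWithinAt_Iic s₁) a5.hasDerivWithinAt ?_
    refine hu.hasDerivWithinAt.congr_of_mem ?_ (by simp : s₁ ∈ Iic s₁)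
    intro t ht
    have : t ≤ s₁ := ht
    simp [this]
  have e2 : v' = u := by
    refine UniqueDiffWithinAt.eq_deriv (Ici s₁) (uniqueDiffWithinAt_Ici s₁) b5.hasDerivWithinAt ?_
    refine hu.hasDerivWithinAt.congr_of_mem ?_ (by simp : s₁ ∈ Ici s₁)
    intro t ht
    have : s₁ ≤ t := ht
    rcases this.eq_or_lt with h3 | h3
    · subst h3
      simp [a4, b4]
    · simp [not_le.2 h3]
  rw [e1, e2]

theorem vel_unit (h2 : Geo2 E M) {p : M} {e : OpenPartialHomeomorph M E} {z : M} {v : E}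
    (he : e ∈ maximalAtlas 𝓘(ℝ, E) ∞ M) (hx : z ∈ e.source) (h : Vel p e z v) :
    chartG e (e z) v v = 1 := by
  obtain ⟨c₁, ℓ₁, s₁, a1, a2, a3, rfl, a5⟩ := h
  obtain ⟨u, hu, hu'⟩ := exists_vel h2 a1 a3 he hx
  rw [a5.unique hu]
  exact hu'

/-- the velocity at `z` of a minimal geodesic from `p` via `z` to `y` -/
theorem vel_through (h1 : ∀ x y : M, ∃ c : ℝ → M,
      MinGeo c 0 (dist x y) ∧ c 0 = x ∧ c (dist x y) = y) (h2 : Geo2 E M)
    {e : OpenPartialHomeomorph M E} (he : e ∈ maximalAtlas 𝓘(ℝ, E) ∞ M) {x : M} {r : ℝ}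
    {V : M × M → E}
    (hV : ∀ (c : ℝ → M) (s h : ℝ), 0 < h → MinGeo c s (s + h) → dist (c s) x < r →
      dist (c (s + h)) x < r →
      HasDerivWithinAt (fun t => e (c t)) (V (c s, c (s + h))) (Icc s (s + h)) s)
    {p z y : M} (hz : z ∈ e.source) (hpz : 0 < dist p z) (hzy : 0 < dist z y)
    (hpy : dist p y = dist p z + dist z y) (hzx : dist z x < r) (hyx : dist y x < r) :
    Vel p e z (V (z, y)) := by
  obtain ⟨c₁, a1, a2, a3⟩ := h1 p z
  obtain ⟨c₂, b1, b2, b3⟩ := h1 z y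
  set c : ℝ → M := fun t => if t ≤ dist p z then c₁ t else c₂ (t - dist p z) with hcdef
  have hc : MinGeo c 0 (dist p z + dist z y) := by
    refine minGeo_concat (c₂ := fun t => c₂ (t - dist p z)) hpz.le hzy.le a1
      (minGeo_shift _ b1) ?_ ?_
    · simp [a3, b2]
    · simp [a2, b3, hpy]
  have hcz : c (dist p z) = z := by simp [hcdef, a3]
  have hcy : c (dist p z + dist z y) = y := by
    simp [hcdef, not_le.2 hzy, b3]
  have hc0 : c 0 = p := by simp [hcdef, a2]
  have hin : dist p z ∈ Ioo 0 (dist p z + dist z y) := ⟨hpz, by linarith⟩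
  obtain ⟨u, hu, -⟩ := exists_vel h2 hc hin he (by rw [hcz]; exact hz)
  have h3 := hV c (dist p z) (dist z y) hzy (minGeo_mono hc (Icc_subset_Icc hpz.le le_rfl))
    (by rw [hcz]; exact hzx) (by rw [hcy]; exact hyx)
  rw [hcz, hcy] at h3
  have h4 : V (z, y) = u := by
    refine UniqueDiffWithinAt.eq_deriv (Icc (dist p z) (dist p z + dist z y)) ?_ h3
      hu.hasDerivWithinAt
    exact (uniqueDiffOn_Icc (by linarith)) _ ⟨le_rfl, by linarith⟩
  rw [h4]
  exact ⟨c, _, _, hc, hc0, hin, hcz, hu⟩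

open Classical in
/-- the function of RICF -/
def ricF (p : M) (K : ℝ) (z : M) : ℝ :=
  if h : ∃ v : E, Vel p (chartAt E z) z v then
    ric (chartG (chartAt E z)) (chartAt E z z) h.choose + K else 0

theorem ricF_eq (h2 : Geo2 E M) {p : M} (K : ℝ) {e : OpenPartialHomeomorph M E} {z : M} {v : E}
    (he : e ∈ maximalAtlas 𝓘(ℝ, E) ∞ M) (hx : z ∈ e.source) (h : Vel p e z v) :
    ricF (E := E) p K z = ric (chartG e) (e z) v + K := by
  have he₀ : chartAt E z ∈ maximalAtlas 𝓘(ℝ, E) ∞ M := chart_mem_maximalAtlas z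
  have hz₀ : z ∈ (chartAt E z).source := mem_chart_source E z
  have h3 := h.change he he₀ hx hz₀
  have hex : ∃ v : E, Vel p (chartAt E z) z v := ⟨_, h3⟩
  rw [ricF, dif_pos hex, vel_unique h2 he₀ hz₀ hex.choose_spec h3, ric_chart he he₀ hx hz₀]

theorem ricF_nonneg (h2 : Geo2 E M) {κ : ℝ} (hκ : SecGE E M (-κ ^ 2)) (p z : M) :
    0 ≤ ricF (E := E) p ((Module.finrank ℝ E - 1) * κ ^ 2) z := by
  rw [ricF]
  split_ifs with h
  · have he₀ : chartAt E z ∈ maximalAtlas 𝓘(ℝ, E) ∞ M := chart_mem_maximalAtlas z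
    have hz₀ : z ∈ (chartAt E z).source := mem_chart_source E z
    have hzt : chartAt E z z ∈ (chartAt E z).target := (chartAt E z).map_source hz₀
    have hv := vel_unit h2 he₀ hz₀ h.choose_spec
    set v := h.choose
    set e := chartAt E z
    obtain ⟨b, hb⟩ := exists_onb (chartG e (e z)) (fun v w => chartG_symm _ _ _ _)
      (fun v hv => chartG_pos he₀ hzt v hv)
    rw [← ric_eq hb]
    obtain ⟨Γ, hΓ, hsec⟩ := hκ e he₀ (e z) hzt
    have h1 : ∀ i, -κ ^ 2 * (1 - chartG e (e z) (b i) v ^ 2) ≤ secG (chartG e) (e z) (b i) v := by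
      intro i
      have := hsec (b i) v
      rw [sectNum_eq he₀ hzt hΓ, ← chartG_apply, ← chartG_apply, ← chartG_apply, hv, hb i i] at this
      simpa using this
    have h3 := Finset.sum_le_sum fun i (_ : i ∈ Finset.univ) => h1 i
    rw [← Finset.mul_sum, Finset.sum_sub_distrib, onb_parseval hb, hv] at h3
    simp at h3
    linarith
  · exact le_rfl

theorem pathConnected_of_riemannian [IsRiemannianManifold 𝓘(ℝ, E) M] (x y : M) :
    Joined x y := by
  have hlt : riemannianEDist 𝓘(ℝ, E) x y < ENNReal.ofReal (dist x y + 1) := by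
    rw [← IsRiemannianManifold.out (I := 𝓘(ℝ, E)), edist_dist]
    rw [ENNReal.ofReal_lt_ofReal_iff (by positivity)]
    linarith
  obtain ⟨γ, hγ0, hγ1, hγ, hlen⟩ := exists_lt_of_riemannianEDist_lt hlt
  exact (JoinedIn.ofLine (F := univ) hγ.continuousOn hγ0 hγ1 (subset_univ _)).joined

/-- points beyond `z` -/
theorem exists_next (h1 : ∀ x y : M, ∃ c : ℝ → M,
      MinGeo c 0 (dist x y) ∧ c 0 = x ∧ c (dist x y) = y) {p q : M} {ρ θ : ℝ} (hθ : 0 < θ)
    (hρ : ρ < dist p q) {z : M}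
    (hz : ∃ w, dist w q ≤ ρ ∧ ∃ s ∈ Icc (1 / 2 : ℝ) (1 - θ),
        dist p z = s * dist p w ∧ dist z w = (1 - s) * dist p w) {h : ℝ} (hh : 0 < h)
    (hh' : h ≤ θ * (dist p q - ρ)) :
    0 < dist p z ∧ ∃ y, dist z y = h ∧ dist p y = dist p z + h := by
  obtain ⟨w, hw, s, hs, e1, e2⟩ := hz
  have hD : dist p q - ρ ≤ dist p w := by
    have := dist_triangle p w q
    linarith
  have hD0 : 0 < dist p w := by linarith
  have h3 : 0 < dist p z := by
    rw [e1]
    exact mul_pos (by linarith [hs.1]) hD0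
  have h4 : h ≤ dist z w := by
    rw [e2]
    refine hh'.trans ?_
    exact mul_le_mul (by linarith [hs.2]) hD (by linarith) (by linarith [hs.2])
  refine ⟨h3, ?_⟩
  obtain ⟨c, c1, c2, c3⟩ := h1 z w
  refine ⟨c h, ?_, ?_⟩
  · have := c1 0 ⟨le_rfl, dist_nonneg⟩ h ⟨hh.le, h4⟩
    rwa [c2, zero_sub, abs_neg, abs_of_pos hh] at this
  · have k1 := c1 0 ⟨le_rfl, dist_nonneg⟩ h ⟨hh.le, h4⟩
    rw [c2, zero_sub, abs_neg, abs_of_pos hh] at k1
    have k2 := c1 h ⟨hh.le, h4⟩ (dist z w) ⟨dist_nonneg, le_rfl⟩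
    rw [c3, abs_sub_comm, abs_of_nonneg (by linarith)] at k2
    have k3 := dist_triangle p (c h) w
    have k4 := dist_triangle p z (c h)
    have k5 : dist p w = dist p z + dist z w := by rw [e1, e2]; ring
    linarith

theorem ricf_of_geo (hGEO : Stmt.GEO) : Stmt.RICF := by
  intro E _ _ _ M _ _ _ _ _ _ κ hκ hsec hcomp p
  obtain ⟨g1, g2, g3⟩ := hGEO E M
  have hconn : ConnectedSpace M := by
    have : PathConnectedSpace M := ⟨⟨p⟩, fun x y => pathConnected_of_riemannian (E := E) x y⟩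
    infer_instance
  obtain ⟨hprop, h1⟩ := g1 hcomp hconn
  have h2 : Geo2 E M := g2
  refine ⟨ricF (E := E) p ((Module.finrank ℝ E - 1) * κ ^ 2), ricF_nonneg h2 hsec p, ?_, ?_⟩
  · intro c ℓ s hc hc0 hs e he hx v hv b hb
    have hvel : Vel p e (c s) v := ⟨c, ℓ, s, hc, hc0, hs, rfl, hv⟩
    rw [ricF_eq h2 _ he hx hvel, add_sub_cancel_right, ric_eq hb]
  · intro q ρ θ hθ hθ' hρ z₀ hz₀
    have he : chartAt E z₀ ∈ maximalAtlas 𝓘(ℝ, E) ∞ M := chart_mem_maximalAtlas z₀
    have hz₀s : z₀ ∈ (chartAt E z₀).source := mem_chart_source E z₀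
    set e := chartAt E z₀ with hedef
    obtain ⟨r, hr, V, hVc, hV⟩ := g3 z₀ e he hz₀s
    set h : ℝ := min (r / 2) (θ * (dist p q - ρ)) with hhdef
    have hh : 0 < h := lt_min (by linarith) (mul_pos hθ (by linarith))
    have hhr : h ≤ r / 2 := min_le_left _ _
    have hhθ : h ≤ θ * (dist p q - ρ) := min_le_right _ _
    have hpz₀ : 0 < dist p z₀ := (exists_next h1 hθ hρ hz₀ hh hhθ).1
    refine tendsto_of_subseq_tendsto fun zs hzs => ?_
    obtain ⟨hzs1, hzs2⟩ := tendsto_nhdsWithin_iff.1 hzs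
    have hev : ∀ᶠ n in atTop, (∃ w, dist w q ≤ ρ ∧ ∃ s ∈ Icc (1 / 2 : ℝ) (1 - θ),
        dist p (zs n) = s * dist p w ∧ dist (zs n) w = (1 - s) * dist p w) ∧
        zs n ∈ e.source ∧ dist (zs n) z₀ < r / 2 := by
      filter_upwards [hzs2, hzs1 (e.open_source.mem_nhds hz₀s),
        hzs1 (Metric.ball_mem_nhds z₀ (by linarith : 0 < r / 2))] with n a b c
      exact ⟨a, b, c⟩
    obtain ⟨N, hN⟩ := eventually_atTop.1 hev
    have hex : ∀ n, ∃ y, dist (zs (n + N)) y = h ∧ dist p y = dist p (zs (n + N)) + h := fun n =>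
      (exists_next h1 hθ hρ (hN (n + N) (by omega)).1 hh hhθ).2
    choose ys hys1 hys2 using hex
    have hysr : ∀ n, dist (ys n) z₀ < r := by
      intro n
      have k1 := dist_triangle (ys n) (zs (n + N)) z₀
      have k2 := (hN (n + N) (by omega)).2.2
      rw [dist_comm (ys n) (zs (n + N)), hys1 n] at k1
      linarith
    obtain ⟨y, -, φ, hφ, hy⟩ := (isCompact_closedBall z₀ r).tendsto_subseq
      (x := ys) (fun n => (hysr n).le)
    have hz' : Tendsto (fun n => zs (φ n + N)) atTop (𝓝 z₀) :=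
      hzs1.comp (tendsto_atTop_mono (fun n => Nat.le_add_right _ _) hφ.tendsto_atTop)
    have hd1 : dist z₀ y = h := by
      refine tendsto_nhds_unique (hz'.dist hy) ?_
      have : (fun n => dist (zs (φ n + N)) ((ys ∘ φ) n)) = fun _ => h := by
        funext n
        exact hys1 (φ n)
      rw [this]
      exact tendsto_const_nhds
    have hd2 : dist p y = dist p z₀ + h := by
      refine tendsto_nhds_unique (tendsto_const_nhds.dist hy) ?_
      have : (fun n => dist p ((ys ∘ φ) n)) = fun n => dist p (zs (φ n + N)) + h := by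
        funext n
        exact hys2 (φ n)
      rw [this]
      exact (tendsto_const_nhds.dist hz').add_const h
    have hvel₀ : Vel p e z₀ (V (z₀, y)) :=
      vel_through h1 h2 he hV hz₀s hpz₀ (by rw [hd1]; exact hh) (by rw [hd1, hd2])
        (by rw [dist_self]; exact hr) (by rw [dist_comm, hd1]; linarith)
    have hvel : ∀ n, Vel p e (zs (φ n + N)) (V (zs (φ n + N), ys (φ n))) := fun n =>
      vel_through h1 h2 he hV (hN _ (by omega)).2.1
        (exists_next h1 hθ hρ (hN (φ n + N) (by omega)).1 hh hhθ).1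
        (by rw [hys1]; exact hh) (by rw [hys1, hys2])
        (by have := (hN (φ n + N) (by omega)).2.2; linarith) (hysr _)
    refine ⟨fun n => φ n + N, ?_⟩
    have hgoal : (fun n => ricF (E := E) p ((Module.finrank ℝ E - 1) * κ ^ 2) (zs (φ n + N))) =
        fun n => ric (chartG e) (e (zs (φ n + N))) (V (zs (φ n + N), ys (φ n))) +
          (Module.finrank ℝ E - 1) * κ ^ 2 := by
      funext n
      exact ricF_eq h2 _ he (hN _ (by omega)).2.1 (hvel n)
    show Tendsto (fun n => ricF (E := E) p ((Module.finrank ℝ E - 1) * κ ^ 2) (zs (φ n + N)))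
      atTop (𝓝 (ricF (E := E) p ((Module.finrank ℝ E - 1) * κ ^ 2) z₀))
    rw [hgoal, ricF_eq h2 _ he hz₀s hvel₀]
    refine Tendsto.add_const _ ?_
    have hVt : Tendsto (fun n => V (zs (φ n + N), ys (φ n))) atTop (𝓝 (V (z₀, y))) := by
      have k1 : (z₀, y) ∈ {y : M × M | dist y.1 z₀ < r ∧ dist y.2 z₀ < r ∧ y.1 ≠ y.2} := by
        refine ⟨by simpa using hr, by show dist y z₀ < r; rw [dist_comm, hd1]; linarith, ?_⟩
        show z₀ ≠ y
        intro h0
        rw [← h0, dist_self] at hd1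
        linarith
      refine (hVc _ k1).tendsto.comp (tendsto_nhdsWithin_iff.2 ⟨?_, ?_⟩)
      · exact hz'.prodMk_nhds hy
      · refine Eventually.of_forall fun n => ⟨?_, hysr _, ?_⟩
        · have := (hN (φ n + N) (by omega)).2.2
          show dist (zs (φ n + N)) z₀ < r
          linarith
        · show zs (φ n + N) ≠ ys (φ n)
          intro h0
          have := hys1 (φ n)
          rw [← h0, dist_self] at this
          linarith
    have hct : ContinuousWithinAt (fun p : E × E => ric (chartG e) p.1 p.2)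
        (e.target ×ˢ univ) (e z₀, V (z₀, y)) :=
      continuousOn_ric (localRiem_chartG he) _ ⟨e.map_source hz₀s, mem_univ _⟩
    refine Tendsto.comp (y := 𝓝[e.target ×ˢ univ] (e z₀, V (z₀, y))) hct
      (tendsto_nhdsWithin_iff.2 ⟨?_, ?_⟩) (g := fun p : E × E => ric (chartG e) p.1 p.2)
      (f := fun n => (e (zs (φ n + N)), V (zs (φ n + N), ys (φ n))))
    · exact Tendsto.prodMk_nhds ((e.continuousAt hz₀s).tendsto.comp hz') hVt
    · exact Eventually.of_forall fun n => ⟨e.map_source (hN _ (by omega)).2.1, mem_univ _⟩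

end Vale.Agent.P210.R2.H973
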