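import Vale.Agent.P210.R2.H53.SpecR
import Vale.Agent.P210.R2.H265.Inv

set_option linter.all false

open scoped ContDiff Topology Matrix
open Set Metric Filter

set_option maxSynthPendingDepth 3

noncomputable section

namespace Vale.Agent.P210.R2.H973

open Vale.Agent.P210.R2.H53

variable {E : Type} [NormedAddCommGroup E] [NormedSpace ℝ E]

/-- polarised curvature -/
def Qf (G : E → E →L[ℝ] E →L[ℝ] ℝ) (z v a a' : E) : ℝ :=
  -(fderiv ℝ (fderiv ℝ G) z a a' v v + fderiv ℝ (fderiv ℝ G) z v v a a'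
      - 2 * fderiv ℝ (fderiv ℝ G) z v a a' v) / 2
    + G z (chris G z a v) (chris G z a' v) - G z (chris G z a a') (chris G z v v)

theorem Qf_self (G : E → E →L[ℝ] E →L[ℝ] ℝ) (z v a : E) : Qf G z v a a = secG G z a v := rfl

/-- polarised curvature as a bilinear map -/
def Qb (G : E → E →L[ℝ] E →L[ℝ] ℝ) (z v : E) : E →ₗ[ℝ] E →ₗ[ℝ] ℝ :=
  LinearMap.mk₂ ℝ (Qf G z v)
    (by intro a b c; simp only [Qf, map_add, add_apply]; ring)
    (by intro r a c; simp only [Qf, map_smul, smul_apply, smul_eq_mul]; ring)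
    (by intro a b c; simp only [Qf, map_add, add_apply]; ring)
    (by intro r a c; simp only [Qf, map_smul, smul_apply, smul_eq_mul]; ring)

theorem Qb_apply (G : E → E →L[ℝ] E →L[ℝ] ℝ) (z v a b : E) : Qb G z v a b = Qf G z v a b := rfl

section

variable [FiniteDimensional ℝ E]

variable (E) in
/-- a fixed basis -/
def bas : Module.Basis (Fin (Module.finrank ℝ E)) ℝ E := Module.finBasis ℝ E

/-- Gram matrix -/
def gram (B : E →L[ℝ] E →L[ℝ] ℝ) : Matrix (Fin (Module.finrank ℝ E)) (Fin (Module.finrank ℝ E)) ℝ :=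
  Matrix.of fun i j => B (bas E i) (bas E j)

/-- Ricci curvature in the direction `v` -/
def ric (G : E → E →L[ℝ] E →L[ℝ] ℝ) (z v : E) : ℝ :=
  ∑ i, ∑ j, (gram (G z))⁻¹ i j * Qf G z v (bas E i) (bas E j)

/-- `b` is orthonormal with respect to `B` -/
def ONB (B : E →L[ℝ] E →L[ℝ] ℝ) (b : Module.Basis (Fin (Module.finrank ℝ E)) ℝ E) : Prop :=
  ∀ i j, B (b i) (b j) = if i = j then 1 else 0

theorem bilin_expand (F : E →ₗ[ℝ] E →ₗ[ℝ] ℝ) (x y : E) :
    F x y = ∑ i, ∑ j, (bas E).repr x i * (bas E).repr y j * F (bas E i) (bas E j) := by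
  conv_lhs => rw [← (bas E).sum_repr x, ← (bas E).sum_repr y]
  simp only [map_sum, map_smul, LinearMap.sum_apply, LinearMap.smul_apply, smul_eq_mul,
    Finset.mul_sum]
  rw [Finset.sum_comm]
  refine Finset.sum_congr rfl fun i _ => Finset.sum_congr rfl fun j _ => ?_
  ring

theorem gram_inv {B : E →L[ℝ] E →L[ℝ] ℝ} {b : Module.Basis (Fin (Module.finrank ℝ E)) ℝ E}
    (hb : ONB B b) : (gram B)⁻¹ = ((bas E).toMatrix b) * ((bas E).toMatrix b)ᵀ := by
  set P := (bas E).toMatrix b with hP
  have h1 : Pᵀ * gram B * P = 1 := by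
    ext k l
    have h2 := hb k l
    have h3 := bilin_expand (LinearMap.mk₂ ℝ (fun x y => B x y)
      (by intro a b c; simp) (by intro r a c; simp)
      (by intro a b c; simp) (by intro r a c; simp)) (b k) (b l)
    simp only [LinearMap.mk₂_apply] at h3
    rw [h3] at h2
    rw [Matrix.one_apply, ← h2, Matrix.mul_apply]
    simp only [Matrix.mul_apply, Matrix.transpose_apply, Finset.sum_mul]
    rw [Finset.sum_comm]
    refine Finset.sum_congr rfl fun i _ => Finset.sum_congr rfl fun j _ => ?_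
    simp only [hP, Module.Basis.toMatrix_apply, gram, Matrix.of_apply]
    ring
  have h2 : P * (Pᵀ * gram B) = 1 := mul_eq_one_comm.1 h1
  apply Matrix.inv_eq_left_inv
  rw [Matrix.mul_assoc]
  exact h2

theorem ric_eq {G : E → E →L[ℝ] E →L[ℝ] ℝ} {z : E}
    {b : Module.Basis (Fin (Module.finrank ℝ E)) ℝ E} (hb : ONB (G z) b) (v : E) :
    ∑ i, secG G z (b i) v = ric G z v := by
  rw [ric, gram_inv hb]
  simp only [← Qf_self, ← Qb_apply]
  have h1 : ∀ k, Qb G z v (b k) (b k) = ∑ i, ∑ j, (bas E).repr (b k) i * (bas E).repr (b k) j *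
      Qb G z v (bas E i) (bas E j) := fun k => bilin_expand _ _ _
  rw [Finset.sum_congr rfl fun k _ => h1 k, Finset.sum_comm]
  refine Finset.sum_congr rfl fun i _ => ?_
  rw [Finset.sum_comm]
  refine Finset.sum_congr rfl fun j _ => ?_
  rw [Matrix.mul_apply, Finset.sum_mul]
  refine Finset.sum_congr rfl fun k _ => ?_
  simp only [Matrix.transpose_apply, Module.Basis.toMatrix_apply]

theorem exists_onb (B : E →L[ℝ] E →L[ℝ] ℝ) (hsym : ∀ v w, B v w = B w v)
    (hpos : ∀ v, v ≠ 0 → 0 < B v v) :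
    ∃ b : Module.Basis (Fin (Module.finrank ℝ E)) ℝ E, ONB B b := by
  have : Invertible (2 : ℝ) := invertibleOfNonzero two_ne_zero
  let F : LinearMap.BilinForm ℝ E := LinearMap.mk₂ ℝ (fun x y => B x y)
      (by intro a b c; simp) (by intro r a c; simp)
      (by intro a b c; simp) (by intro r a c; simp)
  have hF : ∀ x y, F x y = B x y := fun x y => rfl
  have hFs : LinearMap.IsSymm F := ⟨fun x y => by
    rw [RingHom.id_apply, hF, hF]
    exact hsym x y⟩
  obtain ⟨v, hv⟩ := LinearMap.BilinForm.exists_orthogonal_basis hFs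
  have hvpos : ∀ i, 0 < B (v i) (v i) := fun i => hpos _ (v.ne_zero i)
  have hu : ∀ i, IsUnit ((√(B (v i) (v i)))⁻¹ : ℝ) := fun i =>
    (inv_ne_zero (Real.sqrt_pos.2 (hvpos i)).ne').isUnit
  refine ⟨v.isUnitSMul hu, fun i j => ?_⟩
  rw [Module.Basis.isUnitSMul_apply, Module.Basis.isUnitSMul_apply]
  rw [map_smul, map_smul, smul_apply, smul_eq_mul, smul_eq_mul]
  split_ifs with hij
  · subst hij
    have h1 := hvpos i
    have h2 : √(B (v i) (v i)) ≠ 0 := (Real.sqrt_pos.2 h1).ne'
    field_simp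
    exact (Real.sq_sqrt h1.le).symm
  · have h1 : B (v i) (v j) = 0 := by
      rw [← hF]
      exact hv hij
    rw [h1]
    simp

theorem onb_parseval {B : E →L[ℝ] E →L[ℝ] ℝ} {b : Module.Basis (Fin (Module.finrank ℝ E)) ℝ E}
    (hb : ONB B b) (v : E) : ∑ i, B (b i) v ^ 2 = B v v := by
  have h1 : ∀ i, B (b i) v = b.repr v i := by
    intro i
    conv_lhs => rw [← b.sum_repr v]
    rw [map_sum]
    simp only [map_smul, hb i _, smul_eq_mul, mul_ite, mul_one, mul_zero, Finset.sum_ite_eq,
      Finset.mem_univ, if_true]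
  have h2 : B v v = B (∑ i, b.repr v i • b i) v := by rw [b.sum_repr v]
  rw [h2, map_sum, ContinuousLinearMap.sum_apply]
  refine Finset.sum_congr rfl fun i _ => ?_
  rw [map_smul, smul_apply, smul_eq_mul, ← h1 i]
  ring

/-- change of charts -/
theorem ric_change {G G' : E → E →L[ℝ] E →L[ℝ] ℝ} {τ : E → E} {z : E}
    (hτ : ContDiffAt ℝ ∞ τ z) (hG : ContDiffAt ℝ ∞ G (τ z)) (hG' : ContDiffAt ℝ ∞ G' z)
    (hsym : ∀ᶠ y in 𝓝 (τ z), ∀ v w, G y v w = G y w v)
    (hpos : ∀ v, v ≠ 0 → 0 < G (τ z) v v) (hpos' : ∀ v, v ≠ 0 → 0 < G' z v v)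
    (hbij : Function.Bijective (fderiv ℝ τ z))
    (he : ∀ᶠ y in 𝓝 z, ∀ v w, G' y v w = G (τ y) (fderiv ℝ τ y v) (fderiv ℝ τ y w)) (v : E) :
    ric G' z v = ric G (τ z) (fderiv ℝ τ z v) := by
  have hsymz : ∀ v w, G' z v w = G' z w v := by
    intro v w
    rw [he.self_of_nhds, he.self_of_nhds]
    exact hsym.self_of_nhds _ _
  obtain ⟨b, hb⟩ := exists_onb (G' z) hsymz hpos'
  have h1 := (H265.inv_main G G' τ z (fun u v => chris G (τ z) u v) (fun u v => chris G' z u v)
    hτ hG hG' hsym hpos hbij he (fun u v w => chris_spec_of_pos hpos' u v w)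
    (fun u v w => chris_spec_of_pos hpos u v w)).2
  let T : E ≃ₗ[ℝ] E := LinearEquiv.ofBijective (fderiv ℝ τ z : E →ₗ[ℝ] E) hbij
  have hT : ∀ x, T x = fderiv ℝ τ z x := fun x => rfl
  have hb' : ONB (G (τ z)) (b.map T) := by
    intro i j
    rw [Module.Basis.map_apply, Module.Basis.map_apply, hT, hT, ← he.self_of_nhds]
    exact hb i j
  rw [← ric_eq hb, ← ric_eq hb']
  refine Finset.sum_congr rfl fun i _ => ?_
  rw [Module.Basis.map_apply, hT]
  exact h1 (b i) v

/-- continuity of the Ricci curvature -/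
theorem continuousOn_ric {G : E → E →L[ℝ] E →L[ℝ] ℝ} {U : Set E} (h : LocalRiem G U) :
    ContinuousOn (fun p : E × E => ric G p.1 p.2) (U ×ˢ univ) := by
  have hG : ContinuousOn (fun p : E × E => G p.1) (U ×ˢ univ) :=
    h.smooth.continuousOn.comp continuousOn_fst fun p hp => hp.1
  have hch : ContinuousOn (fun p : E × E => chris G p.1) (U ×ˢ univ) :=
    h.contDiffOn_chris.continuousOn.comp continuousOn_fst fun p hp => hp.1
  have hD2 : ContinuousOn (fderiv ℝ (fderiv ℝ G)) U :=
    (h.contDiffOn_fderiv.fderiv_of_isOpen h.isOpen (m := ∞) (by simp)).continuousOn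
  have hD : ContinuousOn (fun p : E × E => fderiv ℝ (fderiv ℝ G) p.1) (U ×ˢ univ) :=
    hD2.comp continuousOn_fst fun p hp => hp.1
  have hv : ContinuousOn (fun p : E × E => p.2) (U ×ˢ univ) := continuousOn_snd
  have hinv : ∀ i j, ContinuousOn (fun p : E × E => (gram (G p.1))⁻¹ i j) (U ×ˢ univ) := by
    intro i j
    have hgr : ∀ i j, ContinuousOn (fun p : E × E => gram (G p.1) i j) (U ×ˢ univ) := fun i j =>
      (hG.clm_apply continuousOn_const).clm_apply continuousOn_const
    have hgram : ContinuousOn (fun p : E × E => gram (G p.1)) (U ×ˢ univ) :=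
      continuousOn_pi.2 fun i => continuousOn_pi.2 fun j => hgr i j
    have hdet : ∀ p ∈ (U ×ˢ univ : Set (E × E)), (gram (G p.1)).det ≠ 0 := by
      intro p hp
      obtain ⟨b, hb⟩ := exists_onb (G p.1) (h.symm p.1 hp.1) (h.pos p.1 hp.1)
      have h1 := gram_inv hb
      intro h0
      have h2 : (gram (G p.1))⁻¹ = 0 := by
        rw [Matrix.inv_def, h0]
        simp
      rw [h2] at h1
      have h3 : (bas E).toMatrix b * ((bas E).toMatrix b)ᵀ = 0 := h1.symm
      have h4 : ((bas E).toMatrix b).det * ((bas E).toMatrix b).det = 0 ∨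
        IsEmpty (Fin (Module.finrank ℝ E)) := by
        rcases isEmpty_or_nonempty (Fin (Module.finrank ℝ E)) with h5 | h5
        · exact Or.inr h5
        · left
          have := congrArg Matrix.det h3
          rwa [Matrix.det_mul, Matrix.det_transpose, Matrix.det_zero] at this
      rcases h4 with h5 | h5
      · have h6 : IsUnit ((bas E).toMatrix b).det := by
          have := (bas E).isUnit_det b
          rwa [Module.Basis.det_apply] at this
        exact h6.ne_zero (by simpa using h5)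
      · rw [Matrix.det_isEmpty] at h0
        exact one_ne_zero h0
    have h1 : ContinuousOn (fun p : E × E => ((gram (G p.1)).det)⁻¹ *
        (gram (G p.1)).adjugate i j) (U ×ˢ univ) := by
      have k2 : Continuous (fun A : Matrix (Fin (Module.finrank ℝ E))
        (Fin (Module.finrank ℝ E)) ℝ => A.det) := continuous_id.matrix_det
      have k3 : Continuous (fun A : Matrix (Fin (Module.finrank ℝ E))
        (Fin (Module.finrank ℝ E)) ℝ => A.adjugate i j) :=
        continuous_id.matrix_adjugate.matrix_elem i j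
      have h2 : ContinuousOn (fun p : E × E => (gram (G p.1)).det) (U ×ˢ univ) :=
        k2.comp_continuousOn hgram
      have h3 : ContinuousOn (fun p : E × E => (gram (G p.1)).adjugate i j) (U ×ˢ univ) :=
        k3.comp_continuousOn hgram
      exact (h2.inv₀ hdet).mul h3
    refine h1.congr fun p hp => ?_
    rw [Matrix.inv_def, Ring.inverse_eq_inv']
    rfl
  have hQ : ∀ a b : E, ContinuousOn (fun p : E × E => Qf G p.1 p.2 a b) (U ×ˢ univ) := by
    intro a b
    unfold Qf
    have c1 : ContinuousOn (fun p : E × E => fderiv ℝ (fderiv ℝ G) p.1 a b p.2 p.2) (U ×ˢ univ) :=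
      (((hD.clm_apply continuousOn_const).clm_apply continuousOn_const).clm_apply hv).clm_apply hv
    have c2 : ContinuousOn (fun p : E × E => fderiv ℝ (fderiv ℝ G) p.1 p.2 p.2 a b) (U ×ˢ univ) :=
      (((hD.clm_apply hv).clm_apply hv).clm_apply continuousOn_const).clm_apply continuousOn_const
    have c3 : ContinuousOn (fun p : E × E => fderiv ℝ (fderiv ℝ G) p.1 p.2 a b p.2) (U ×ˢ univ) :=
      (((hD.clm_apply hv).clm_apply continuousOn_const).clm_apply continuousOn_const).clm_apply hv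
    have d1 : ∀ a : E, ContinuousOn (fun p : E × E => chris G p.1 a p.2) (U ×ˢ univ) := fun a =>
      (hch.clm_apply continuousOn_const).clm_apply hv
    have d2 : ContinuousOn (fun p : E × E => chris G p.1 p.2 p.2) (U ×ˢ univ) :=
      (hch.clm_apply hv).clm_apply hv
    have d3 : ContinuousOn (fun p : E × E => chris G p.1 a b) (U ×ˢ univ) :=
      (hch.clm_apply continuousOn_const).clm_apply continuousOn_const
    have e1 : ContinuousOn (fun p : E × E => G p.1 (chris G p.1 a p.2) (chris G p.1 b p.2))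
      (U ×ˢ univ) := (hG.clm_apply (d1 a)).clm_apply (d1 b)
    have e2 : ContinuousOn (fun p : E × E => G p.1 (chris G p.1 a b) (chris G p.1 p.2 p.2))
      (U ×ˢ univ) := (hG.clm_apply d3).clm_apply d2
    exact ((((c1.add c2).sub (continuousOn_const.mul c3)).neg.div_const 2).add e1).sub e2
  unfold ric
  exact continuousOn_finset_sum _ fun i _ => continuousOn_finset_sum _ fun j _ =>
    (hinv i j).mul (hQ _ _)

end

end Vale.Agent.P210.R2.H973
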