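import Vale.Agent.P210.R2.H973.Loc2
import Vale.Agent.P210.R2.H329.PtLin

/-!
# Pointwise bounds, and the scalar curvature through `n - 1` vectors
-/

open scoped ContDiff Topology
open Set Metric Filter

set_option maxSynthPendingDepth 3
set_option linter.unusedSectionVars false

noncomputable section

namespace Vale.Agent.P210.R2.H973

open Vale.Agent.P210.R2.H53

variable {E : Type} [NormedAddCommGroup E] [NormedSpace ℝ E] [FiniteDimensional ℝ E]
  {G : E → E →L[ℝ] E →L[ℝ] ℝ} {U : Set E} {z : E} {f g h k : E → ℝ}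

section onb

variable {B : E →L[ℝ] E →L[ℝ] ℝ} {b : Module.Basis (Fin (Module.finrank ℝ E)) ℝ E}

theorem onb_repr (hb : ONB B b) (v : E) (i) : b.repr v i = B (b i) v := by
  conv_rhs => rw [← b.sum_repr v]
  rw [map_sum]
  simp only [map_smul, hb i _, smul_eq_mul, mul_ite, mul_one, mul_zero, Finset.sum_ite_eq,
    Finset.mem_univ, if_true]

theorem onb_inner (hb : ONB B b) (v w : E) : B v w = ∑ i, B (b i) v * B (b i) w := by
  conv_lhs => rw [← b.sum_repr v]
  rw [map_sum, sum_apply]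
  refine Finset.sum_congr rfl fun i _ => ?_
  rw [map_smul, smul_apply, smul_eq_mul, onb_repr hb]

theorem onb_cs (hb : ONB B b) (v w : E) : B v w ^ 2 ≤ B v v * B w w := by
  rw [onb_inner hb v w, onb_inner hb v v, onb_inner hb w w]
  have := Finset.sum_mul_sq_le_sq_mul_sq Finset.univ (fun i => B (b i) v) (fun i => B (b i) w)
  simpa only [pow_two] using this

theorem onb_trace (hb : ONB B b) (T : E →ₗ[ℝ] E) :
    LinearMap.trace ℝ E T = ∑ i, B (b i) (T (b i)) := by
  classical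
  rw [LinearMap.trace_eq_matrix_trace ℝ b T, Matrix.trace]
  refine Finset.sum_congr rfl fun i _ => ?_
  rw [Matrix.diag_apply, LinearMap.toMatrix_apply, onb_repr hb]

end onb

theorem hs_eq (hR : LocalRiem G U) (hz : z ∈ U) (hf : ContDiffOn ℝ ∞ f U)
    {b : Module.Basis (Fin (Module.finrank ℝ E)) ℝ E} (hb : ONB (G z) b) :
    hsG G 0 f z = ∑ i, ∑ j, hessG G f z (b i) (b j) ^ 2 := by
  rw [hsG, onb_trace hb]
  refine Finset.sum_congr rfl fun i _ => ?_
  have h1 : (((opG G f z - ((0:ℝ) / 2) • ContinuousLinearMap.id ℝ E).comp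
    (opG G f z - ((0:ℝ) / 2) • ContinuousLinearMap.id ℝ E) : E →L[ℝ] E) : E →ₗ[ℝ] E) (b i)
      = opG G f z (opG G f z (b i)) := by
    simp
  rw [h1, hR.symm z hz, op_spec hR hz, hess_symm hR hz hf, ← op_spec hR hz,
    onb_inner hb]
  refine Finset.sum_congr rfl fun j _ => ?_
  rw [hR.symm z hz (b j), op_spec hR hz]
  ring

theorem hs_nonneg (hR : LocalRiem G U) (hz : z ∈ U) (hf : ContDiffOn ℝ ∞ f U) :
    0 ≤ hsG G 0 f z := by
  obtain ⟨b, hb⟩ := exists_onb (G z) (hR.symm z hz) (hR.pos z hz)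
  rw [hs_eq hR hz hf hb]
  positivity

theorem op_bound (hR : LocalRiem G U) (hz : z ∈ U) (hf : ContDiffOn ℝ ∞ f U) (x : E) :
    G z (opG G f z x) (opG G f z x) ≤ hsG G 0 f z * G z x x := by
  obtain ⟨b, hb⟩ := exists_onb (G z) (hR.symm z hz) (hR.pos z hz)
  rw [hs_eq hR hz hf hb, onb_inner hb, onb_inner hb x x, Finset.sum_comm, Finset.sum_mul]
  refine Finset.sum_le_sum fun j _ => ?_
  have h1 : G z (b j) (opG G f z x) = ∑ i, hessG G f z (b i) (b j) * G z (b i) x := by
    rw [hR.symm z hz (b j), op_spec hR hz, hess_symm hR hz hf]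
    conv_lhs => rw [← b.sum_repr x]
    rw [map_sum]
    refine Finset.sum_congr rfl fun i _ => ?_
    rw [map_smul, smul_eq_mul, onb_repr hb, hess_symm hR hz hf (b j)]
    ring
  rw [h1, ← pow_two]
  have := Finset.sum_mul_sq_le_sq_mul_sq Finset.univ
    (fun i => hessG G f z (b i) (b j)) (fun i => G z (b i) x)
  simpa only [pow_two] using this

theorem hess_bound (hR : LocalRiem G U) (hz : z ∈ U) (hf : ContDiffOn ℝ ∞ f U) (x y : E) :
    hessG G f z x y ^ 2 ≤ hsG G 0 f z * G z x x * G z y y := by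
  obtain ⟨b, hb⟩ := exists_onb (G z) (hR.symm z hz) (hR.pos z hz)
  rw [← op_spec hR hz]
  refine (onb_cs hb _ _).trans ?_
  have h0 : 0 ≤ G z y y := by
    rw [onb_inner hb]
    exact Finset.sum_nonneg fun i _ => mul_self_nonneg _
  exact mul_le_mul_of_nonneg_right (op_bound hR hz hf x) h0

section slots

variable (G z)

theorem Rm_add1 (x x' y a w : E) : Rm G z (x + x') y a w = Rm G z x y a w + Rm G z x' y a w := by
  simp only [Rm, map_add, map_sub, add_apply, sub_apply]
  ring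

theorem Rm_smul1 (c : ℝ) (x y a w : E) : Rm G z (c • x) y a w = c * Rm G z x y a w := by
  simp only [Rm, map_add, map_sub, map_smul, smul_apply, add_apply, sub_apply, smul_eq_mul]
  ring

theorem Rm_add2 (x y y' a w : E) : Rm G z x (y + y') a w = Rm G z x y a w + Rm G z x y' a w := by
  simp only [Rm, map_add, map_sub, add_apply, sub_apply]
  ring

theorem Rm_smul2 (c : ℝ) (x y a w : E) : Rm G z x (c • y) a w = c * Rm G z x y a w := by
  simp only [Rm, map_add, map_sub, map_smul, smul_apply, add_apply, sub_apply, smul_eq_mul]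
  ring

theorem Rm_add3 (x y a a' w : E) : Rm G z x y (a + a') w = Rm G z x y a w + Rm G z x y a' w := by
  simp only [Rm, map_add, map_sub, add_apply, sub_apply]
  ring

theorem Rm_smul3 (c : ℝ) (x y a w : E) : Rm G z x y (c • a) w = c * Rm G z x y a w := by
  simp only [Rm, map_add, map_sub, map_smul, smul_apply, add_apply, sub_apply, smul_eq_mul]
  ring

theorem Rm_add4 (x y a w w' : E) : Rm G z x y a (w + w') = Rm G z x y a w + Rm G z x y a w' := by
  simp only [Rm, map_add]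

theorem Rm_smul4 (c : ℝ) (x y a w : E) : Rm G z x y a (c • w) = c * Rm G z x y a w := by
  simp only [Rm, map_smul, smul_eq_mul]

/-- `(x, w) ↦ Rm(x, y, a, w)` -/
def RmO (y a : E) : E →ₗ[ℝ] E →ₗ[ℝ] ℝ :=
  LinearMap.mk₂ ℝ (fun x w => Rm G z x y a w) (fun x x' w => Rm_add1 G z x x' y a w)
    (fun c x w => Rm_smul1 G z c x y a w) (fun x w w' => Rm_add4 G z x y a w w')
    (fun c x w => Rm_smul4 G z c x y a w)

/-- `(y, a) ↦ Rm(x, y, a, w)` -/
def RmI (x w : E) : E →ₗ[ℝ] E →ₗ[ℝ] ℝ :=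
  LinearMap.mk₂ ℝ (fun y a => Rm G z x y a w) (fun y y' a => Rm_add2 G z x y y' a w)
    (fun c y a => Rm_smul2 G z c x y a w) (fun y a a' => Rm_add3 G z x y a a' w)
    (fun c y a => Rm_smul3 G z c x y a w)

theorem RmO_apply (y a x w : E) : RmO G z y a x w = Rm G z x y a w := rfl
theorem RmI_apply (y a x w : E) : RmI G z x w y a = Rm G z x y a w := rfl

end slots

section lin

variable {W : Type*} [AddCommGroup W] [Module ℝ W] {m : ℕ}

theorem bil_expand (F : W →ₗ[ℝ] W →ₗ[ℝ] ℝ) (c d : Fin m → ℝ) (v : Fin m → W) :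
    F (∑ i, c i • v i) (∑ j, d j • v j) = ∑ i, ∑ j, c i * d j * F (v i) (v j) := by
  simp only [map_sum, map_smul, LinearMap.sum_apply, LinearMap.smul_apply, smul_eq_mul,
    Finset.mul_sum]
  rw [Finset.sum_comm]
  refine Finset.sum_congr rfl fun i _ => Finset.sum_congr rfl fun j _ => ?_
  ring

theorem bil_trace (F : W →ₗ[ℝ] W →ₗ[ℝ] ℝ) (c : Fin m → Fin m → ℝ) (v : Fin m → W) :
    ∑ k, F (∑ i, c k i • v i) (∑ j, c k j • v j) =
      ∑ i, ∑ j, (∑ k, c k i * c k j) * F (v i) (v j) := by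
  simp only [bil_expand, Finset.sum_mul]
  rw [Finset.sum_comm]
  refine Finset.sum_congr rfl fun i _ => ?_
  rw [Finset.sum_comm]

/-- a nonnegative quadratic form of a sum -/
theorem quad_sum (F : W →ₗ[ℝ] W →ₗ[ℝ] ℝ) (hF : ∀ x, 0 ≤ F x x) (x : Fin m → W) :
    F (∑ i, x i) (∑ i, x i) ≤ m * ∑ i, F (x i) (x i) := by
  have h1 : 0 ≤ ∑ i, ∑ j, F (x i - x j) (x i - x j) :=
    Finset.sum_nonneg fun i _ => Finset.sum_nonneg fun j _ => hF _
  have h2 : ∑ i, ∑ j, F (x i - x j) (x i - x j) =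
      2 * (m * ∑ i, F (x i) (x i)) - 2 * F (∑ i, x i) (∑ i, x i) := by
    have h3 : ∀ i j, F (x i - x j) (x i - x j) =
        F (x i) (x i) + F (x j) (x j) - F (x i) (x j) - F (x j) (x i) := by
      intro i j
      simp only [map_sub, LinearMap.sub_apply]
      ring
    simp only [h3, Finset.sum_sub_distrib, Finset.sum_add_distrib]
    have h4 : ∑ i, ∑ j, F (x j) (x i) = ∑ i, ∑ j, F (x i) (x j) := Finset.sum_comm
    rw [h4]
    have h5 : F (∑ i, x i) (∑ i, x i) = ∑ i, ∑ j, F (x i) (x j) := by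
      simp only [map_sum, LinearMap.sum_apply]
      exact Finset.sum_comm
    rw [h5]
    simp only [Finset.sum_const, Finset.card_univ, Fintype.card_fin, nsmul_eq_mul,
      ← Finset.mul_sum]
    ring
  rw [h2] at h1
  linarith only [h1]

end lin

end Vale.Agent.P210.R2.H973
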