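import Vale.Agent.P210.R2.H973.Scx
import Vale.Agent.P210.R2.H755.ScxZ

/-!
# Stmt.SCX
-/

open scoped Manifold ContDiff Topology Bundle
open Set Metric Filter Bundle IsManifold MeasureTheory Manifold

set_option maxSynthPendingDepth 3
set_option linter.unusedSectionVars false

noncomputable section

namespace Vale.Agent.P210.R2.H973

open Vale.Agent.P210.R2.H53
open Vale.Agent.P210.R2.H755 (contMDiff_Gam contMDiff_Lap Gam_chart Lap_chart HS_chart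
  contDiffOn_chart comp_chart_eq mem_chartAt_atlas bochner_ric)

section Z

variable {X : Type*} [MeasurableSpace X] {μ : Measure X}

/-- integrable with integral zero -/
def ZI (μ : Measure X) (f : X → ℝ) : Prop := Integrable f μ ∧ ∫ x, f x ∂μ = 0

theorem ZI.add {f g : X → ℝ} (hf : ZI μ f) (hg : ZI μ g) : ZI μ (fun x => f x + g x) :=
  ⟨hf.1.add hg.1, by rw [integral_add hf.1 hg.1, hf.2, hg.2, add_zero]⟩

theorem ZI.sub {f g : X → ℝ} (hf : ZI μ f) (hg : ZI μ g) : ZI μ (fun x => f x - g x) :=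
  ⟨hf.1.sub hg.1, by rw [integral_sub hf.1 hg.1, hf.2, hg.2, sub_zero]⟩

theorem ZI.const_mul {f : X → ℝ} (hf : ZI μ f) (c : ℝ) : ZI μ (fun x => c * f x) :=
  ⟨hf.1.const_mul c, by rw [integral_const_mul, hf.2, mul_zero]⟩

theorem ZI.sum {ι : Type*} (s : Finset ι) {f : ι → X → ℝ} (hf : ∀ i ∈ s, ZI μ (f i)) :
    ZI μ (fun x => ∑ i ∈ s, f i x) :=
  ⟨integrable_finsetSum s fun i hi => (hf i hi).1, by
    rw [integral_finsetSum s fun i hi => (hf i hi).1]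
    exact Finset.sum_eq_zero fun i hi => (hf i hi).2⟩

end Z

/-- the integral lemma -/
def ZInt : Prop := Stmt.ForR fun E _ _ _ _ _ M _ _ _ _ _ _ _ _ _ => ∀ μ : Measure M, IsVol E μ →
  ∀ Ψ : M → ℝ, LC Ψ →
  (∀ a g : M → ℝ, TF E a → ContMDiff 𝓘(ℝ, E) 𝓘(ℝ, ℝ) ∞ g → ZI μ (EE E Ψ a g)) ∧
  (∀ s : M → ℝ, Continuous s → Integrable (fun p => Ψ p * s p) μ ∧
    Integrable (fun p => √(Gam E Ψ Ψ p) * √(s p)) μ)

theorem zint_of (hA : Stmt.CALA) (hB : Stmt.CALB) (hD : Stmt.CALD) : ZInt := by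
  intro E _ _ _ _ _ M _ _ _ _ _ _ _ _ _ hE1 μ hμ Ψ hΨ
  refine ⟨fun a g ha hg => ?_, fun s hs => ?_⟩
  · exact H755.zero_int hA hB hD hE1 hμ ha hg hΨ
  · have h := H755.int_sqrt hA hB hD hE1 hμ hs hΨ
    exact ⟨h.2, h.1⟩

theorem scx_main (hA : Stmt.CALA) (hZ : ZInt) (m : ℕ) :
    ∃ C : ℝ, 1 ≤ C ∧ Stmt.ForR fun E _ _ _ _ _ M _ _ _ _ _ _ _ _ _ =>
    Module.finrank ℝ E = m + 1 → ∀ (μ : Measure M) (K : ℝ), IsVol E μ → 0 ≤ K → C * K ≤ 1 →
    RicGE E M (-K) → ScalGE E M 1 → ∀ (u : Fin m → M → ℝ) (Ψ : M → ℝ),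
    (∀ i, TF E (u i)) → LC Ψ → (∀ p, 0 ≤ Ψ p) → (∀ p, Ψ p ≠ 0 → ∀ i, Gam E (u i) (u i) p ≤ 4) →
    ∫ p in {p | ∀ i j, |Gam E (u i) (u j) p - (if i = j then 1 else 0)| ≤
      1 / (4 * ((m + 1 : ℕ) : ℝ))}, Ψ p ∂μ ≤
    C * ∫ p, (Ψ p * ∑ i, HS E 0 (u i) p + √(Gam E Ψ Ψ p) * √(∑ i, HS E 0 (u i) p)) ∂μ
      + C * K * ∫ p, Ψ p ∂μ := by
  obtain ⟨C₁, hC₁, hb₁⟩ := bound_fam (m := m) (c := fun j : Fin m => cP j) contDiff_cP
  obtain ⟨C₂, hC₂, hb₂⟩ := bound_fam (m := m)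
    (c := fun t : Fin m × Fin m × Fin m × Fin m => cR t.1 t.2.1 t.2.2.1 t.2.2.2)
    (fun t => contDiff_cR _ _ _ _)
  obtain ⟨d, hd, hdet⟩ := det_lower m
  set C₀ := max C₁ C₂ with hC₀def
  have hC₀ : 0 ≤ C₀ := hC₁.trans (le_max_left _ _)
  set B := c1 m C₀ + c2 m C₀ + 4 * m * C₀ with hB
  have hc1 : 0 ≤ c1 m C₀ := by rw [c1]; positivity
  have hc2 : 0 ≤ c2 m C₀ := by rw [c2]; positivity
  have hc3 : 0 ≤ 4 * (m : ℝ) * C₀ := by positivity
  have hB0 : 0 ≤ B := by positivity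
  refine ⟨max 1 (B / d), le_max_left _ _, ?_⟩
  intro E _ _ _ _ _ M _ _ _ _ _ _ _ _ _ hE1 hm μ K hμ hK hCK hric hscal u Ψ hu hΨ h0 h4
  have hus : ∀ i, ContMDiff 𝓘(ℝ, E) 𝓘(ℝ, ℝ) ∞ (u i) := fun i => (hu i).1
  obtain ⟨hA1, hA2, hA3, hA4, hA5⟩ := hA E M hE1 μ hμ
  obtain ⟨hZ1, hZ2⟩ := hZ E M hE1 μ hμ Ψ hΨ
  have hSc : Continuous (SS E u) := by
    have : SS E u = fun p => ∑ i, HS E 0 (u i) p := rfl
    rw [this]
    exact continuous_finsetSum _ fun i _ => (H755.contMDiff_HS (hus i) 0).continuous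
  have hrP := fun j => smooth_comp_Gr hus (contDiff_cP (m := m) j)
  have hrR := fun i l j k => smooth_comp_Gr hus (contDiff_cR (m := m) i l j k)
  have hTF : ∀ j, TF E (Gam E (u j) (u j)) := fun j =>
    ⟨contMDiff_Gam (hus j) (hus j), (hu j).2.mono' fun p hp => by
      by_contra h
      exact hp (H755.Gam_eq_zero h)⟩
  have hTot : ZI μ (Tot E Ψ u) := by
    refine ZI.add (ZI.sum _ fun j _ => ZI.sub ((hZ1 _ _ (hTF j) (hrP j)).const_mul _) ?_)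
      (ZI.sum _ fun i _ => ZI.sum _ fun l _ => ZI.sum _ fun j _ => ZI.sum _ fun k _ =>
        ZI.sub ?_ ?_)
    · exact hZ1 _ _ (hu j) ((hrP j).mul (contMDiff_Lap (hus j)))
    · exact hZ1 _ _ (hu i) ((hrR i l j k).mul (contMDiff_HH (hus l) (hus j) (hus k)))
    · exact hZ1 _ _ (hu j) ((hrR i l j k).mul (contMDiff_HH (hus l) (hus i) (hus k)))
  have hI1 : Integrable (fun p => Ψ p * SS E u p) μ := (hZ2 _ hSc).1
  have hI2 : Integrable (fun p => √(Gam E Ψ Ψ p) * √(SS E u p)) μ :=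
    (hZ2 _ hSc).2
  have hI3 : Integrable Ψ μ := by
    have := (hZ2 (fun _ => 1) continuous_const).1
    simpa using this
  have hIS : Integrable (fun p => Ψ p * SS E u p + √(Gam E Ψ Ψ p) * √(SS E u p)) μ :=
    hI1.add hI2
  -- the a.e. inequality
  have hae : ∀ᵐ p ∂μ, Ψ p * (Matrix.of (Gr E u p)).det ^ 2 ≤
      Tot E Ψ u p + (B * (Ψ p * SS E u p + √(Gam E Ψ Ψ p) * √(SS E u p)) +
        B * K * Ψ p) := by
    have hloc : LocallyLipschitz Ψ := by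
      obtain ⟨L, hL⟩ := hΨ.1
      exact hL.locallyLipschitz
    filter_upwards [hA3 Ψ hloc] with p hp
    have h1 := ae_ineq hm hK hric hscal hus (C := C₀)
      (fun j X hX => ⟨((hb₁ j X hX).1).trans (le_max_left _ _),
        ((hb₁ j X hX).2).trans (le_max_left _ _)⟩)
      (fun i l j k X hX => ⟨((hb₂ (i, l, j, k) X hX).1).trans (le_max_right _ _),
        ((hb₂ (i, l, j, k) X hX).2).trans (le_max_right _ _)⟩)
      h0 (diff_chart' hp) (h4 p)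
    have e1 : 0 ≤ Ψ p * SS E u p := mul_nonneg (h0 p) (SS_nonneg hus p)
    have e2 : 0 ≤ √(Gam E Ψ Ψ p) * √(SS E u p) := by positivity
    have e3 : 0 ≤ K * Ψ p := mul_nonneg hK (h0 p)
    have f1 : c1 m C₀ * (Ψ p * SS E u p) ≤ B * (Ψ p * SS E u p) :=
      mul_le_mul_of_nonneg_right (by linarith only [hB, hc2, hc3]) e1
    have f2 : c2 m C₀ * (√(Gam E Ψ Ψ p) * √(SS E u p)) ≤
        B * (√(Gam E Ψ Ψ p) * √(SS E u p)) :=
      mul_le_mul_of_nonneg_right (by linarith only [hB, hc1, hc3]) e2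
    have f3 : 4 * (m : ℝ) * C₀ * (K * Ψ p) ≤ B * (K * Ψ p) :=
      mul_le_mul_of_nonneg_right (by linarith only [hB, hc1, hc2]) e3
    have h2 : 4 * (m : ℝ) * C₀ * K * Ψ p = 4 * (m : ℝ) * C₀ * (K * Ψ p) := by ring
    rw [h2] at h1
    linarith only [h1, f1, f2, f3]
  have hint : ∫ p, Ψ p * (Matrix.of (Gr E u p)).det ^ 2 ∂μ ≤
      B * ∫ p, (Ψ p * SS E u p + √(Gam E Ψ Ψ p) * √(SS E u p)) ∂μ + B * K * ∫ p, Ψ p ∂μ := by
    have hJ : Integrable (fun p => B * (Ψ p * SS E u p + √(Gam E Ψ Ψ p) * √(SS E u p)) +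
        B * K * Ψ p) μ := (hIS.const_mul B).add (hI3.const_mul (B * K))
    have h1 : Integrable (fun p => Tot E Ψ u p +
        (B * (Ψ p * SS E u p + √(Gam E Ψ Ψ p) * √(SS E u p)) + B * K * Ψ p)) μ :=
      hTot.1.add hJ
    have h2 := integral_mono_of_nonneg (μ := μ) (f := fun p => Ψ p *
      (Matrix.of (Gr E u p)).det ^ 2) (Filter.Eventually.of_forall fun p =>
        mul_nonneg (h0 p) (sq_nonneg _)) h1 hae
    refine h2.trans_eq ?_
    rw [integral_add hTot.1 hJ, integral_add (hIS.const_mul B) (hI3.const_mul (B * K)), integral_const_mul,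
      integral_const_mul, hTot.2, zero_add]
  have hGc : ∀ i j, Continuous (Gam E (u i) (u j)) := fun i j =>
    (contMDiff_Gam (hus i) (hus j)).continuous
  set A : Set M := {p | ∀ i j, |Gam E (u i) (u j) p - (if i = j then 1 else 0)| ≤
      1 / (4 * ((m + 1 : ℕ) : ℝ))} with hAdef
  have hAcl : IsClosed A := by
    rw [hAdef, Set.ofPred_forall]
    refine isClosed_iInter fun i => ?_
    rw [Set.ofPred_forall]
    refine isClosed_iInter fun j => ?_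
    exact isClosed_le (((hGc i j).sub continuous_const).abs) continuous_const
  have hdetc : Continuous (fun p => (Matrix.of (Gr E u p)).det) :=
    (smooth_comp_Gr hus (contDiff_det (m := m))).continuous
  have hIdet : Integrable (fun p => Ψ p * (Matrix.of (Gr E u p)).det ^ 2) μ :=
    (hZ2 _ (hdetc.pow 2)).1
  have hleft : ∫ p in A, Ψ p ∂μ ≤ d⁻¹ * ∫ p, Ψ p * (Matrix.of (Gr E u p)).det ^ 2 ∂μ := by
    rw [← integral_indicator hAcl.measurableSet, ← integral_const_mul]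
    refine integral_mono_of_nonneg (Filter.Eventually.of_forall fun p => ?_)
      (hIdet.const_mul _) (Filter.Eventually.of_forall fun p => ?_)
    · exact Set.indicator_nonneg (fun p _ => h0 p) p
    · by_cases hpA : p ∈ A
      · simp only [Set.indicator_of_mem hpA]
        have h1 := hdet (Gr E u p) hpA
        rw [inv_mul_eq_div, le_div_iff₀ hd]
        exact mul_le_mul_of_nonneg_left h1 (h0 p)
      · simp only [Set.indicator_of_notMem hpA]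
        have := h0 p
        positivity
  have hI0 : 0 ≤ ∫ p, (Ψ p * SS E u p + √(Gam E Ψ Ψ p) * √(SS E u p)) ∂μ := by
    refine integral_nonneg fun p => ?_
    have e1 : 0 ≤ Ψ p * SS E u p := mul_nonneg (h0 p) (SS_nonneg hus p)
    have e2 : 0 ≤ √(Gam E Ψ Ψ p) * √(SS E u p) := by positivity
    exact add_nonneg e1 e2
  have hΨ0 : 0 ≤ K * ∫ p, Ψ p ∂μ := mul_nonneg hK (integral_nonneg h0)
  have h5 : d⁻¹ * ∫ p, Ψ p * (Matrix.of (Gr E u p)).det ^ 2 ∂μ ≤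
      (B / d) * ∫ p, (Ψ p * SS E u p + √(Gam E Ψ Ψ p) * √(SS E u p)) ∂μ +
        (B / d) * (K * ∫ p, Ψ p ∂μ) := by
    have h6 := mul_le_mul_of_nonneg_left hint (inv_nonneg.2 hd.le)
    refine h6.trans_eq ?_
    rw [div_eq_mul_inv]
    ring
  have h6 : (B / d) * ∫ p, (Ψ p * SS E u p + √(Gam E Ψ Ψ p) * √(SS E u p)) ∂μ ≤
      max 1 (B / d) * ∫ p, (Ψ p * SS E u p + √(Gam E Ψ Ψ p) * √(SS E u p)) ∂μ :=
    mul_le_mul_of_nonneg_right (le_max_right _ _) hI0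
  have h7 : (B / d) * (K * ∫ p, Ψ p ∂μ) ≤ max 1 (B / d) * (K * ∫ p, Ψ p ∂μ) :=
    mul_le_mul_of_nonneg_right (le_max_right _ _) hΨ0
  have h8 : max 1 (B / d) * K * ∫ p, Ψ p ∂μ = max 1 (B / d) * (K * ∫ p, Ψ p ∂μ) := by ring
  rw [h8]
  exact hleft.trans (h5.trans (add_le_add h6 h7))

theorem scx (hA : Stmt.CALA) (hB : Stmt.CALB) (hD : Stmt.CALD) : Stmt.SCX := by
  intro n hn
  obtain ⟨m, rfl⟩ : ∃ m, n = m + 1 := ⟨n - 1, by omega⟩
  exact scx_main hA (zint_of hA hB hD) m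

end Vale.Agent.P210.R2.H973
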