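import Vale.Agent.P210.R2.H973.SScx
import Vale.Agent.P210.R2.H973.ScxFin

/-!
# Stmt.SCXS
-/

open scoped Manifold ContDiff Topology Bundle
open Set Metric Filter Bundle IsManifold MeasureTheory Manifold

set_option maxSynthPendingDepth 3
set_option linter.unusedSectionVars false

noncomputable section

namespace Vale.Agent.P210.R2.H973

open Vale.Agent.P210.R2.H53
open Vale.Agent.P210.R2.H755 (contMDiff_Gam contMDiff_Lap Gam_chart Lap_chart HS_chart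
  contDiffOn_chart comp_chart_eq mem_chartAt_atlas bochner_ric smooth_lc smooth_ll)

section pt

variable {E : Type} [NormedAddCommGroup E] [NormedSpace ℝ E] [FiniteDimensional ℝ E]
  {M : Type} [MetricSpace M] [ChartedSpace E M]
  [RiemannianBundle (fun x : M => TangentSpace 𝓘(ℝ, E) x)]
  [IsManifold 𝓘(ℝ, E) ∞ M]
  [IsContMDiffRiemannianBundle 𝓘(ℝ, E) ∞ E (fun x : M => TangentSpace 𝓘(ℝ, E) x)] {m : ℕ}

/-- the gradient of a product -/
theorem gam_prod {f g : M → ℝ} {p : M}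
    (hf : DifferentiableAt ℝ (f ∘ (chartAt E p).symm) (chartAt E p p))
    (hg : DifferentiableAt ℝ (g ∘ (chartAt E p).symm) (chartAt E p p)) :
    Gam E (fun q => f q * g q) (fun q => f q * g q) p ≤
      2 * (g p ^ 2 * Gam E f f p) + 2 * (f p ^ 2 * Gam E g g p) := by
  set w : M → ℝ := fun q => f q * g q with hw
  have h1 : Gam E w w p = f p * Gam E w g p + g p * Gam E w f p := Gam_mul w hf hg
  set t := √(Gam E w w p) with ht
  set a := √(Gam E f f p) with ha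
  set b := √(Gam E g g p) with hb
  have ht0 : 0 ≤ t := Real.sqrt_nonneg _
  have ha0 : 0 ≤ a := Real.sqrt_nonneg _
  have hb0 : 0 ≤ b := Real.sqrt_nonneg _
  have ht2 : Gam E w w p = t * t := (Real.mul_self_sqrt (Gam_nonneg w p)).symm
  have ha2 : Gam E f f p = a ^ 2 := (Real.sq_sqrt (Gam_nonneg f p)).symm
  have hb2 : Gam E g g p = b ^ 2 := (Real.sq_sqrt (Gam_nonneg g p)).symm
  have h2 : |Gam E w g p| ≤ t * b := Gam_abs w g p
  have h3 : |Gam E w f p| ≤ t * a := Gam_abs w f p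
  have h4 : f p * Gam E w g p ≤ |f p| * (t * b) := by
    refine (le_abs_self _).trans ?_
    rw [abs_mul]
    exact mul_le_mul_of_nonneg_left h2 (abs_nonneg _)
  have h5 : g p * Gam E w f p ≤ |g p| * (t * a) := by
    refine (le_abs_self _).trans ?_
    rw [abs_mul]
    exact mul_le_mul_of_nonneg_left h3 (abs_nonneg _)
  have h6 : t ≤ |f p| * b + |g p| * a := by
    by_contra hn
    push Not at hn
    have h7 : 0 < t := lt_of_le_of_lt (by positivity) hn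
    have h8 : (|f p| * b + |g p| * a) * t < t * t := mul_lt_mul_of_pos_right hn h7
    rw [ht2] at h1
    linarith only [h1, h4, h5, h8]
  have h7 : t ^ 2 ≤ (|f p| * b + |g p| * a) ^ 2 := pow_le_pow_left₀ ht0 h6 2
  have h8 := sq_abs (f p)
  have h9 := sq_abs (g p)
  rw [ht2, ha2, hb2, ← h8, ← h9]
  have h10 := sq_nonneg (|f p| * b - |g p| * a)
  linarith only [h7, h10]

theorem ae_ineqT (hm : Module.finrank ℝ E = m + 1) {K : ℝ} (hK : 0 ≤ K) (hric : RicGE E M (-K))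
    {S : M → ℝ} (hscal : ScalGEf E M S) {u : Fin m → M → ℝ}
    (hu : ∀ i, ContMDiff 𝓘(ℝ, E) 𝓘(ℝ, ℝ) ∞ (u i)) {C : ℝ} (hC : 0 ≤ C)
    (hP : ∀ j X, (∀ i j, |X i j| ≤ 4) → |cP (m := m) j X| ≤ C ∧
      ‖fderiv ℝ (cP (m := m) j) X‖ ≤ C)
    (hRC : ∀ i l j k X, (∀ i j, |X i j| ≤ 4) → |cR (m := m) i l j k X| ≤ C ∧
      ‖fderiv ℝ (cR (m := m) i l j k) X‖ ≤ C)
    (hD : ∀ X : Fin m → Fin m → ℝ, (∀ i j, |X i j| ≤ 4) → |(Matrix.of X).det| ≤ C ∧
      ‖fderiv ℝ (fun X : Fin m → Fin m → ℝ => (Matrix.of X).det) X‖ ≤ C)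
    {γ : ℝ} (hγ : 0 < γ)
    {Ψ : M → ℝ} (h0 : ∀ p, 0 ≤ Ψ p) {p : M}
    (hΨ : DifferentiableAt ℝ (Ψ ∘ (chartAt E p).symm) (chartAt E p p))
    (h4 : Ψ p ≠ 0 → ∀ i, Gam E (u i) (u i) p ≤ 4) :
    S p * (Ψ p * (Matrix.of (Gr E u p)).det) ^ 2 +
      γ * Gam E (fun q => Ψ q * (Matrix.of (Gr E u q)).det)
        (fun q => Ψ q * (Matrix.of (Gr E u q)).det) p ≤
      Tot E (fun q => Ψ q * Ψ q) u p +
        ((c1 m C + c2 m C + 4 * m * C + 32 * γ * C ^ 2) *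
          (Ψ p ^ 2 * SS E u p + Gam E Ψ Ψ p) +
        (c1 m C + c2 m C + 4 * m * C + 32 * γ * C ^ 2) * K * Ψ p ^ 2) := by
  have hc1 : 0 ≤ c1 m C := by rw [c1]; positivity
  have hc2 : 0 ≤ c2 m C := by rw [c2]; positivity
  have hc3 : 0 ≤ 4 * (m : ℝ) * C := by positivity
  have hc4 : 0 ≤ 32 * γ * C ^ 2 := by positivity
  have hΦ : DifferentiableAt ℝ ((fun q => Ψ q * Ψ q) ∘ (chartAt E p).symm) (chartAt E p p) := by
    have : (fun q => Ψ q * Ψ q) ∘ (chartAt E p).symm =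
      fun y => (Ψ ∘ (chartAt E p).symm) y * (Ψ ∘ (chartAt E p).symm) y := rfl
    rw [this]
    exact hΨ.mul hΨ
  have h1 := ae_ineqS hm hK hric hscal hu hP hRC (Ψ := fun q => Ψ q * Ψ q)
    (fun q => mul_nonneg (h0 q) (h0 q)) hΦ (fun h => h4 (left_ne_zero_of_mul h))
  have hSS : 0 ≤ SS E u p := SS_nonneg hu p
  set s := √(SS E u p) with hs
  have hs0 : 0 ≤ s := Real.sqrt_nonneg _
  have hs2 : SS E u p = s ^ 2 := (Real.sq_sqrt hSS).symm
  set y := √(Gam E Ψ Ψ p) with hy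
  have hy0 : 0 ≤ y := Real.sqrt_nonneg _
  have hy2 : Gam E Ψ Ψ p = y ^ 2 := (Real.sq_sqrt (Gam_nonneg Ψ p)).symm
  have hp0 := h0 p
  -- the gradient of `Ψ ^ 2`
  have h2 : √(Gam E (fun q => Ψ q * Ψ q) (fun q => Ψ q * Ψ q) p) ≤ 2 * (Ψ p * y) := by
    rw [Real.sqrt_le_left (by positivity)]
    refine (gam_prod hΨ hΨ).trans_eq ?_
    rw [hy2]
    ring
  have h3 : √(Gam E (fun q => Ψ q * Ψ q) (fun q => Ψ q * Ψ q) p) * s ≤
      Ψ p ^ 2 * SS E u p + Gam E Ψ Ψ p := by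
    refine (mul_le_mul_of_nonneg_right h2 hs0).trans ?_
    rw [hs2, hy2]
    have := sq_nonneg (Ψ p * s - y)
    linarith only [this]
  -- the gradient of the test function
  have hDs := smooth_comp_Gr hu (contDiff_det (m := m))
  have h5 := gam_prod hΨ (diff_chart hDs p)
  have h6 : Gam E (fun q => Ψ q * (Matrix.of (Gr E u q)).det)
        (fun q => Ψ q * (Matrix.of (Gr E u q)).det) p ≤
      32 * C ^ 2 * (Ψ p ^ 2 * SS E u p + Gam E Ψ Ψ p) := by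
    by_cases hz : Ψ p = 0
    · refine h5.trans ?_
      rw [Gam_zero_of_min h0 hz Ψ, hz]
      simp
    · replace h4 := h4 hz
      obtain ⟨hD1, hD2⟩ := hD _ fun i j => Gr_le h4 i j
      set D : M → ℝ := fun q => (Matrix.of (Gr E u q)).det with hDdef
      set t := √(Gam E D D p) with ht
      have ht0 : 0 ≤ t := Real.sqrt_nonneg _
      have ht2 : Gam E D D p = t ^ 2 := (Real.sq_sqrt (Gam_nonneg D p)).symm
      have h7 : |Gam E D D p| ≤ C * (4 * s * t) :=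
        Gam_comp_Gr_le hu h4 contDiff_det hD2 D
      rw [abs_of_nonneg (Gam_nonneg D p), ht2] at h7
      have h8 : t ≤ 4 * C * s := by
        by_contra hn
        push Not at hn
        have h9 : 0 < t := lt_of_le_of_lt (by positivity) hn
        have h10 : 4 * C * s * t < t * t := mul_lt_mul_of_pos_right hn h9
        linarith only [h7, h10]
      have h9 : t ^ 2 ≤ (4 * C * s) ^ 2 := pow_le_pow_left₀ ht0 h8 2
      have h10 : D p ^ 2 ≤ C ^ 2 := by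
        rw [← sq_abs]
        exact pow_le_pow_left₀ (abs_nonneg _) hD1 2
      refine h5.trans ?_
      have e1 : D p ^ 2 * Gam E Ψ Ψ p ≤ C ^ 2 * y ^ 2 := by
        rw [hy2]
        exact mul_le_mul_of_nonneg_right h10 (sq_nonneg _)
      have e2 : Ψ p ^ 2 * Gam E D D p ≤ Ψ p ^ 2 * (4 * C * s) ^ 2 := by
        rw [ht2]
        exact mul_le_mul_of_nonneg_left h9 (sq_nonneg _)
      have e3 : 0 ≤ C ^ 2 * y ^ 2 := by positivity
      rw [hs2, hy2]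
      have e4 : (Matrix.of (Gr E u p)).det ^ 2 * y ^ 2 ≤ C ^ 2 * y ^ 2 := by
        rw [hy2] at e1
        exact e1
      have e5 : (fun q => (Matrix.of (Gr E u q)).det) = D := rfl
      linarith only [e4, e2, e3]
  have e0 : 0 ≤ Ψ p ^ 2 * SS E u p + Gam E Ψ Ψ p :=
    add_nonneg (mul_nonneg (sq_nonneg _) hSS) (Gam_nonneg _ _)
  have eG : 0 ≤ Gam E Ψ Ψ p := Gam_nonneg _ _
  have eK : 0 ≤ K * Ψ p ^ 2 := mul_nonneg hK (sq_nonneg _)
  have g1 : c1 m C * (Ψ p * Ψ p * SS E u p) ≤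
      c1 m C * (Ψ p ^ 2 * SS E u p + Gam E Ψ Ψ p) :=
    mul_le_mul_of_nonneg_left (by linarith only [eG]) hc1
  have g2 : c2 m C * (√(Gam E (fun q => Ψ q * Ψ q) (fun q => Ψ q * Ψ q) p) * s) ≤
      c2 m C * (Ψ p ^ 2 * SS E u p + Gam E Ψ Ψ p) := mul_le_mul_of_nonneg_left h3 hc2
  have g3 : γ * Gam E (fun q => Ψ q * (Matrix.of (Gr E u q)).det)
        (fun q => Ψ q * (Matrix.of (Gr E u q)).det) p ≤
      γ * (32 * C ^ 2 * (Ψ p ^ 2 * SS E u p + Gam E Ψ Ψ p)) :=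
    mul_le_mul_of_nonneg_left h6 hγ.le
  have g4 : 4 * (m : ℝ) * C * (K * Ψ p ^ 2) ≤
      (c1 m C + c2 m C + 4 * m * C + 32 * γ * C ^ 2) * (K * Ψ p ^ 2) :=
    mul_le_mul_of_nonneg_right (by linarith only [hc1, hc2, hc4]) eK
  have g5 : 0 ≤ 4 * (m : ℝ) * C * (Ψ p ^ 2 * SS E u p + Gam E Ψ Ψ p) := mul_nonneg hc3 e0
  have g6 : S p * (Ψ p * (Matrix.of (Gr E u p)).det) ^ 2 =
      Ψ p * Ψ p * ((Matrix.of (Gr E u p)).det ^ 2 * S p) := by ring
  rw [g6]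
  linarith only [h1, g1, g2, g3, g4, g5]

end pt

theorem scxs_main (hA : Stmt.CALA) (hB : Stmt.CALB) (hCD : Stmt.CALD) (m : ℕ) {γ c : ℝ}
    (hγ : 0 < γ) (hc : 0 < c) :
    ∃ C : ℝ, 1 ≤ C ∧ Stmt.ForR fun E _ _ _ _ _ M _ _ _ _ _ _ _ _ _ =>
    Module.finrank ℝ E = m + 1 → ∀ (μ : Measure M) (K : ℝ), IsVol E μ → 0 ≤ K → C * K ≤ 1 →
    RicGE E M (-K) → ∀ S : M → ℝ, Continuous S → ScalGEf E M S → Spec E μ S γ c →
    ∀ (u : Fin m → M → ℝ) (Ψ : M → ℝ),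
    (∀ i, TF E (u i)) → LC Ψ → (∀ p, 0 ≤ Ψ p) → (∀ p, Ψ p ≠ 0 → ∀ i, Gam E (u i) (u i) p ≤ 4) →
    ∫ p in {p | ∀ i j, |Gam E (u i) (u j) p - (if i = j then 1 else 0)| ≤
      1 / (4 * ((m + 1 : ℕ) : ℝ))}, Ψ p ^ 2 ∂μ ≤
    C * ∫ p, (Ψ p ^ 2 * ∑ i, HS E 0 (u i) p + Gam E Ψ Ψ p) ∂μ
      + C * K * ∫ p, Ψ p ^ 2 ∂μ := by
  obtain ⟨C₁, hC₁, hb₁⟩ := bound_fam (m := m) (c := fun j : Fin m => cP j) contDiff_cP
  obtain ⟨C₂, hC₂, hb₂⟩ := bound_fam (m := m)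
    (c := fun t : Fin m × Fin m × Fin m × Fin m => cR t.1 t.2.1 t.2.2.1 t.2.2.2)
    (fun t => contDiff_cR _ _ _ _)
  obtain ⟨C₃, hC₃, hb₃⟩ := bound_C1 (contDiff_det (m := m))
  obtain ⟨d, hd, hdet⟩ := det_lower m
  set C₀ := max (max C₁ C₂) C₃ with hC₀def
  have h10 : C₁ ≤ C₀ := (le_max_left _ _).trans (le_max_left _ _)
  have h20 : C₂ ≤ C₀ := (le_max_right _ _).trans (le_max_left _ _)
  have h30 : C₃ ≤ C₀ := le_max_right _ _
  have hC₀ : 0 ≤ C₀ := hC₁.trans h10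
  set B := c1 m C₀ + c2 m C₀ + 4 * m * C₀ + 32 * γ * C₀ ^ 2 with hBdef
  have hc1 : 0 ≤ c1 m C₀ := by rw [c1]; positivity
  have hc2 : 0 ≤ c2 m C₀ := by rw [c2]; positivity
  have hB0 : 0 ≤ B := by positivity
  have hcd : 0 < c * d := mul_pos hc hd
  refine ⟨max 1 (B / (c * d)), le_max_left _ _, ?_⟩
  intro E _ _ _ _ _ M _ _ _ _ _ _ _ _ _ hE1 hm μ K hμ hK hCK hric S hS hscal hspec u Ψ hu hΨ
    h0 h4
  have hus : ∀ i, ContMDiff 𝓘(ℝ, E) 𝓘(ℝ, ℝ) ∞ (u i) := fun i => (hu i).1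
  obtain ⟨hA1, hA2, hA3, hA4, hA5⟩ := hA E M hE1 μ hμ
  have hcal : Cal E μ := cal_of hA hB hCD hE1 hμ
  have hΦ : LC (fun q => Ψ q * Ψ q) := hΨ.mul_right hΨ.ll
  obtain ⟨hZ1, hZ2⟩ := zint_of hA hB hCD E M hE1 μ hμ (fun q => Ψ q * Ψ q) hΦ
  have hSc : Continuous (SS E u) := by
    have : SS E u = fun p => ∑ i, HS E 0 (u i) p := rfl
    rw [this]
    exact continuous_finsetSum _ fun i _ => (H755.contMDiff_HS (hus i) 0).continuous
  have hrP := fun j => smooth_comp_Gr hus (contDiff_cP (m := m) j)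
  have hrR := fun i l j k => smooth_comp_Gr hus (contDiff_cR (m := m) i l j k)
  have hTF : ∀ j, TF E (Gam E (u j) (u j)) := fun j =>
    ⟨contMDiff_Gam (hus j) (hus j), (hu j).2.mono' fun p hp => by
      by_contra h
      exact hp (H755.Gam_eq_zero h)⟩
  have hTot : ZI μ (Tot E (fun q => Ψ q * Ψ q) u) := by
    refine ZI.add (ZI.sum _ fun j _ => ZI.sub ((hZ1 _ _ (hTF j) (hrP j)).const_mul _) ?_)
      (ZI.sum _ fun i _ => ZI.sum _ fun l _ => ZI.sum _ fun j _ => ZI.sum _ fun k _ =>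
        ZI.sub ?_ ?_)
    · exact hZ1 _ _ (hu j) ((hrP j).mul (contMDiff_Lap (hus j)))
    · exact hZ1 _ _ (hu i) ((hrR i l j k).mul (contMDiff_HH (hus l) (hus j) (hus k)))
    · exact hZ1 _ _ (hu j) ((hrR i l j k).mul (contMDiff_HH (hus l) (hus i) (hus k)))
  have hI1 : Integrable (fun p => Ψ p ^ 2 * SS E u p) μ := by
    have := (hZ2 _ hSc).1
    simpa only [pow_two] using this
  have hI2 : Integrable (Gam E Ψ Ψ) μ := hcal.int_gam hΨ.ll hΨ
  have hI3 : Integrable (fun p => Ψ p ^ 2) μ := by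
    have := (hZ2 (fun _ => 1) continuous_const).1
    simpa [pow_two] using this
  have hIS : Integrable (fun p => Ψ p ^ 2 * SS E u p + Gam E Ψ Ψ p) μ := hI1.add hI2
  have hDs := smooth_comp_Gr hus (contDiff_det (m := m))
  have hDc : Continuous (fun p => (Matrix.of (Gr E u p)).det) := hDs.continuous
  have hψ : LC (fun q => Ψ q * (Matrix.of (Gr E u q)).det) := smooth_lc hcal hDs hΨ
  have hIψ : Integrable (fun p => S p * (Ψ p * (Matrix.of (Gr E u p)).det) ^ 2) μ := by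
    have := (hZ2 _ ((hDc.pow 2).mul hS)).1
    refine this.congr (Eventually.of_forall fun p => ?_)
    simp only [Pi.pow_apply, Pi.mul_apply]
    ring
  have hIψ2 : Integrable (Gam E (fun q => Ψ q * (Matrix.of (Gr E u q)).det)
        (fun q => Ψ q * (Matrix.of (Gr E u q)).det)) μ := hcal.int_gam hψ.ll hψ
  -- the a.e. inequality
  have hae : ∀ᵐ p ∂μ, S p * (Ψ p * (Matrix.of (Gr E u p)).det) ^ 2 +
      γ * Gam E (fun q => Ψ q * (Matrix.of (Gr E u q)).det)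
        (fun q => Ψ q * (Matrix.of (Gr E u q)).det) p ≤
      Tot E (fun q => Ψ q * Ψ q) u p +
        (B * (Ψ p ^ 2 * SS E u p + Gam E Ψ Ψ p) + B * K * Ψ p ^ 2) := by
    filter_upwards [hA3 Ψ hΨ.ll] with p hp
    exact ae_ineqT hm hK hric hscal hus hC₀
      (fun j X hX => ⟨((hb₁ j X hX).1).trans h10, ((hb₁ j X hX).2).trans h10⟩)
      (fun i l j k X hX => ⟨((hb₂ (i, l, j, k) X hX).1).trans h20,
        ((hb₂ (i, l, j, k) X hX).2).trans h20⟩)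
      (fun X hX => ⟨((hb₃ X hX).1).trans h30, ((hb₃ X hX).2).trans h30⟩) hγ
      h0 (diff_chart' hp) (h4 p)
  have hint : c * ∫ p, (Ψ p * (Matrix.of (Gr E u p)).det) ^ 2 ∂μ ≤
      B * ∫ p, (Ψ p ^ 2 * SS E u p + Gam E Ψ Ψ p) ∂μ + B * K * ∫ p, Ψ p ^ 2 ∂μ := by
    have hJ : Integrable (fun p => B * (Ψ p ^ 2 * SS E u p + Gam E Ψ Ψ p) +
        B * K * Ψ p ^ 2) μ := (hIS.const_mul B).add (hI3.const_mul (B * K))
    have h1 : Integrable (fun p => Tot E (fun q => Ψ q * Ψ q) u p +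
        (B * (Ψ p ^ 2 * SS E u p + Gam E Ψ Ψ p) + B * K * Ψ p ^ 2)) μ :=
      hTot.1.add hJ
    refine (hspec _ hψ).trans ?_
    refine (integral_mono_ae (hIψ.add (hIψ2.const_mul γ)) h1 hae).trans_eq ?_
    rw [integral_add hTot.1 hJ, integral_add (hIS.const_mul B) (hI3.const_mul (B * K)),
      integral_const_mul, integral_const_mul, hTot.2, zero_add]
  have hGc : ∀ i j, Continuous (Gam E (u i) (u j)) := fun i j =>
    (contMDiff_Gam (hus i) (hus j)).continuous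
  set A : Set M := {p | ∀ i j, |Gam E (u i) (u j) p - (if i = j then 1 else 0)| ≤
      1 / (4 * ((m + 1 : ℕ) : ℝ))} with hAdef
  have hAcl : IsClosed A := by
    rw [hAdef, Set.ofPred_forall]
    refine isClosed_iInter fun i => ?_
    rw [Set.ofPred_forall]
    refine isClosed_iInter fun j => ?_
    exact isClosed_le (((hGc i j).sub continuous_const).abs) continuous_const
  have hIdet : Integrable (fun p => (Ψ p * (Matrix.of (Gr E u p)).det) ^ 2) μ := by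
    have := (hZ2 _ (hDc.pow 2)).1
    refine this.congr (Eventually.of_forall fun p => ?_)
    simp only [Pi.pow_apply]
    ring
  have hleft : ∫ p in A, Ψ p ^ 2 ∂μ ≤
      d⁻¹ * ∫ p, (Ψ p * (Matrix.of (Gr E u p)).det) ^ 2 ∂μ := by
    rw [← integral_indicator hAcl.measurableSet, ← integral_const_mul]
    refine integral_mono_of_nonneg (Filter.Eventually.of_forall fun p => ?_)
      (hIdet.const_mul _) (Filter.Eventually.of_forall fun p => ?_)
    · exact Set.indicator_nonneg (fun p _ => sq_nonneg _) p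
    · by_cases hpA : p ∈ A
      · simp only [Set.indicator_of_mem hpA]
        have h1 := hdet (Gr E u p) hpA
        rw [inv_mul_eq_div, le_div_iff₀ hd, mul_pow]
        exact mul_le_mul_of_nonneg_left h1 (sq_nonneg _)
      · simp only [Set.indicator_of_notMem hpA]
        positivity
  have hI0 : 0 ≤ ∫ p, (Ψ p ^ 2 * SS E u p + Gam E Ψ Ψ p) ∂μ :=
    integral_nonneg fun p => add_nonneg (mul_nonneg (sq_nonneg _) (SS_nonneg hus p))
      (Gam_nonneg _ _)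
  have hΨ0 : 0 ≤ K * ∫ p, Ψ p ^ 2 ∂μ := mul_nonneg hK (integral_nonneg fun p => sq_nonneg _)
  have h5 : d⁻¹ * ∫ p, (Ψ p * (Matrix.of (Gr E u p)).det) ^ 2 ∂μ ≤
      (B / (c * d)) * ∫ p, (Ψ p ^ 2 * SS E u p + Gam E Ψ Ψ p) ∂μ +
        (B / (c * d)) * (K * ∫ p, Ψ p ^ 2 ∂μ) := by
    have h6 := mul_le_mul_of_nonneg_left hint (inv_nonneg.2 hcd.le)
    have h7 : (c * d)⁻¹ * (c * ∫ p, (Ψ p * (Matrix.of (Gr E u p)).det) ^ 2 ∂μ) =
        d⁻¹ * ∫ p, (Ψ p * (Matrix.of (Gr E u p)).det) ^ 2 ∂μ := by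
      field_simp
    rw [h7] at h6
    refine h6.trans_eq ?_
    rw [div_eq_mul_inv]
    ring
  have h6 : (B / (c * d)) * ∫ p, (Ψ p ^ 2 * SS E u p + Gam E Ψ Ψ p) ∂μ ≤
      max 1 (B / (c * d)) * ∫ p, (Ψ p ^ 2 * SS E u p + Gam E Ψ Ψ p) ∂μ :=
    mul_le_mul_of_nonneg_right (le_max_right _ _) hI0
  have h7 : (B / (c * d)) * (K * ∫ p, Ψ p ^ 2 ∂μ) ≤
      max 1 (B / (c * d)) * (K * ∫ p, Ψ p ^ 2 ∂μ) :=
    mul_le_mul_of_nonneg_right (le_max_right _ _) hΨ0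
  have h8 : max 1 (B / (c * d)) * K * ∫ p, Ψ p ^ 2 ∂μ =
    max 1 (B / (c * d)) * (K * ∫ p, Ψ p ^ 2 ∂μ) := by ring
  rw [h8]
  exact hleft.trans (h5.trans (add_le_add h6 h7))

/-- SCXS from the calculus -/
theorem scxs (hA : Stmt.CALA) (hB : Stmt.CALB) (hD : Stmt.CALD) : Stmt.SCXS := by
  intro n hn γ hγ c hc
  obtain ⟨m, rfl⟩ : ∃ m, n = m + 1 := ⟨n - 1, by omega⟩
  exact scxs_main hA hB hD m hγ hc

end Vale.Agent.P210.R2.H973
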