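import Vale.Agent.P210.R2.H973.Mf1
import Mathlib.LinearAlgebra.Matrix.Gershgorin

/-!
# Bounds for the terms of the scalar curvature inequality
-/

open scoped Manifold ContDiff Topology Bundle
open Set Metric Filter Bundle IsManifold MeasureTheory Manifold

set_option maxSynthPendingDepth 3
set_option linter.unusedSectionVars false

noncomputable section

namespace Vale.Agent.P210.R2.H973

open Vale.Agent.P210.R2.H53
open Vale.Agent.P210.R2.H755 (contMDiff_Gam contMDiff_Lap Gam_chart Lap_chart HS_chart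
  contDiffOn_chart comp_chart_eq mem_chartAt_atlas bochner_ric)

section poly

variable {m : ℕ}

theorem contDiff_det : ContDiff ℝ ∞ (fun X : Fin m → Fin m → ℝ => (Matrix.of X).det) := by
  simp only [Matrix.det_apply, Matrix.of_apply]
  refine ContDiff.sum fun σ _ => ContDiff.const_smul _ (contDiff_prod fun i _ => ?_)
  fun_prop

theorem contDiff_adj (i j : Fin m) :
    ContDiff ℝ ∞ (fun X : Fin m → Fin m → ℝ => (Matrix.of X).adjugate i j) := by
  simp only [Matrix.adjugate_apply]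
  have h1 : ContDiff ℝ ∞ (fun X : Fin m → Fin m → ℝ => fun a b : Fin m =>
      (Matrix.of X).updateRow j (Pi.single i 1) a b) := by
    refine contDiff_pi.2 fun a => contDiff_pi.2 fun b => ?_
    by_cases h : a = j
    · subst h
      simp only [Matrix.updateRow_self]
      fun_prop
    · simp only [Matrix.updateRow_ne h, Matrix.of_apply]
      fun_prop
  exact contDiff_det.comp h1

theorem contDiff_cP (j : Fin m) : ContDiff ℝ ∞ (cP j) :=
  (contDiff_const.mul contDiff_det).mul (contDiff_adj j j)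

theorem contDiff_cR (i l j k : Fin m) : ContDiff ℝ ∞ (cR i l j k) :=
  (contDiff_adj i l).mul (contDiff_adj j k)

theorem bound_C1 {c : (Fin m → Fin m → ℝ) → ℝ} (hc : ContDiff ℝ ∞ c) :
    ∃ C : ℝ, 0 ≤ C ∧ ∀ X : Fin m → Fin m → ℝ, (∀ i j, |X i j| ≤ 4) →
      |c X| ≤ C ∧ ‖fderiv ℝ c X‖ ≤ C := by
  have hK : IsCompact (closedBall (0 : Fin m → Fin m → ℝ) 4) := isCompact_closedBall 0 4
  obtain ⟨C1, h1⟩ := hK.exists_bound_of_continuousOn (f := c) hc.continuous.continuousOn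
  obtain ⟨C2, h2⟩ := hK.exists_bound_of_continuousOn (f := fderiv ℝ c)
    (hc.continuous_fderiv (by simp)).continuousOn
  refine ⟨max (max C1 C2) 0, le_max_right _ _, fun X hX => ?_⟩
  have hmem : X ∈ closedBall (0 : Fin m → Fin m → ℝ) 4 := by
    rw [mem_closedBall_zero_iff, pi_norm_le_iff_of_nonneg (by norm_num)]
    intro i
    rw [pi_norm_le_iff_of_nonneg (by norm_num)]
    intro j
    exact hX i j
  exact ⟨(h1 X hmem).trans ((le_max_left _ _).trans (le_max_left _ _)),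
    (h2 X hmem).trans ((le_max_right _ _).trans (le_max_left _ _))⟩

/-- one constant for finitely many functions -/
theorem bound_fam {ι : Type*} [Finite ι] {c : ι → (Fin m → Fin m → ℝ) → ℝ}
    (hc : ∀ i, ContDiff ℝ ∞ (c i)) :
    ∃ C : ℝ, 0 ≤ C ∧ ∀ k, ∀ X : Fin m → Fin m → ℝ, (∀ i j, |X i j| ≤ 4) →
      |c k X| ≤ C ∧ ‖fderiv ℝ (c k) X‖ ≤ C := by
  classical
  have := Fintype.ofFinite ι
  choose C hC0 hC using fun i => bound_C1 (hc i)
  refine ⟨∑ i, C i, Finset.sum_nonneg fun i _ => hC0 i, fun k X hX => ?_⟩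
  have h1 : C k ≤ ∑ i, C i :=
    Finset.single_le_sum (f := C) (fun i _ => hC0 i) (Finset.mem_univ k)
  exact ⟨(hC k X hX).1.trans h1, (hC k X hX).2.trans h1⟩

/-- the determinant is bounded below near the identity -/
theorem det_lower (m : ℕ) : ∃ c : ℝ, 0 < c ∧ ∀ X : Fin m → Fin m → ℝ,
    (∀ i j, |X i j - (if i = j then 1 else 0)| ≤ 1 / (4 * (m + 1 : ℕ))) →
    c ≤ (Matrix.of X).det ^ 2 := by
  classical
  set S : Set (Fin m → Fin m → ℝ) := {X | ∀ i j,
    |X i j - (if i = j then 1 else 0)| ≤ 1 / (4 * (m + 1 : ℕ))} with hS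
  have hcl : IsClosed S := by
    rw [hS, Set.ofPred_forall]
    refine isClosed_iInter fun i => ?_
    rw [Set.ofPred_forall]
    refine isClosed_iInter fun j => ?_
    exact isClosed_le (by fun_prop) continuous_const
  have hbd : S ⊆ closedBall (0 : Fin m → Fin m → ℝ) 4 := by
    intro X hX
    rw [mem_closedBall_zero_iff, pi_norm_le_iff_of_nonneg (by norm_num)]
    intro i
    rw [pi_norm_le_iff_of_nonneg (by norm_num)]
    intro j
    have h1 := abs_le.1 (hX i j)
    have h2 : (1 : ℝ) / (4 * (m + 1 : ℕ)) ≤ 1 := by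
      rw [div_le_one (by positivity)]
      push_cast
      have : (0 : ℝ) ≤ m := Nat.cast_nonneg m
      linarith only [this]
    rw [Real.norm_eq_abs, abs_le]
    have h3 : (0 : ℝ) ≤ (if i = j then (1 : ℝ) else 0) := by split_ifs <;> norm_num
    have h4 : (if i = j then (1 : ℝ) else 0) ≤ 1 := by split_ifs <;> norm_num
    constructor
    · linarith only [h1.1, h2, h3]
    · linarith only [h1.2, h2, h4]
  have hK : IsCompact S := (isCompact_closedBall _ _).of_isClosed_subset hcl hbd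
  have hne : ∀ X ∈ S, (Matrix.of X).det ≠ 0 := by
    intro X hX
    refine det_ne_zero_of_sum_row_lt_diag fun k => ?_
    have hδ : (1 : ℝ) / (4 * (m + 1 : ℕ)) * m ≤ 1 / 4 := by
      rw [div_mul_eq_mul_div, one_mul, div_le_div_iff₀ (by positivity) (by norm_num)]
      push_cast
      linarith only
    have h1 : ∑ j ∈ Finset.univ.erase k, ‖(Matrix.of X) k j‖ ≤ 1 / 4 := by
      calc ∑ j ∈ Finset.univ.erase k, ‖(Matrix.of X) k j‖ ≤
          ∑ j ∈ Finset.univ.erase k, (1 : ℝ) / (4 * (m + 1 : ℕ)) := by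
            refine Finset.sum_le_sum fun j hj => ?_
            have h2 := hX k j
            rw [if_neg (Finset.ne_of_mem_erase hj).symm, sub_zero] at h2
            exact h2
        _ ≤ ∑ _j : Fin m, (1 : ℝ) / (4 * (m + 1 : ℕ)) :=
            Finset.sum_le_sum_of_subset_of_nonneg (Finset.erase_subset _ _)
              fun _ _ _ => by positivity
        _ = (1 : ℝ) / (4 * (m + 1 : ℕ)) * m := by
            rw [Finset.sum_const, Finset.card_univ, Fintype.card_fin, nsmul_eq_mul, mul_comm]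
        _ ≤ 1 / 4 := hδ
    have h2 := hX k k
    rw [if_pos rfl] at h2
    have h3 := (abs_le.1 h2).1
    have h4 : (1 : ℝ) / (4 * (m + 1 : ℕ)) ≤ 1 / 4 := by
      rw [div_le_div_iff₀ (by positivity) (by norm_num)]
      push_cast
      have : (0 : ℝ) ≤ m := Nat.cast_nonneg m
      linarith only [this]
    have h5 : 3 / 4 ≤ X k k := by linarith only [h3, h4]
    rw [Real.norm_of_nonneg (by rw [Matrix.of_apply]; linarith only [h5] :
      (0 : ℝ) ≤ (Matrix.of X) k k), Matrix.of_apply]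
    linarith only [h1, h5]
  rcases S.eq_empty_or_nonempty with he | hne'
  · refine ⟨1, one_pos, fun X hX => ?_⟩
    have : X ∈ S := hX
    rw [he] at this
    exact absurd this (Set.notMem_empty X)
  · obtain ⟨X₀, hX₀, hmin⟩ := hK.exists_isMinOn hne'
      (f := fun X => (Matrix.of X).det ^ 2) (contDiff_det.continuous.pow 2).continuousOn
    refine ⟨(Matrix.of X₀).det ^ 2, ?_, fun X hX => hmin hX⟩
    have := hne X₀ hX₀
    positivity

end poly

variable {E : Type} [NormedAddCommGroup E] [NormedSpace ℝ E] [FiniteDimensional ℝ E]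
  {M : Type} [MetricSpace M] [ChartedSpace E M]
  [RiemannianBundle (fun x : M => TangentSpace 𝓘(ℝ, E) x)]
  [IsManifold 𝓘(ℝ, E) ∞ M]
  [IsContMDiffRiemannianBundle 𝓘(ℝ, E) ∞ E (fun x : M => TangentSpace 𝓘(ℝ, E) x)] {m : ℕ}

/-- chain rule for functions of the Gram matrix -/
theorem Gam_comp_Gr {u : Fin m → M → ℝ} (hu : ∀ i, ContMDiff 𝓘(ℝ, E) 𝓘(ℝ, ℝ) ∞ (u i))
    {c : (Fin m → Fin m → ℝ) → ℝ} (hc : ContDiff ℝ ∞ c) (w : M → ℝ) (p : M) :
    Gam E w (fun q => c (Gr E u q)) p =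
      fderiv ℝ c (Gr E u p) (fun i j => Gam E w (Gam E (u i) (u j)) p) := by
  have he : chartAt E p ∈ maximalAtlas 𝓘(ℝ, E) ∞ M := mem_chartAt_atlas p
  have hz : chartAt E p p ∈ (chartAt E p).target := mem_chart_target E p
  have h1 : ∀ i j, HasFDerivAt ((Gam E (u i) (u j)) ∘ (chartAt E p).symm)
      (fderiv ℝ ((Gam E (u i) (u j)) ∘ (chartAt E p).symm) (chartAt E p p)) (chartAt E p p) :=
    fun i j => fd_diff (localRiem_chartG he)
      (contDiffOn_chart he (contMDiff_Gam (hu i) (hu j))) hz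
  have h2 : HasFDerivAt (fun y => fun i j => ((Gam E (u i) (u j)) ∘ (chartAt E p).symm) y)
      (ContinuousLinearMap.pi fun i => ContinuousLinearMap.pi fun j =>
        fderiv ℝ ((Gam E (u i) (u j)) ∘ (chartAt E p).symm) (chartAt E p p)) (chartAt E p p) :=
    hasFDerivAt_pi.2 fun i => hasFDerivAt_pi.2 fun j => h1 i j
  have h3 : (fun i j => ((Gam E (u i) (u j)) ∘ (chartAt E p).symm) (chartAt E p p)) =
      Gr E u p := by
    funext i j
    rw [Function.comp_apply, (chartAt E p).left_inv (mem_chart_source E p)]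
    rfl
  have h4 : HasFDerivAt c (fderiv ℝ c (Gr E u p))
      (fun i j => ((Gam E (u i) (u j)) ∘ (chartAt E p).symm) (chartAt E p p)) := by
    rw [h3]
    exact (hc.differentiable (by simp) _).hasFDerivAt
  have h5 := (h4.comp (chartAt E p p) h2).fderiv
  have h6 : (fun q => c (Gr E u q)) ∘ (chartAt E p).symm =
      c ∘ fun y => fun i j => ((Gam E (u i) (u j)) ∘ (chartAt E p).symm) y := rfl
  rw [Gam_at, h6, h5]
  change fderiv ℝ c (Gr E u p) (fun i j => fderiv ℝ ((Gam E (u i) (u j)) ∘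
    (chartAt E p).symm) (chartAt E p p) _) = _
  congr 1
  funext i j
  rw [Gam_at w (Gam E (u i) (u j)) p]

theorem Gam_nonneg (w : M → ℝ) (p : M) : 0 ≤ Gam E w w p := by
  have hR := localRiem_chartG (mem_chartAt_atlas (E := E) p)
  have hz := mem_chart_target E p
  rw [Gam, gam_eq hR hz]
  exact G_nonneg hR hz _

theorem Gam_cs (v w : M → ℝ) (p : M) : Gam E v w p ^ 2 ≤ Gam E v v p * Gam E w w p := by
  have hR := localRiem_chartG (mem_chartAt_atlas (E := E) p)
  have hz := mem_chart_target E p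
  obtain ⟨b, hb⟩ := exists_onb _ (hR.symm _ hz) (hR.pos _ hz)
  rw [Gam, Gam, Gam, gam_eq hR hz, gam_eq hR hz, gam_eq hR hz]
  exact onb_cs hb _ _

theorem Gam_abs (v w : M → ℝ) (p : M) :
    |Gam E v w p| ≤ √(Gam E v v p) * √(Gam E w w p) := by
  rw [← Real.sqrt_mul (Gam_nonneg v p)]
  exact Real.abs_le_sqrt (Gam_cs v w p)

theorem Gr_le {u : Fin m → M → ℝ} {p : M} (h4 : ∀ i, Gam E (u i) (u i) p ≤ 4) (i j : Fin m) :
    |Gr E u p i j| ≤ 4 := by
  refine abs_le_of_sq ((Gam_cs (u i) (u j) p).trans ?_) (by norm_num)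
  calc Gam E (u i) (u i) p * Gam E (u j) (u j) p ≤ 4 * 4 :=
        mul_le_mul (h4 i) (h4 j) (Gam_nonneg _ _) (by norm_num)
    _ = 4 ^ 2 := by norm_num

theorem Gam_Gr {u : Fin m → M → ℝ} (hu : ∀ i, ContMDiff 𝓘(ℝ, E) 𝓘(ℝ, ℝ) ∞ (u i)) {p : M}
    (h4 : ∀ i, Gam E (u i) (u i) p ≤ 4) (w : M → ℝ) (i j : Fin m) :
    |Gam E w (Gam E (u i) (u j)) p| ≤ 4 * √(SS E u p) * √(Gam E w w p) := by
  have he : chartAt E p ∈ maximalAtlas 𝓘(ℝ, E) ∞ M := mem_chartAt_atlas p
  have hR := localRiem_chartG he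
  have hz : chartAt E p p ∈ (chartAt E p).target := mem_chart_target E p
  have h1 : (Gam E (u i) (u j)) ∘ (chartAt E p).symm =ᶠ[𝓝 (chartAt E p p)]
      gamG (chartG (chartAt E p)) (u i ∘ (chartAt E p).symm) (u j ∘ (chartAt E p).symm) :=
    comp_chart_eq (fun q hq => Gam_chart (hu i) (hu j) he hq) hz
  rw [Gam_at, h1.fderiv_eq, fderiv_gam hR hz (contDiffOn_chart he (hu i))
    (contDiffOn_chart he (hu j))]
  have hw : chartG (chartAt E p) (chartAt E p p)
      (gradG (chartG (chartAt E p)) (w ∘ (chartAt E p).symm) (chartAt E p p))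
      (gradG (chartG (chartAt E p)) (w ∘ (chartAt E p).symm) (chartAt E p p)) ≤
      (√(Gam E w w p)) ^ 2 := by
    rw [Real.sq_sqrt (Gam_nonneg w p), ← gam_eq hR hz]
    rfl
  have hg : ∀ i, chartG (chartAt E p) (chartAt E p p)
      (gradG (chartG (chartAt E p)) (u i ∘ (chartAt E p).symm) (chartAt E p p))
      (gradG (chartG (chartAt E p)) (u i ∘ (chartAt E p).symm) (chartAt E p p)) ≤ 2 ^ 2 := by
    intro i
    rw [← gam_eq hR hz]
    have := h4 i
    have h5 : gamG (chartG (chartAt E p)) (u i ∘ (chartAt E p).symm)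
      (u i ∘ (chartAt E p).symm) (chartAt E p p) = Gam E (u i) (u i) p := rfl
    rw [h5]
    linarith only [this]
  have b1 := hess_abs hR hz (contDiffOn_chart he (hu i)) (HS_le_SS hu p i) hw (hg j)
    (Real.sqrt_nonneg _) (Real.sqrt_nonneg _) (by norm_num)
  have b2 := hess_abs hR hz (contDiffOn_chart he (hu j)) (HS_le_SS hu p j) hw (hg i)
    (Real.sqrt_nonneg _) (Real.sqrt_nonneg _) (by norm_num)
  refine (abs_add_le _ _).trans ((add_le_add b1 b2).trans_eq ?_)
  ring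

theorem Gam_comp_Gr_le {u : Fin m → M → ℝ} (hu : ∀ i, ContMDiff 𝓘(ℝ, E) 𝓘(ℝ, ℝ) ∞ (u i))
    {p : M} (h4 : ∀ i, Gam E (u i) (u i) p ≤ 4)
    {c : (Fin m → Fin m → ℝ) → ℝ} (hc : ContDiff ℝ ∞ c) {C : ℝ}
    (hC : ‖fderiv ℝ c (Gr E u p)‖ ≤ C) (w : M → ℝ) :
    |Gam E w (fun q => c (Gr E u q)) p| ≤ C * (4 * √(SS E u p) * √(Gam E w w p)) := by
  have hb : 0 ≤ 4 * √(SS E u p) * √(Gam E w w p) := by positivity
  rw [Gam_comp_Gr hu hc, ← Real.norm_eq_abs]
  refine (ContinuousLinearMap.le_opNorm _ _).trans ?_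
  refine mul_le_mul hC ?_ (norm_nonneg _) ((norm_nonneg _).trans hC)
  rw [pi_norm_le_iff_of_nonneg hb]
  intro i
  rw [pi_norm_le_iff_of_nonneg hb]
  intro j
  exact Gam_Gr hu h4 w i j

theorem HH_le {u : Fin m → M → ℝ} (hu : ∀ i, ContMDiff 𝓘(ℝ, E) 𝓘(ℝ, ℝ) ∞ (u i)) {p : M}
    (h4 : ∀ i, Gam E (u i) (u i) p ≤ 4) (l j k : Fin m) :
    |HH E (u l) (u j) (u k) p| ≤ 4 * √(SS E u p) := by
  have he : chartAt E p ∈ maximalAtlas 𝓘(ℝ, E) ∞ M := mem_chartAt_atlas p
  have hR := localRiem_chartG he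
  have hz : chartAt E p p ∈ (chartAt E p).target := mem_chart_target E p
  have hg : ∀ i, chartG (chartAt E p) (chartAt E p p)
      (gradG (chartG (chartAt E p)) (u i ∘ (chartAt E p).symm) (chartAt E p p))
      (gradG (chartG (chartAt E p)) (u i ∘ (chartAt E p).symm) (chartAt E p p)) ≤ 2 ^ 2 := by
    intro i
    rw [← gam_eq hR hz]
    have := h4 i
    have h5 : gamG (chartG (chartAt E p)) (u i ∘ (chartAt E p).symm)
      (u i ∘ (chartAt E p).symm) (chartAt E p p) = Gam E (u i) (u i) p := rfl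
    rw [h5]
    linarith only [this]
  rw [HH_chart (hu l) (hu j) (hu k) he (mem_chart_source E p)]
  have b1 := hess_abs hR hz (contDiffOn_chart he (hu l)) (HS_le_SS hu p l) (hg j) (hg k)
    (Real.sqrt_nonneg _) (by norm_num) (by norm_num)
  refine b1.trans_eq ?_
  ring

theorem Lap_le (hm : Module.finrank ℝ E = m + 1) {u : Fin m → M → ℝ}
    (hu : ∀ i, ContMDiff 𝓘(ℝ, E) 𝓘(ℝ, ℝ) ∞ (u i)) (p : M) (i : Fin m) :
    |Lap E (u i) p| ≤ (m + 1) * √(SS E u p) := by
  have h1 := H755.lap_sq_le (localRiem_chartG (mem_chartAt_atlas (E := E) p))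
    (mem_chart_target E p) (contDiffOn_chart (mem_chartAt_atlas p) (hu i)) 0
  refine abs_le_of_sq ?_ (by positivity)
  have h2 : (Lap E (u i) p) ^ 2 ≤ (m + 1) * HS E 0 (u i) p := by
    have h3 : (Lap E (u i) p - Module.finrank ℝ E * 0 / 2) ^ 2 ≤
      Module.finrank ℝ E * HS E 0 (u i) p := h1
    rw [hm, mul_zero, zero_div, sub_zero] at h3
    push_cast at h3
    exact h3
  have h3 := HS_le_SS hu p i
  have h4 : (0 : ℝ) ≤ m := Nat.cast_nonneg m
  have h5 := sq_nonneg (√(SS E u p))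
  calc (Lap E (u i) p) ^ 2 ≤ (m + 1) * HS E 0 (u i) p := h2
    _ ≤ (m + 1) * (√(SS E u p)) ^ 2 := by gcongr
    _ ≤ ((m + 1) * √(SS E u p)) ^ 2 := by
        rw [mul_pow]
        have h6 : (0 : ℝ) ≤ ((m : ℝ) + 1) * m * (√(SS E u p)) ^ 2 := by positivity
        linarith only [h6]

end Vale.Agent.P210.R2.H973
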