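import Vale.Agent.P210.R2.H53.RDefs
import Vale.Agent.P210.R2.H973.RicA

/-!
# Second order calculus of a local Riemannian metric
-/

open scoped ContDiff Topology
open Set Metric Filter

set_option maxSynthPendingDepth 3

noncomputable section

namespace Vale.Agent.P210.R2.H973

open Vale.Agent.P210.R2.H53

variable {E : Type*} [NormedAddCommGroup E] [NormedSpace ℝ E] [FiniteDimensional ℝ E]
  {G : E → E →L[ℝ] E →L[ℝ] ℝ} {U : Set E} {z : E} {f g h k : E → ℝ}

omit [FiniteDimensional ℝ E] in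
/-- nondegeneracy -/
theorem eq_of_G (hR : LocalRiem G U) (hz : z ∈ U) {x y : E} (he : ∀ w, G z x w = G z y w) :
    x = y := by
  by_contra hne
  have h1 := hR.pos z hz (x - y) (sub_ne_zero.2 hne)
  have h2 := he (x - y)
  have : G z (x - y) (x - y) = 0 := by
    rw [map_sub (G z), sub_apply]
    linarith only [h2]
  linarith only [h1, this]

theorem inv_spec (hR : LocalRiem G U) (hz : z ∈ U) (l : E →L[ℝ] ℝ) (w : E) :
    G z (ContinuousLinearMap.inverse (G z) l) w = l w := by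
  obtain ⟨T, hT⟩ := isInvertible_of_pos (hR.pos z hz)
  rw [← hT, ContinuousLinearMap.inverse_equiv]
  simp

theorem grad_spec (hR : LocalRiem G U) (hz : z ∈ U) (f : E → ℝ) (w : E) :
    G z (gradG G f z) w = fderiv ℝ f z w := inv_spec hR hz _ w

theorem op_spec (hR : LocalRiem G U) (hz : z ∈ U) (f : E → ℝ) (v w : E) :
    G z (opG G f z v) w = hessG G f z v w := inv_spec hR hz _ w

omit [FiniteDimensional ℝ E] in
theorem hess_apply (G : E → E →L[ℝ] E →L[ℝ] ℝ) (f : E → ℝ) (z v w : E) :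
    hessG G f z v w = fderiv ℝ (fderiv ℝ f) z v w - fderiv ℝ f z (chris G z v w) := by
  simp [hessG]

theorem gam_eq (hR : LocalRiem G U) (hz : z ∈ U) (f g : E → ℝ) :
    gamG G f g z = G z (gradG G f z) (gradG G g z) := by
  rw [grad_spec hR hz]; rfl

theorem gam_comm (hR : LocalRiem G U) (hz : z ∈ U) (f g : E → ℝ) :
    gamG G f g z = gamG G g f z := by
  rw [gam_eq hR hz, gam_eq hR hz, hR.symm z hz]

/-- `gamG f g` is the derivative of `g` in the direction of the gradient of `f`. -/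
theorem gam_eq' (hR : LocalRiem G U) (hz : z ∈ U) (f g : E → ℝ) :
    gamG G f g z = fderiv ℝ g z (gradG G f z) := by
  rw [gam_comm hR hz]; rfl

omit [FiniteDimensional ℝ E] in
theorem fd_contDiffOn (hR : LocalRiem G U) (hf : ContDiffOn ℝ ∞ f U) :
    ContDiffOn ℝ ∞ (fderiv ℝ f) U := hf.fderiv_of_isOpen hR.isOpen (by simp)

omit [FiniteDimensional ℝ E] in
theorem fd_diff {F : Type*} [NormedAddCommGroup F] [NormedSpace ℝ F] {φ : E → F}
    (hR : LocalRiem G U) (hf : ContDiffOn ℝ ∞ φ U) (hz : z ∈ U) :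
    HasFDerivAt φ (fderiv ℝ φ z) z :=
  ((hf.contDiffAt (hR.isOpen.mem_nhds hz)).differentiableAt (by simp)).hasFDerivAt

theorem inv_contDiffOn (hR : LocalRiem G U) :
    ContDiffOn ℝ ∞ (fun z => ContinuousLinearMap.inverse (G z)) U := by
  have : CompleteSpace E := FiniteDimensional.complete ℝ E
  intro z hz
  obtain ⟨T, hT⟩ := isInvertible_of_pos (hR.pos z hz)
  have h1 : ContDiffAt ℝ ∞ ContinuousLinearMap.inverse (G z) := by
    rw [← hT]; exact contDiffAt_map_inverse T
  exact (h1.comp z (hR.smooth.contDiffAt (hR.isOpen.mem_nhds hz))).contDiffWithinAt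

theorem grad_contDiffOn (hR : LocalRiem G U) (hf : ContDiffOn ℝ ∞ f U) :
    ContDiffOn ℝ ∞ (gradG G f) U :=
  (inv_contDiffOn hR).clm_apply (fd_contDiffOn hR hf)

theorem gam_contDiffOn (hR : LocalRiem G U) (hf : ContDiffOn ℝ ∞ f U)
    (hg : ContDiffOn ℝ ∞ g U) : ContDiffOn ℝ ∞ (gamG G f g) U :=
  (fd_contDiffOn hR hf).clm_apply (grad_contDiffOn hR hg)

omit [FiniteDimensional ℝ E] in
theorem fd2_symm (hR : LocalRiem G U) (hz : z ∈ U) {F : Type*} [NormedAddCommGroup F]
    [NormedSpace ℝ F] {φ : E → F} (hf : ContDiffOn ℝ ∞ φ U) (v w : E) :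
    fderiv ℝ (fderiv ℝ φ) z v w = fderiv ℝ (fderiv ℝ φ) z w v := by
  have hs : IsSymmSndFDerivAt ℝ φ z :=
    (hf.contDiffAt (hR.isOpen.mem_nhds hz)).isSymmSndFDerivAt
      (by simpa using! (WithTop.coe_le_coe.2 le_top : ((2 : ℕ∞) : WithTop ℕ∞) ≤ ((⊤ : ℕ∞) : WithTop ℕ∞)))
  exact hs.eq v w

theorem hess_symm (hR : LocalRiem G U) (hz : z ∈ U) (hf : ContDiffOn ℝ ∞ f U) (v w : E) :
    hessG G f z v w = hessG G f z w v := by
  rw [hess_apply, hess_apply, fd2_symm hR hz hf, hR.chris_symm hz]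

/-- covariant derivative of the gradient -/
theorem fderiv_grad (hR : LocalRiem G U) (hz : z ∈ U) (hf : ContDiffOn ℝ ∞ f U) (v : E) :
    fderiv ℝ (gradG G f) z v = opG G f z v - chris G z v (gradG G f z) := by
  refine eq_of_G hR hz fun w => ?_
  have h1 : (fun y => G y (gradG G f y) w) =ᶠ[𝓝 z] fun y => fderiv ℝ f y w := by
    filter_upwards [hR.isOpen.mem_nhds hz] with y hy using grad_spec hR hy f w
  have h2 := ((hR.differentiableAt hz).hasFDerivAt.clm_apply
    (fd_diff hR (grad_contDiffOn hR hf) hz)).clm_apply (hasFDerivAt_const w z)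
  have h3 := (fd_diff hR (fd_contDiffOn hR hf) hz).clm_apply (hasFDerivAt_const w z)
  have h4 := congrArg (fun T => T v) ((h2.congr_of_eventuallyEq h1.symm).unique h3)
  simp at h4
  have h5 := hR.fderiv_eq hz v (gradG G f z) w
  rw [map_sub (G z), sub_apply, op_spec hR hz, hess_apply]
  have h6 := grad_spec hR hz f (chris G z v w)
  linarith only [h4, h5, h6]

theorem fderiv_gam (hR : LocalRiem G U) (hz : z ∈ U) (hf : ContDiffOn ℝ ∞ f U)
    (hg : ContDiffOn ℝ ∞ g U) (v : E) :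
    fderiv ℝ (gamG G f g) z v =
      hessG G f z v (gradG G g z) + hessG G g z v (gradG G f z) := by
  have h2 := (fd_diff hR (fd_contDiffOn hR hf) hz).clm_apply
    (fd_diff hR (grad_contDiffOn hR hg) hz)
  have h3 : fderiv ℝ (gamG G f g) z v = fderiv ℝ f z (fderiv ℝ (gradG G g) z v)
      + fderiv ℝ (fderiv ℝ f) z v (gradG G g z) := by
    have h4 : fderiv ℝ (gamG G f g) z v =
      (fderiv ℝ (fun y => fderiv ℝ f y (gradG G g y)) z) v := rfl
    have := congrArg (fun T => T v) h2.fderiv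
    rw [h4]
    simpa using this
  rw [h3, fderiv_grad hR hz hg, map_sub, hess_apply G f, ← op_spec hR hz g,
    hR.symm z hz (opG G g z v), grad_spec hR hz]
  ring

/-- `Hess f (∇ g, ∇ h)` -/
def HF (G : E → E →L[ℝ] E →L[ℝ] ℝ) (f g h : E → ℝ) (z : E) : ℝ :=
  hessG G f z (gradG G g z) (gradG G h z)

theorem HF_eq (hR : LocalRiem G U) (hz : z ∈ U) (hf : ContDiffOn ℝ ∞ f U)
    (hg : ContDiffOn ℝ ∞ g U) (hh : ContDiffOn ℝ ∞ h U) :
    HF G f g h z = (gamG G g (gamG G f h) z + gamG G h (gamG G f g) z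
      - gamG G f (gamG G g h) z) / 2 := by
  rw [gam_eq' hR hz, gam_eq' hR hz, gam_eq' hR hz, fderiv_gam hR hz hf hh,
    fderiv_gam hR hz hf hg, fderiv_gam hR hz hg hh, HF, hess_symm hR hz hf (gradG G h z),
    hess_symm hR hz hh (gradG G g z), hess_symm hR hz hg (gradG G h z)]
  ring

/-- curvature tensor `⟨R(x, y) a, w⟩` -/
def Rm (G : E → E →L[ℝ] E →L[ℝ] ℝ) (z x y a w : E) : ℝ :=
  G z (fderiv ℝ (chris G) z x y a - fderiv ℝ (chris G) z y x a
    + chris G z x (chris G z y a) - chris G z y (chris G z x a)) w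

theorem Rm_sec (hR : LocalRiem G U) (hz : z ∈ U) (a b : E) :
    Rm G z a b b a = secG G z a b := by
  have h1 := hR.fderiv_chris hz a b b a
  have h2 := hR.fderiv_chris hz b a b a
  simp only [Rm, secG, map_sub (G z), map_add (G z), sub_apply, add_apply]
  have e1 := hR.fderiv2_comm hz a b
  have e2 := hR.fderiv2_symm hz b a b a
  have e3 := hR.chris_symm hz b a
  have e4 := hR.symm z hz (chris G z a b) (chris G z b a)
  have e5 := hR.symm z hz (chris G z a a) (chris G z b b)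
  rw [e1] at h1
  rw [e3] at h2
  linarith only [h1, h2, e2, e5]

theorem hess_hasFDerivAt (hR : LocalRiem G U) (hz : z ∈ U) (hf : ContDiffOn ℝ ∞ f U) :
    HasFDerivAt (hessG G f) (fderiv ℝ (hessG G f) z) z ∧ ∀ v a b : E,
      fderiv ℝ (hessG G f) z v a b = fderiv ℝ (fderiv ℝ (fderiv ℝ f)) z v a b
        - fderiv ℝ (fderiv ℝ f) z v (chris G z a b) - fderiv ℝ f z (fderiv ℝ (chris G) z v a b) := by
  have h1 := fd_diff hR (fd_contDiffOn hR (f := f) hf) hz
  have h2 : ContDiffOn ℝ ∞ (fderiv ℝ (fderiv ℝ f)) U :=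
    (fd_contDiffOn hR hf).fderiv_of_isOpen hR.isOpen (by simp)
  have h3 : ContDiffOn ℝ ∞ (hessG G f) U := by
    refine h2.sub (ContDiffOn.clm_comp ?_ hR.contDiffOn_chris)
    exact (ContinuousLinearMap.contDiff _).comp_contDiffOn (fd_contDiffOn hR hf)
  have h4 := fd_diff hR h3 hz
  refine ⟨h4, fun v a b => ?_⟩
  have h5 := (h4.clm_apply (hasFDerivAt_const a z)).clm_apply (hasFDerivAt_const b z)
  have h6 := ((fd_diff hR h2 hz).clm_apply (hasFDerivAt_const a z)).clm_apply
    (hasFDerivAt_const b z)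
  have h7 := h1.clm_apply (((hR.hasFDerivAt_chris hz).clm_apply
    (hasFDerivAt_const a z)).clm_apply (hasFDerivAt_const b z))
  have h8 : (fun y => hessG G f y a b) = fun y => fderiv ℝ (fderiv ℝ f) y a b
      - fderiv ℝ f y (chris G y a b) := by
    funext y
    exact hess_apply G f y a b
  rw [h8] at h5
  have h9 := congrArg (fun T => T v) (h5.unique (h6.sub h7))
  simp at h9
  linarith only [h9]

theorem fderiv_HF (hR : LocalRiem G U) (hz : z ∈ U) (hf : ContDiffOn ℝ ∞ f U)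
    (hg : ContDiffOn ℝ ∞ g U) (hh : ContDiffOn ℝ ∞ h U) (v : E) :
    fderiv ℝ (HF G f g h) z v =
      fderiv ℝ (hessG G f) z v (gradG G g z) (gradG G h z)
      + hessG G f z (opG G g z v - chris G z v (gradG G g z)) (gradG G h z)
      + hessG G f z (gradG G g z) (opG G h z v - chris G z v (gradG G h z)) := by
  have h2 := ((hess_hasFDerivAt hR hz hf).1.clm_apply
    (fd_diff hR (grad_contDiffOn hR hg) hz)).clm_apply (fd_diff hR (grad_contDiffOn hR hh) hz)
  have h3 := congrArg (fun T => T v) h2.fderiv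
  simp only [add_apply, ContinuousLinearMap.comp_apply, ContinuousLinearMap.flip_apply] at h3
  rw [fderiv_grad hR hz hg, fderiv_grad hR hz hh] at h3
  have h4 : fderiv ℝ (HF G f g h) z v =
    (fderiv ℝ (fun y => hessG G f y (gradG G g y) (gradG G h y)) z) v := rfl
  rw [h4, h3]
  ring

/-- the curvature commutator on gradients -/
theorem comm_HF (hR : LocalRiem G U) (hz : z ∈ U) (hf : ContDiffOn ℝ ∞ f U)
    (hg : ContDiffOn ℝ ∞ g U) (hh : ContDiffOn ℝ ∞ h U) (hk : ContDiffOn ℝ ∞ k U) :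
    fderiv ℝ (HF G f h k) z (gradG G g z) - fderiv ℝ (HF G f g k) z (gradG G h z) =
      -Rm G z (gradG G g z) (gradG G h z) (gradG G k z) (gradG G f z)
      + hessG G f z (opG G h z (gradG G g z)) (gradG G k z)
      + hessG G f z (gradG G h z) (opG G k z (gradG G g z))
      - hessG G f z (opG G g z (gradG G h z)) (gradG G k z)
      - hessG G f z (gradG G g z) (opG G k z (gradG G h z)) := by
  rw [fderiv_HF hR hz hf hh hk, fderiv_HF hR hz hf hg hk, (hess_hasFDerivAt hR hz hf).2,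
    (hess_hasFDerivAt hR hz hf).2]
  have h1 : fderiv ℝ (fderiv ℝ (fderiv ℝ f)) z (gradG G g z) (gradG G h z) =
      fderiv ℝ (fderiv ℝ (fderiv ℝ f)) z (gradG G h z) (gradG G g z) :=
    fd2_symm hR hz (fd_contDiffOn hR hf) _ _
  rw [h1, hR.chris_symm hz (gradG G g z) (gradG G h z)]
  have h2 : ∀ a : E, fderiv ℝ f z a = G z a (gradG G f z) := by
    intro a
    rw [hR.symm z hz, grad_spec hR hz]
  simp only [Rm, map_sub, map_add, sub_apply, add_apply, h2, hess_apply]
  ring

end Vale.Agent.P210.R2.H973
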