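import Vale.Agent.P210.R2.H973.Loc3
import Mathlib.Analysis.InnerProductSpace.GramMatrix

/-!
# The scalar curvature through `n - 1` vectors
-/

open scoped ContDiff Topology RealInnerProductSpace
open Set Metric Filter

set_option maxSynthPendingDepth 3
set_option linter.unusedSectionVars false

noncomputable section

namespace Vale.Agent.P210.R2.H973

open Vale.Agent.P210.R2.H53

variable {E : Type} [NormedAddCommGroup E] [NormedSpace ℝ E] [FiniteDimensional ℝ E]
  {G : E → E →L[ℝ] E →L[ℝ] ℝ} {U : Set E} {z : E}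

/-- adapted orthonormal basis -/
theorem exists_adapted {m : ℕ} (hm : Module.finrank ℝ E = m + 1) (B : E →L[ℝ] E →L[ℝ] ℝ)
    (hs : ∀ v w, B v w = B w v) (hp : ∀ v, v ≠ 0 → 0 < B v v) (v : Fin m → E)
    (hdet : (Matrix.of fun i j => B (v i) (v j)).det ≠ 0) :
    ∃ (b : Module.Basis (Fin (m + 1)) ℝ E) (c : Fin m → Fin m → ℝ),
      (∀ i j, B (b i) (b j) = if i = j then 1 else 0) ∧
      (∀ k : Fin m, b k.castSucc = ∑ i, c k i • v i) := by
  classical
  let g : E →ₗ[ℝ] E →ₗ[ℝ] ℝ :=
    LinearMap.mk₂ ℝ (fun v w => B v w) (by intro x y c; simp) (by intro r x c; simp)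
      (by intro x y c; simp) (by intro r x c; simp)
  obtain ⟨φ, hφ⟩ := H329.exists_iso hm g (fun v w => hs v w) (fun v hv => hp v hv)
  have hB : ∀ v w, B v w = ⟪φ v, φ w⟫ := hφ
  set w : Fin m → EuclideanSpace ℝ (Fin (m + 1)) := fun i => φ (v i) with hw
  have hli : LinearIndependent ℝ w := by
    rw [Fintype.linearIndependent_iff]
    intro c hc
    have h1 : (Matrix.of fun i j => B (v i) (v j)).mulVec c = 0 := by
      funext i
      rw [Matrix.mulVec, dotProduct, Pi.zero_apply]
      have h2 : ∑ j, (Matrix.of fun i j => B (v i) (v j)) i j * c j = ⟪w i, ∑ j, c j • w j⟫ := by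
        rw [inner_sum]
        refine Finset.sum_congr rfl fun j _ => ?_
        rw [inner_smul_right, Matrix.of_apply, hB]
        ring
      rw [h2, hc, inner_zero_right]
    exact fun i => congrFun (Matrix.eq_zero_of_mulVec_eq_zero hdet h1) i
  set S := Submodule.span ℝ (range w) with hS
  have hSm : Module.finrank ℝ S = m := by
    rw [hS, finrank_span_eq_card hli, Fintype.card_fin]
  let e : OrthonormalBasis (Fin m) ℝ S := (stdOrthonormalBasis ℝ S).reindex (finCongr hSm)
  let f : Fin (m + 1) → EuclideanSpace ℝ (Fin (m + 1)) :=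
    Fin.snoc (α := fun _ => EuclideanSpace ℝ (Fin (m + 1))) (fun k => (e k : EuclideanSpace ℝ (Fin (m + 1)))) 0
  have hf : ∀ k : Fin m, f k.castSucc = e k := fun k => Fin.snoc_castSucc _ _ _
  have hort : Orthonormal ℝ ((range (Fin.castSucc : Fin m → Fin (m + 1))).domRestrict f) := by
    rw [orthonormal_iff_ite]
    rintro ⟨_, i, rfl⟩ ⟨_, j, rfl⟩
    change ⟪f i.castSucc, f j.castSucc⟫ = _
    rw [hf, hf]
    have := (orthonormal_iff_ite.1 e.orthonormal) i j
    rw [Submodule.coe_inner] at this
    rw [this]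
    by_cases hij : i = j
    · subst hij
      rw [if_pos rfl, if_pos rfl]
    · rw [if_neg hij, if_neg fun h => hij (Fin.castSucc_injective _ (congrArg Subtype.val h))]
  obtain ⟨b, hb⟩ := hort.exists_orthonormalBasis_extension_of_card_eq (by simp)
  have hmem : ∀ k : Fin m, ∃ c : Fin m → ℝ, ∑ i, c i • w i = b k.castSucc := by
    intro k
    rw [hb _ ⟨k, rfl⟩, hf]
    exact (Submodule.mem_span_range_iff_exists_fun ℝ).1 (e k).2
  choose c hc using hmem
  refine ⟨b.toBasis.map φ.symm, c, fun i j => ?_, fun k => ?_⟩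
  · rw [Module.Basis.map_apply, Module.Basis.map_apply, hB, φ.apply_symm_apply,
      φ.apply_symm_apply, OrthonormalBasis.coe_toBasis]
    exact (orthonormal_iff_ite.1 b.orthonormal) i j
  · rw [Module.Basis.map_apply, OrthonormalBasis.coe_toBasis, ← hc k, map_sum]
    refine Finset.sum_congr rfl fun i _ => ?_
    rw [map_smul, hw, φ.symm_apply_apply]

/-- coefficients and the inverse Gram matrix -/
theorem coeff_gram {m : ℕ} (B : E →L[ℝ] E →L[ℝ] ℝ) (v : Fin m → E) (b : Fin m → E)
    (c : Fin m → Fin m → ℝ) (hb : ∀ i j, B (b i) (b j) = if i = j then 1 else 0)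
    (hc : ∀ k, b k = ∑ i, c k i • v i) (Gm : Matrix (Fin m) (Fin m) ℝ)
    (hGm : Gm = Matrix.of fun i j => B (v i) (v j)) :
    0 < Gm.det ∧ ∀ i j, Gm.det * ∑ k, c k i * c k j = Gm.adjugate i j := by
  set C : Matrix (Fin m) (Fin m) ℝ := Matrix.of c with hC
  have h1 : C * Gm * C.transpose = 1 := by
    ext k l
    rw [Matrix.one_apply, ← hb k l, hc k, hc l]
    have := bil_expand (LinearMap.mk₂ ℝ (fun x y => B x y)
      (by intro a b c; simp) (by intro r a c; simp)
      (by intro a b c; simp) (by intro r a c; simp)) (c k) (c l) v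
    simp only [LinearMap.mk₂_apply] at this
    rw [this, Matrix.mul_apply]
    simp only [Matrix.mul_apply, Matrix.transpose_apply, Finset.sum_mul]
    rw [Finset.sum_comm]
    refine Finset.sum_congr rfl fun i _ => Finset.sum_congr rfl fun j _ => ?_
    rw [hC, hGm, Matrix.of_apply, Matrix.of_apply, Matrix.of_apply]
    ring
  have h2 : C.transpose * C * Gm = 1 := by
    have h3 : C * (Gm * C.transpose) = 1 := by rw [← Matrix.mul_assoc]; exact h1
    have h4 : Gm * C.transpose * C = 1 := mul_eq_one_comm.1 h3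
    rw [Matrix.mul_assoc] at h4
    exact mul_eq_one_comm.1 h4
  have h3 : (C.det) ^ 2 * Gm.det = 1 := by
    have := congrArg Matrix.det h2
    rw [Matrix.det_mul, Matrix.det_mul, Matrix.det_transpose, Matrix.det_one] at this
    rw [pow_two]; exact this
  have h4 : 0 < Gm.det := by
    by_contra hn
    have : C.det ^ 2 * Gm.det ≤ 0 := mul_nonpos_of_nonneg_of_nonpos (sq_nonneg _) (not_lt.1 hn)
    linarith only [h3, this]
  refine ⟨h4, fun i j => ?_⟩
  have h5 : Gm.det • (C.transpose * C) = Gm.adjugate := by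
    have h6 : C.transpose * C * Gm * Gm.adjugate = Gm.adjugate := by rw [h2, Matrix.one_mul]
    rw [Matrix.mul_assoc, Matrix.mul_adjugate, Matrix.mul_smul, Matrix.mul_one] at h6
    exact h6
  rw [← h5, Matrix.smul_apply, Matrix.mul_apply, smul_eq_mul]
  rfl

theorem loc_pc {m : ℕ} (hm : Module.finrank ℝ E = m + 1) (hR : LocalRiem G U) (hz : z ∈ U)
    {K : ℝ} (hK : 0 ≤ K) (hric : ∀ v, -K * G z v v ≤ ric G z v)
    (hscal : ∀ b : Module.Basis (Fin (Module.finrank ℝ E)) ℝ E, ONB (G z) b →
      1 ≤ ∑ i, ∑ j, secG G z (b i) (b j))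
    (v : Fin m → E) (Gm : Matrix (Fin m) (Fin m) ℝ)
    (hGm : Gm = Matrix.of fun i j => G z (v i) (v j)) :
    Gm.det ^ 2 ≤ 2 * m * Gm.det *
        ∑ j, Gm.adjugate j j * (ric G z (v j) + K * G z (v j) (v j)) -
      ∑ i, ∑ l, ∑ j, ∑ k, Gm.adjugate i l * Gm.adjugate j k *
        Rm G z (v i) (v j) (v k) (v l) := by
  by_cases hD : Gm.det = 0
  · rw [hD]
    have h0 : ∑ i, ∑ l, ∑ j, ∑ k, Gm.adjugate i l * Gm.adjugate j k *
        Rm G z (v i) (v j) (v k) (v l) = 0 := by
      have h1 : ∀ l, ∑ i, Gm.adjugate i l • v i = 0 := by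
        intro l
        by_contra hne
        have h2 := hR.pos z hz _ hne
        have h3 := bil_expand (LinearMap.mk₂ ℝ (fun x y => G z x y)
          (by intro a b c; simp) (by intro r a c; simp)
          (by intro a b c; simp) (by intro r a c; simp)) (fun i => Gm.adjugate i l)
          (fun i => Gm.adjugate i l) v
        simp only [LinearMap.mk₂_apply] at h3
        have h4 : ∑ i, ∑ j, Gm.adjugate i l * Gm.adjugate j l * G z (v i) (v j) =
            ∑ i, Gm.adjugate i l * (Gm * Gm.adjugate) i l := by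
          refine Finset.sum_congr rfl fun i _ => ?_
          rw [Matrix.mul_apply, Finset.mul_sum]
          refine Finset.sum_congr rfl fun j _ => ?_
          have : Gm i j = G z (v i) (v j) := by rw [hGm]; rfl
          rw [this]; ring
        rw [Matrix.mul_adjugate, hD, zero_smul] at h4
        simp only [Matrix.zero_apply, mul_zero, Finset.sum_const_zero] at h4
        rw [h3, h4] at h2
        exact lt_irrefl _ h2
      rw [Finset.sum_comm]
      refine Finset.sum_eq_zero fun l _ => ?_
      rw [Finset.sum_comm]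
      refine Finset.sum_eq_zero fun j _ => ?_
      rw [Finset.sum_comm]
      refine Finset.sum_eq_zero fun k _ => ?_
      have h5 : ∑ i, Gm.adjugate i l * Gm.adjugate j k * Rm G z (v i) (v j) (v k) (v l)
          = Gm.adjugate j k * (RmO G z (v j) (v k)).flip (v l) (∑ i, Gm.adjugate i l • v i) := by
        rw [map_sum, Finset.mul_sum]
        refine Finset.sum_congr rfl fun i _ => ?_
        rw [map_smul, LinearMap.flip_apply, RmO_apply, smul_eq_mul]
        ring
      rw [h5, h1 l, map_zero, mul_zero]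
    rw [h0]
    simp
  · have hD' : (Matrix.of fun i j => G z (v i) (v j)).det ≠ 0 := by rwa [← hGm]
    obtain ⟨b, c, hb, hc⟩ := exists_adapted hm (G z) (hR.symm z hz) (hR.pos z hz) v hD'
    obtain ⟨hpos, hadj⟩ := coeff_gram (G z) v (fun k => b k.castSucc) c
      (fun i j => by rw [hb]; simp) hc Gm hGm
    set b' : Module.Basis (Fin (Module.finrank ℝ E)) ℝ E := b.reindex (finCongr hm.symm) with hb'
    have hsum : ∀ F : E → ℝ, ∑ i, F (b' i) = ∑ i, F (b i) := by
      intro F
      rw [← Equiv.sum_comp (finCongr hm.symm) (fun i => F (b' i))]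
      refine Finset.sum_congr rfl fun i _ => ?_
      rw [hb', Module.Basis.reindex_apply, Equiv.symm_apply_apply]
    have hONB : ONB (G z) b' := by
      intro i j
      rw [hb', Module.Basis.reindex_apply, Module.Basis.reindex_apply, hb]
      simp
    have hricb : ∀ x, ric G z x = ∑ i, Rm G z (b i) x x (b i) := by
      intro x
      rw [← ric_eq hONB x, hsum fun y => secG G z y x]
      exact Finset.sum_congr rfl fun i _ => (Rm_sec hR hz _ _).symm
    have hscal' : 1 ≤ ∑ i, ∑ j, secG G z (b i) (b j) := by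
      have := hscal b' hONB
      rw [hsum fun y => ∑ j, secG G z y (b' j)] at this
      simpa only [hsum] using this
    -- the quadratic form Ric + K
    let Q : E →ₗ[ℝ] E →ₗ[ℝ] ℝ :=
      (∑ i, RmI G z (b i) (b i)) + K • LinearMap.mk₂ ℝ (fun x y => G z x y)
        (by intro a b c; simp) (by intro r a c; simp)
        (by intro a b c; simp) (by intro r a c; simp)
    have hQ : ∀ x, Q x x = ric G z x + K * G z x x := by
      intro x
      rw [hricb x]
      simp [Q, LinearMap.sum_apply, RmI_apply]
    have hQ0 : ∀ x, 0 ≤ Q x x := by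
      intro x
      rw [hQ]
      linarith only [hric x]
    have h1 : ∑ k : Fin m, Q (b k.castSucc) (b k.castSucc) ≤
        m * ∑ j, (∑ k, c k j * c k j) * Q (v j) (v j) := by
      have h2 : ∀ k : Fin m, Q (b k.castSucc) (b k.castSucc) ≤
          m * ∑ j, c k j * c k j * Q (v j) (v j) := by
        intro k
        rw [hc k]
        refine (quad_sum Q hQ0 _).trans_eq ?_
        congr 1
        refine Finset.sum_congr rfl fun j _ => ?_
        rw [map_smul, map_smul, LinearMap.smul_apply, smul_eq_mul, smul_eq_mul]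
        ring
      refine (Finset.sum_le_sum fun k _ => h2 k).trans_eq ?_
      rw [← Finset.mul_sum, Finset.sum_comm]
      congr 1
      refine Finset.sum_congr rfl fun j _ => ?_
      rw [Finset.sum_mul]
    have h2 : Gm.det ^ 2 * ∑ k : Fin m, Q (b k.castSucc) (b k.castSucc) ≤
        m * Gm.det * ∑ j, Gm.adjugate j j * (ric G z (v j) + K * G z (v j) (v j)) := by
      refine (mul_le_mul_of_nonneg_left h1 (sq_nonneg _)).trans_eq ?_
      simp only [← hadj, ← hQ, Finset.mul_sum]
      refine Finset.sum_congr rfl fun j _ => ?_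
      simp only [Finset.sum_mul, Finset.mul_sum]
      refine Finset.sum_congr rfl fun k _ => ?_
      ring
    have h3 : Gm.det ^ 2 * ∑ i : Fin m, ∑ j : Fin m, secG G z (b i.castSucc) (b j.castSucc) =
        ∑ i, ∑ l, ∑ j, ∑ k, Gm.adjugate i l * Gm.adjugate j k *
          Rm G z (v i) (v j) (v k) (v l) := by
      have h4 : ∀ i : Fin m, ∑ j : Fin m, secG G z (b i.castSucc) (b j.castSucc) =
          ∑ j, ∑ k, (∑ q, c q j * c q k) * Rm G z (b i.castSucc) (v j) (v k) (b i.castSucc) := by
        intro i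
        simp only [← Rm_sec hR hz, ← RmI_apply]
        rw [← bil_trace]
        exact Finset.sum_congr rfl fun j _ => by rw [← hc j]
      have h5 : ∀ j k : Fin m, ∑ i : Fin m, Rm G z (b i.castSucc) (v j) (v k) (b i.castSucc) =
          ∑ i, ∑ l, (∑ q, c q i * c q l) * Rm G z (v i) (v j) (v k) (v l) := by
        intro j k
        simp only [← RmO_apply]
        rw [← bil_trace]
        exact Finset.sum_congr rfl fun i _ => by rw [← hc i]
      rw [Finset.sum_congr rfl fun i _ => h4 i, Finset.sum_comm]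
      have h6 : ∀ j : Fin m, ∑ i : Fin m, ∑ k, (∑ q, c q j * c q k) *
          Rm G z (b i.castSucc) (v j) (v k) (b i.castSucc) =
          ∑ k, (∑ q, c q j * c q k) * ∑ i, ∑ l, (∑ q, c q i * c q l) *
            Rm G z (v i) (v j) (v k) (v l) := by
        intro j
        rw [Finset.sum_comm]
        refine Finset.sum_congr rfl fun k _ => ?_
        rw [← Finset.mul_sum, h5]
      rw [Finset.sum_congr rfl fun j _ => h6 j]
      simp only [Finset.mul_sum]
      have h7 : ∀ F : Fin m → Fin m → Fin m → Fin m → ℝ,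
          ∑ j, ∑ k, ∑ i, ∑ l, F j k i l = ∑ i, ∑ l, ∑ j, ∑ k, F j k i l := by
        intro F
        calc ∑ j, ∑ k, ∑ i, ∑ l, F j k i l = ∑ j, ∑ i, ∑ k, ∑ l, F j k i l :=
              Finset.sum_congr rfl fun j _ => Finset.sum_comm
          _ = ∑ i, ∑ j, ∑ k, ∑ l, F j k i l := Finset.sum_comm
          _ = ∑ i, ∑ j, ∑ l, ∑ k, F j k i l :=
              Finset.sum_congr rfl fun i _ => Finset.sum_congr rfl fun j _ => Finset.sum_comm
          _ = ∑ i, ∑ l, ∑ j, ∑ k, F j k i l :=
              Finset.sum_congr rfl fun i _ => Finset.sum_comm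
      rw [h7]
      refine Finset.sum_congr rfl fun i _ => Finset.sum_congr rfl fun l _ =>
        Finset.sum_congr rfl fun j _ => Finset.sum_congr rfl fun k _ => ?_
      rw [← hadj i l, ← hadj j k]
      ring
    have h8 : ∑ i, ∑ j, secG G z (b i) (b j) =
        2 * ∑ i : Fin m, ric G z (b i.castSucc) -
          ∑ i : Fin m, ∑ j : Fin m, secG G z (b i.castSucc) (b j.castSucc) := by
      have h9 : ∀ i : Fin m, ric G z (b i.castSucc) =
          ∑ j : Fin m, secG G z (b i.castSucc) (b j.castSucc) +
            secG G z (b i.castSucc) (b (Fin.last m)) := by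
        intro i
        rw [hricb, Fin.sum_univ_castSucc]
        simp only [Rm_sec hR hz]
        rw [H329.secG_symm hR hz (b (Fin.last m))]
        congr 1
        exact Finset.sum_congr rfl fun j _ => H329.secG_symm hR hz _ _
      rw [Fin.sum_univ_castSucc]
      simp only [Fin.sum_univ_castSucc (fun j => secG G z _ (b j)), H329.secG_self, add_zero]
      rw [Finset.sum_congr rfl fun i _ => h9 i, Finset.sum_add_distrib,
        Finset.sum_congr rfl fun (i : Fin m) _ =>
          H329.secG_symm hR hz (b (Fin.last m)) (b i.castSucc)]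
      ring
    have h9 : ∑ i : Fin m, ric G z (b i.castSucc) ≤
        ∑ k : Fin m, Q (b k.castSucc) (b k.castSucc) := by
      refine Finset.sum_le_sum fun i _ => ?_
      rw [hQ, hb]
      simp only [if_true]
      linarith only [hK]
    have h10 : Gm.det ^ 2 * 1 ≤ Gm.det ^ 2 * (2 * ∑ k : Fin m, Q (b k.castSucc) (b k.castSucc) -
          ∑ i : Fin m, ∑ j : Fin m, secG G z (b i.castSucc) (b j.castSucc)) := by
      refine mul_le_mul_of_nonneg_left ?_ (sq_nonneg _)
      linarith only [hscal', h8, h9]
    rw [mul_sub, h3] at h10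
    have h11 : Gm.det ^ 2 * (2 * ∑ k : Fin m, Q (b k.castSucc) (b k.castSucc)) =
      2 * (Gm.det ^ 2 * ∑ k : Fin m, Q (b k.castSucc) (b k.castSucc)) := by ring
    rw [h11] at h10
    linarith only [h10, h2]

end Vale.Agent.P210.R2.H973
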