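import Vale.Agent.P210.R2.H973.Loc4
import Vale.Agent.P210.R2.H755.BochM

/-!
# The scalar curvature through `n - 1` gradients, on the manifold
-/

open scoped Manifold ContDiff Topology Bundle
open Set Metric Filter Bundle IsManifold MeasureTheory Manifold

set_option maxSynthPendingDepth 3
set_option linter.unusedSectionVars false

noncomputable section

namespace Vale.Agent.P210.R2.H973

open Vale.Agent.P210.R2.H53
open Vale.Agent.P210.R2.H755 (contMDiff_Gam contMDiff_Lap Gam_chart Lap_chart HS_chart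
  contDiffOn_chart comp_chart_eq mem_chartAt_atlas bochner_ric)

variable {E : Type} [NormedAddCommGroup E] [NormedSpace ℝ E] [FiniteDimensional ℝ E]
  {M : Type} [MetricSpace M] [ChartedSpace E M]
  [RiemannianBundle (fun x : M => TangentSpace 𝓘(ℝ, E) x)]
  [IsManifold 𝓘(ℝ, E) ∞ M]
  [IsContMDiffRiemannianBundle 𝓘(ℝ, E) ∞ E (fun x : M => TangentSpace 𝓘(ℝ, E) x)]

/-- `Gam w g` as a derivative of `g` -/
theorem Gam_at (w g : M → ℝ) (p : M) : Gam E w g p =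
    fderiv ℝ (g ∘ (chartAt E p).symm) (chartAt E p p)
      (gradG (chartG (chartAt E p)) (w ∘ (chartAt E p).symm) (chartAt E p p)) :=
  gam_eq' (localRiem_chartG (mem_chartAt_atlas p)) (mem_chart_target E p) _ _

variable (E) in
/-- `Hess f (∇ g, ∇ h)` -/
def HH (f g h : M → ℝ) (p : M) : ℝ :=
  (Gam E g (Gam E f h) p + Gam E h (Gam E f g) p - Gam E f (Gam E g h) p) / 2

theorem contMDiff_HH {f g h : M → ℝ} (hf : ContMDiff 𝓘(ℝ, E) 𝓘(ℝ, ℝ) ∞ f)
    (hg : ContMDiff 𝓘(ℝ, E) 𝓘(ℝ, ℝ) ∞ g) (hh : ContMDiff 𝓘(ℝ, E) 𝓘(ℝ, ℝ) ∞ h) :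
    ContMDiff 𝓘(ℝ, E) 𝓘(ℝ, ℝ) ∞ (HH E f g h) := by
  have h1 := contMDiff_Gam hg (contMDiff_Gam hf hh)
  have h2 := contMDiff_Gam hh (contMDiff_Gam hf hg)
  have h3 := contMDiff_Gam hf (contMDiff_Gam hg hh)
  have h4 := (contMDiff_const (I := 𝓘(ℝ, E)) (I' := 𝓘(ℝ, ℝ)) (n := ∞) (M := M)
    (c := (1 / 2 : ℝ))).smul ((h1.add h2).sub h3)
  refine h4.congr fun p => ?_
  simp only [HH, Pi.smul_apply', Pi.add_apply, smul_eq_mul]
  ring

theorem Gam_Gam_chart {f g h : M → ℝ} (hf : ContMDiff 𝓘(ℝ, E) 𝓘(ℝ, ℝ) ∞ f)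
    (hg : ContMDiff 𝓘(ℝ, E) 𝓘(ℝ, ℝ) ∞ g) (hh : ContMDiff 𝓘(ℝ, E) 𝓘(ℝ, ℝ) ∞ h)
    {e : OpenPartialHomeomorph M E} (he : e ∈ maximalAtlas 𝓘(ℝ, E) ∞ M) {p : M}
    (hp : p ∈ e.source) :
    Gam E g (Gam E f h) p = gamG (chartG e) (g ∘ e.symm)
      (gamG (chartG e) (f ∘ e.symm) (h ∘ e.symm)) (e p) := by
  have hz : e p ∈ e.target := e.map_source hp
  have h1 : (Gam E f h) ∘ e.symm =ᶠ[𝓝 (e p)] gamG (chartG e) (f ∘ e.symm) (h ∘ e.symm) :=
    comp_chart_eq (fun q hq => Gam_chart hf hh he hq) hz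
  rw [Gam_chart hg (contMDiff_Gam hf hh) he hp]
  exact H755.gamG_congr (EventuallyEq.refl _ _) h1

theorem HH_chart {f g h : M → ℝ} (hf : ContMDiff 𝓘(ℝ, E) 𝓘(ℝ, ℝ) ∞ f)
    (hg : ContMDiff 𝓘(ℝ, E) 𝓘(ℝ, ℝ) ∞ g) (hh : ContMDiff 𝓘(ℝ, E) 𝓘(ℝ, ℝ) ∞ h)
    {e : OpenPartialHomeomorph M E} (he : e ∈ maximalAtlas 𝓘(ℝ, E) ∞ M) {p : M}
    (hp : p ∈ e.source) :
    HH E f g h p = HF (chartG e) (f ∘ e.symm) (g ∘ e.symm) (h ∘ e.symm) (e p) := by
  have hz : e p ∈ e.target := e.map_source hp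
  rw [HF_eq (localRiem_chartG he) hz (contDiffOn_chart he hf) (contDiffOn_chart he hg)
    (contDiffOn_chart he hh), HH, Gam_Gam_chart hf hg hh he hp, Gam_Gam_chart hf hh hg he hp,
    Gam_Gam_chart hg hf hh he hp]

theorem Gam_HH {f g h w : M → ℝ} (hf : ContMDiff 𝓘(ℝ, E) 𝓘(ℝ, ℝ) ∞ f)
    (hg : ContMDiff 𝓘(ℝ, E) 𝓘(ℝ, ℝ) ∞ g) (hh : ContMDiff 𝓘(ℝ, E) 𝓘(ℝ, ℝ) ∞ h) (p : M) :
    Gam E w (HH E f g h) p =
      fderiv ℝ (HF (chartG (chartAt E p)) (f ∘ (chartAt E p).symm) (g ∘ (chartAt E p).symm)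
        (h ∘ (chartAt E p).symm)) (chartAt E p p)
        (gradG (chartG (chartAt E p)) (w ∘ (chartAt E p).symm) (chartAt E p p)) := by
  have h1 : (HH E f g h) ∘ (chartAt E p).symm =ᶠ[𝓝 (chartAt E p p)]
      HF (chartG (chartAt E p)) (f ∘ (chartAt E p).symm) (g ∘ (chartAt E p).symm)
        (h ∘ (chartAt E p).symm) :=
    comp_chart_eq (fun q hq => HH_chart hf hg hh (mem_chartAt_atlas p) hq)
      (mem_chart_target E p)
  rw [Gam_at, h1.fderiv_eq]

section bounds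

/-- elementary -/
theorem abs_le_of_sq {a b : ℝ} (h : a ^ 2 ≤ b ^ 2) (hb : 0 ≤ b) : |a| ≤ b :=
  abs_le_of_sq_le_sq h hb

variable {G : E → E →L[ℝ] E →L[ℝ] ℝ} {U : Set E} {z : E}

theorem G_nonneg (hR : LocalRiem G U) (hz : z ∈ U) (x : E) : 0 ≤ G z x x := by
  by_cases hx : x = 0
  · rw [hx]; simp
  · exact (hR.pos z hz x hx).le

theorem hess_abs (hR : LocalRiem G U) (hz : z ∈ U) {f : E → ℝ} (hf : ContDiffOn ℝ ∞ f U)
    {s a b : ℝ} {x y : E} (hs : hsG G 0 f z ≤ s ^ 2) (hx : G z x x ≤ a ^ 2)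
    (hy : G z y y ≤ b ^ 2) (hs0 : 0 ≤ s) (ha : 0 ≤ a) (hb : 0 ≤ b) :
    |hessG G f z x y| ≤ s * a * b := by
  refine abs_le_of_sq ((hess_bound hR hz hf x y).trans ?_) (by positivity)
  have h1 := hs_nonneg hR hz hf
  have h2 := G_nonneg hR hz x
  have h3 := G_nonneg hR hz y
  calc hsG G 0 f z * G z x x * G z y y ≤ s ^ 2 * a ^ 2 * b ^ 2 := by gcongr
    _ = (s * a * b) ^ 2 := by ring

theorem op_sq (hR : LocalRiem G U) (hz : z ∈ U) {f : E → ℝ} (hf : ContDiffOn ℝ ∞ f U)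
    {s a : ℝ} {x : E} (hs : hsG G 0 f z ≤ s ^ 2) (hx : G z x x ≤ a ^ 2) :
    G z (opG G f z x) (opG G f z x) ≤ (s * a) ^ 2 := by
  refine (op_bound hR hz hf x).trans ?_
  have h1 := hs_nonneg hR hz hf
  have h2 := G_nonneg hR hz x
  calc hsG G 0 f z * G z x x ≤ s ^ 2 * a ^ 2 := by gcongr
    _ = (s * a) ^ 2 := by ring

end bounds

section pc

variable {m : ℕ}

variable (E) in
/-- Gram matrix of the gradients -/
def Gr (u : Fin m → M → ℝ) (p : M) : Fin m → Fin m → ℝ := fun i j => Gam E (u i) (u j) p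

variable (E) in
/-- sum of the squares of the Hessians -/
def SS (u : Fin m → M → ℝ) (p : M) : ℝ := ∑ i, HS E 0 (u i) p

/-- the coefficient functions -/
def cP (j : Fin m) (X : Fin m → Fin m → ℝ) : ℝ :=
  2 * m * (Matrix.of X).det * (Matrix.of X).adjugate j j

/-- the coefficient functions -/
def cR (i l j k : Fin m) (X : Fin m → Fin m → ℝ) : ℝ :=
  (Matrix.of X).adjugate i l * (Matrix.of X).adjugate j k

theorem HS_nonneg {f : M → ℝ} (hf : ContMDiff 𝓘(ℝ, E) 𝓘(ℝ, ℝ) ∞ f) (p : M) :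
    0 ≤ HS E 0 f p :=
  hs_nonneg (localRiem_chartG (mem_chartAt_atlas p)) (mem_chart_target E p)
    (contDiffOn_chart (mem_chartAt_atlas p) hf)

theorem SS_nonneg {u : Fin m → M → ℝ} (hu : ∀ i, ContMDiff 𝓘(ℝ, E) 𝓘(ℝ, ℝ) ∞ (u i)) (p : M) :
    0 ≤ SS E u p := Finset.sum_nonneg fun i _ => HS_nonneg (hu i) p

theorem HS_le_SS {u : Fin m → M → ℝ} (hu : ∀ i, ContMDiff 𝓘(ℝ, E) 𝓘(ℝ, ℝ) ∞ (u i)) (p : M)
    (i : Fin m) : HS E 0 (u i) p ≤ (√(SS E u p)) ^ 2 := by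
  rw [Real.sq_sqrt (SS_nonneg hu p)]
  exact Finset.single_le_sum (f := fun i => HS E 0 (u i) p) (fun i _ => HS_nonneg (hu i) p)
    (Finset.mem_univ i)

theorem pc (hm : Module.finrank ℝ E = m + 1) {K : ℝ} (hK : 0 ≤ K) (hric : RicGE E M (-K))
    (hscal : ScalGE E M 1) {u : Fin m → M → ℝ} (hu : ∀ i, ContMDiff 𝓘(ℝ, E) 𝓘(ℝ, ℝ) ∞ (u i))
    {C : ℝ} (hP : ∀ j X, (∀ i j, |X i j| ≤ 4) → |cP (m := m) j X| ≤ C)
    (hRC : ∀ i l j k X, (∀ i j, |X i j| ≤ 4) → |cR (m := m) i l j k X| ≤ C)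
    {p : M} (h4 : ∀ i j, |Gr E u p i j| ≤ 4) :
    (Matrix.of (Gr E u p)).det ^ 2 ≤
      ∑ j, cP j (Gr E u p) * ((1 / 2) * Lap E (Gam E (u j) (u j)) p -
        Gam E (u j) (Lap E (u j)) p) +
      ∑ i, ∑ l, ∑ j, ∑ k, cR i l j k (Gr E u p) *
        (Gam E (u i) (HH E (u l) (u j) (u k)) p - Gam E (u j) (HH E (u l) (u i) (u k)) p) +
      (C + 16 * m ^ 4 * C) * SS E u p + 4 * m * C * K := by
  set e := chartAt E p with hedef
  have he : e ∈ maximalAtlas 𝓘(ℝ, E) ∞ M := mem_chartAt_atlas p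
  have hp : p ∈ e.source := mem_chart_source E p
  have hz : e p ∈ e.target := mem_chart_target E p
  have hR := localRiem_chartG he
  set φ : Fin m → E → ℝ := fun i => u i ∘ e.symm with hφ
  have hφs : ∀ i, ContDiffOn ℝ ∞ (φ i) e.target := fun i => contDiffOn_chart he (hu i)
  have h1 : ∀ v, -K * chartG e (e p) v v ≤ ric (chartG e) (e p) v := by
    intro v
    obtain ⟨Γ, hΓ, hsec⟩ := hric e he (e p) hz
    obtain ⟨b, hb⟩ := exists_onb (chartG e (e p)) (hR.symm _ hz) (hR.pos _ hz)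
    have h3 := hsec b hb v
    rw [← ric_eq hb]
    refine h3.trans_eq ?_
    exact Finset.sum_congr rfl fun i _ => sectNum_eq he hz hΓ _ _
  have h2 : ∀ b : Module.Basis (Fin (Module.finrank ℝ E)) ℝ E, ONB (chartG e (e p)) b →
      1 ≤ ∑ i, ∑ j, secG (chartG e) (e p) (b i) (b j) := by
    intro b hb
    obtain ⟨Γ, hΓ, h⟩ := hscal e he (e p) hz
    have := h b hb
    simp only [sectNum_eq he hz hΓ] at this
    exact this
  set s := √(SS E u p) with hs
  have hs0 : 0 ≤ s := Real.sqrt_nonneg _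
  have hs2 : s ^ 2 = SS E u p := Real.sq_sqrt (SS_nonneg hu p)
  have hsi : ∀ i, hsG (chartG e) 0 (φ i) (e p) ≤ s ^ 2 := fun i => HS_le_SS hu p i
  have hG : ∀ i j, chartG e (e p) (gradG (chartG e) (φ i) (e p))
      (gradG (chartG e) (φ j) (e p)) = Gr E u p i j := by
    intro i j
    rw [← gam_eq hR hz]; rfl
  have hG4 : ∀ i, chartG e (e p) (gradG (chartG e) (φ i) (e p))
      (gradG (chartG e) (φ i) (e p)) ≤ 2 ^ 2 := by
    intro i
    rw [hG]
    have := (abs_le.1 (h4 i i)).2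
    linarith only [this]
  have hC0 : 0 ≤ C ∨ m = 0 := by
    rcases Nat.eq_zero_or_pos m with h | h
    · exact Or.inr h
    · exact Or.inl ((abs_nonneg _).trans (hP ⟨0, h⟩ _ h4))
  have h3 := loc_pc hm hR hz hK h1 h2 (fun i => gradG (chartG e) (φ i) (e p))
    (Matrix.of (Gr E u p)) (by
      ext i j
      exact (hG i j).symm)
  refine h3.trans ?_
  -- Ricci terms
  have h5 : 2 * m * (Matrix.of (Gr E u p)).det * ∑ j, (Matrix.of (Gr E u p)).adjugate j j *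
      (ric (chartG e) (e p) (gradG (chartG e) (φ j) (e p)) + K * chartG e (e p)
        (gradG (chartG e) (φ j) (e p)) (gradG (chartG e) (φ j) (e p))) ≤
      ∑ j, cP j (Gr E u p) * ((1 / 2) * Lap E (Gam E (u j) (u j)) p -
        Gam E (u j) (Lap E (u j)) p) + (C * SS E u p + 4 * m * C * K) := by
    have h6 : ∀ j, 2 * m * (Matrix.of (Gr E u p)).det * ((Matrix.of (Gr E u p)).adjugate j j *
      (ric (chartG e) (e p) (gradG (chartG e) (φ j) (e p)) + K * chartG e (e p)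
        (gradG (chartG e) (φ j) (e p)) (gradG (chartG e) (φ j) (e p)))) ≤
        cP j (Gr E u p) * ((1 / 2) * Lap E (Gam E (u j) (u j)) p -
        Gam E (u j) (Lap E (u j)) p) + (C * HS E 0 (u j) p + 4 * C * K) := by
      intro j
      rw [bochner_ric (hu j) he hp, hG]
      have h7 := abs_le.1 (hP j _ h4)
      have h8 := HS_nonneg (hu j) p
      have h9 : |cP j (Gr E u p) * Gr E u p j j| ≤ C * 4 := by
        rw [abs_mul]
        exact mul_le_mul (hP j _ h4) (h4 j j) (abs_nonneg _)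
          ((abs_nonneg _).trans (hP j _ h4))
      have h10 := abs_le.1 h9
      have h11 : 0 ≤ (C + cP j (Gr E u p)) * HS E 0 (u j) p :=
        mul_nonneg (by linarith only [h7.1]) h8
      have h12 : 0 ≤ K * (C * 4 - cP j (Gr E u p) * Gr E u p j j) :=
        mul_nonneg hK (by linarith only [h10.2])
      have h13 : 2 * m * (Matrix.of (Gr E u p)).det * ((Matrix.of (Gr E u p)).adjugate j j *
          (1 / 2 * Lap E (Gam E (u j) (u j)) p - Gam E (u j) (Lap E (u j)) p - HS E 0 (u j) p +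
            K * Gr E u p j j)) = cP j (Gr E u p) *
          (1 / 2 * Lap E (Gam E (u j) (u j)) p - Gam E (u j) (Lap E (u j)) p - HS E 0 (u j) p +
            K * Gr E u p j j) := by
        rw [cP]; ring
      rw [h13]
      linarith only [h11, h12]
    rw [Finset.mul_sum]
    refine (Finset.sum_le_sum fun j _ => h6 j).trans_eq ?_
    rw [Finset.sum_add_distrib, Finset.sum_add_distrib, ← Finset.mul_sum, SS]
    simp only [Finset.sum_const, Finset.card_univ, Fintype.card_fin, nsmul_eq_mul]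
    ring
  -- curvature terms
  have h6 : ∀ i l j k, -((Matrix.of (Gr E u p)).adjugate i l *
      (Matrix.of (Gr E u p)).adjugate j k * Rm (chartG e) (e p)
        (gradG (chartG e) (φ i) (e p)) (gradG (chartG e) (φ j) (e p))
        (gradG (chartG e) (φ k) (e p)) (gradG (chartG e) (φ l) (e p))) ≤
      cR i l j k (Gr E u p) *
        (Gam E (u i) (HH E (u l) (u j) (u k)) p - Gam E (u j) (HH E (u l) (u i) (u k)) p) +
      16 * C * SS E u p := by
    intro i l j k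
    have h7 := comm_HF hR hz (hφs l) (hφs i) (hφs j) (hφs k)
    have h8 : Gam E (u i) (HH E (u l) (u j) (u k)) p =
        fderiv ℝ (HF (chartG e) (φ l) (φ j) (φ k)) (e p) (gradG (chartG e) (φ i) (e p)) :=
      Gam_HH (hu l) (hu j) (hu k) p
    have h9 : Gam E (u j) (HH E (u l) (u i) (u k)) p =
        fderiv ℝ (HF (chartG e) (φ l) (φ i) (φ k)) (e p) (gradG (chartG e) (φ j) (e p)) :=
      Gam_HH (hu l) (hu i) (hu k) p
    rw [← h8, ← h9] at h7
    have b1 := hess_abs hR hz (hφs l) (hsi l) (op_sq hR hz (hφs j) (hsi j) (hG4 i)) (hG4 k)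
      hs0 (by positivity) (by norm_num)
    have b2 := hess_abs hR hz (hφs l) (hsi l) (hG4 j) (op_sq hR hz (hφs k) (hsi k) (hG4 i))
      hs0 (by norm_num) (by positivity)
    have b3 := hess_abs hR hz (hφs l) (hsi l) (op_sq hR hz (hφs i) (hsi i) (hG4 j)) (hG4 k)
      hs0 (by positivity) (by norm_num)
    have b4 := hess_abs hR hz (hφs l) (hsi l) (hG4 i) (op_sq hR hz (hφs k) (hsi k) (hG4 j))
      hs0 (by norm_num) (by positivity)
    have b1' := abs_le.1 b1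
    have b2' := abs_le.1 b2
    have b3' := abs_le.1 b3
    have b4' := abs_le.1 b4
    set D := Gam E (u i) (HH E (u l) (u j) (u k)) p - Gam E (u j) (HH E (u l) (u i) (u k)) p
      with hDdef
    set R := Rm (chartG e) (e p)
        (gradG (chartG e) (φ i) (e p)) (gradG (chartG e) (φ j) (e p))
        (gradG (chartG e) (φ k) (e p)) (gradG (chartG e) (φ l) (e p)) with hRdef
    have h10 : |(-R) - D| ≤ 16 * SS E u p := by
      rw [← hs2, abs_le]
      constructor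
      · linarith only [h7, b1'.1, b2'.1, b3'.1, b4'.1, b1'.2, b2'.2, b3'.2, b4'.2]
      · linarith only [h7, b1'.1, b2'.1, b3'.1, b4'.1, b1'.2, b2'.2, b3'.2, b4'.2]
    have h11 : |cR i l j k (Gr E u p) * ((-R) - D)| ≤ C * (16 * SS E u p) := by
      rw [abs_mul]
      exact mul_le_mul (hRC i l j k _ h4) h10 (abs_nonneg _)
        ((abs_nonneg _).trans (hRC i l j k _ h4))
    have h12 := (abs_le.1 h11).2
    have h13 : -((Matrix.of (Gr E u p)).adjugate i l * (Matrix.of (Gr E u p)).adjugate j k * R)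
        = cR i l j k (Gr E u p) * (-R) := by rw [cR]; ring
    rw [h13]
    linarith only [h12]
  have h7 : -(∑ i, ∑ l, ∑ j, ∑ k, (Matrix.of (Gr E u p)).adjugate i l *
      (Matrix.of (Gr E u p)).adjugate j k * Rm (chartG e) (e p)
        (gradG (chartG e) (φ i) (e p)) (gradG (chartG e) (φ j) (e p))
        (gradG (chartG e) (φ k) (e p)) (gradG (chartG e) (φ l) (e p))) ≤
      ∑ i, ∑ l, ∑ j, ∑ k, cR i l j k (Gr E u p) *
        (Gam E (u i) (HH E (u l) (u j) (u k)) p - Gam E (u j) (HH E (u l) (u i) (u k)) p) +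
      16 * m ^ 4 * C * SS E u p := by
    simp only [← Finset.sum_neg_distrib]
    refine (Finset.sum_le_sum fun i _ => Finset.sum_le_sum fun l _ =>
      Finset.sum_le_sum fun j _ => Finset.sum_le_sum fun k _ => h6 i l j k).trans_eq ?_
    simp only [Finset.sum_add_distrib, Finset.sum_const, Finset.card_univ, Fintype.card_fin,
      nsmul_eq_mul]
    ring
  linarith only [h5, h7]

end pc

end Vale.Agent.P210.R2.H973
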