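import Vale.Agent.P210.R2.H973.Mf2

/-!
# The integrated scalar curvature inequality
-/

open scoped Manifold ContDiff Topology Bundle
open Set Metric Filter Bundle IsManifold MeasureTheory Manifold

set_option maxSynthPendingDepth 3
set_option linter.unusedSectionVars false

noncomputable section

namespace Vale.Agent.P210.R2.H973

open Vale.Agent.P210.R2.H53
open Vale.Agent.P210.R2.H755 (contMDiff_Gam contMDiff_Lap Gam_chart Lap_chart HS_chart
  contDiffOn_chart comp_chart_eq mem_chartAt_atlas bochner_ric)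

variable {E : Type} [NormedAddCommGroup E] [NormedSpace ℝ E] [FiniteDimensional ℝ E]
  {M : Type} [MetricSpace M] [ChartedSpace E M]
  [RiemannianBundle (fun x : M => TangentSpace 𝓘(ℝ, E) x)]
  [IsManifold 𝓘(ℝ, E) ∞ M]
  [IsContMDiffRiemannianBundle 𝓘(ℝ, E) ∞ E (fun x : M => TangentSpace 𝓘(ℝ, E) x)] {m : ℕ}

variable (E) in
/-- divergence of `Ψ g ∇a` -/
def EE (Ψ a g : M → ℝ) (p : M) : ℝ :=
  Gam E a (fun q => Ψ q * g q) p + Ψ p * g p * Lap E a p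

/-- product rule for `Gam` -/
theorem Gam_mul (a : M → ℝ) {f g : M → ℝ} {p : M}
    (hf : DifferentiableAt ℝ (f ∘ (chartAt E p).symm) (chartAt E p p))
    (hg : DifferentiableAt ℝ (g ∘ (chartAt E p).symm) (chartAt E p p)) :
    Gam E a (fun q => f q * g q) p = f p * Gam E a g p + g p * Gam E a f p := by
  have h1 : (fun q => f q * g q) ∘ (chartAt E p).symm =
      fun y => (f ∘ (chartAt E p).symm) y * (g ∘ (chartAt E p).symm) y := rfl
  have h2 : ∀ f : M → ℝ, (f ∘ (chartAt E p).symm) (chartAt E p p) = f p := by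
    intro f
    rw [Function.comp_apply, (chartAt E p).left_inv (mem_chart_source E p)]
  rw [Gam_at, Gam_at a g, Gam_at a f, h1]
  have h3 := (hf.hasFDerivAt.mul hg.hasFDerivAt).fderiv
  have h4 : fderiv ℝ (fun y => (f ∘ (chartAt E p).symm) y * (g ∘ (chartAt E p).symm) y)
      (chartAt E p p) = (f ∘ (chartAt E p).symm) (chartAt E p p) •
        fderiv ℝ (g ∘ (chartAt E p).symm) (chartAt E p p) +
        (g ∘ (chartAt E p).symm) (chartAt E p p) •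
          fderiv ℝ (f ∘ (chartAt E p).symm) (chartAt E p p) := h3
  rw [h4, h2, h2]
  rfl

theorem diff_chart {g : M → ℝ} (hg : ContMDiff 𝓘(ℝ, E) 𝓘(ℝ, ℝ) ∞ g) (p : M) :
    DifferentiableAt ℝ (g ∘ (chartAt E p).symm) (chartAt E p p) :=
  (fd_diff (localRiem_chartG (mem_chartAt_atlas (E := E) p))
    (contDiffOn_chart (mem_chartAt_atlas p) hg) (mem_chart_target E p)).differentiableAt

theorem diff_chart' {g : M → ℝ} {p : M}
    (hg : MDifferentiableAt 𝓘(ℝ, E) 𝓘(ℝ, ℝ) g p) :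
    DifferentiableAt ℝ (g ∘ (chartAt E p).symm) (chartAt E p p) := by
  have h1 : MDifferentiableAt 𝓘(ℝ, E) 𝓘(ℝ, E) (chartAt E p).symm (chartAt E p p) :=
    ((contMDiffOn_symm_of_mem_maximalAtlas (mem_chartAt_atlas (E := E) p)).contMDiffAt
      ((chartAt E p).open_target.mem_nhds (mem_chart_target E p))).mdifferentiableAt (by simp)
  have h2 : MDifferentiableAt 𝓘(ℝ, E) 𝓘(ℝ, ℝ) g ((chartAt E p).symm (chartAt E p p)) := by
    rwa [(chartAt E p).left_inv (mem_chart_source E p)]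
  exact (h2.comp _ h1).differentiableAt

theorem EE_eq {Ψ a g : M → ℝ} {p : M}
    (hΨ : DifferentiableAt ℝ (Ψ ∘ (chartAt E p).symm) (chartAt E p p))
    (hg : ContMDiff 𝓘(ℝ, E) 𝓘(ℝ, ℝ) ∞ g) :
    EE E Ψ a g p = Ψ p * Gam E a g p + g p * Gam E a Ψ p + Ψ p * g p * Lap E a p := by
  rw [EE, Gam_mul a hΨ (diff_chart hg p)]

theorem Gam_zero_of_min {Ψ : M → ℝ} (h0 : ∀ p, 0 ≤ Ψ p) {p : M} (hp : Ψ p = 0) (w : M → ℝ) :
    Gam E w Ψ p = 0 := by
  have h1 : IsLocalMin (Ψ ∘ (chartAt E p).symm) (chartAt E p p) := by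
    refine Filter.Eventually.of_forall fun y => ?_
    rw [Function.comp_apply, Function.comp_apply,
      (chartAt E p).left_inv (mem_chart_source E p), hp]
    exact h0 _
  rw [Gam_at, h1.fderiv_eq_zero]
  rfl

theorem smooth_comp_Gr {u : Fin m → M → ℝ} (hu : ∀ i, ContMDiff 𝓘(ℝ, E) 𝓘(ℝ, ℝ) ∞ (u i))
    {c : (Fin m → Fin m → ℝ) → ℝ} (hc : ContDiff ℝ ∞ c) :
    ContMDiff 𝓘(ℝ, E) 𝓘(ℝ, ℝ) ∞ (fun q => c (Gr E u q)) := by
  refine H755.contMDiff_of_charts fun e he => ⟨fun y => c (fun i j =>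
    ((Gam E (u i) (u j)) ∘ e.symm) y), ?_, fun p hp => ?_⟩
  · refine hc.comp_contDiffOn (contDiffOn_pi.2 fun i => contDiffOn_pi.2 fun j => ?_)
    exact contDiffOn_chart he (contMDiff_Gam (hu i) (hu j))
  · simp only [Function.comp_apply, e.left_inv hp]
    rfl

/-- the main kind of term -/
theorem term_le {u : Fin m → M → ℝ} (hu : ∀ i, ContMDiff 𝓘(ℝ, E) 𝓘(ℝ, ℝ) ∞ (u i))
    (hm : Module.finrank ℝ E = m + 1) {Ψ : M → ℝ} {p : M}
    (hΨ : DifferentiableAt ℝ (Ψ ∘ (chartAt E p).symm) (chartAt E p p)) (h0 : 0 ≤ Ψ p)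
    (h4 : ∀ i, Gam E (u i) (u i) p ≤ 4) {c : (Fin m → Fin m → ℝ) → ℝ} (hc : ContDiff ℝ ∞ c)
    {C : ℝ} (hC : ∀ X, (∀ i j, |X i j| ≤ 4) → |c X| ≤ C ∧ ‖fderiv ℝ c X‖ ≤ C)
    {F : M → ℝ} (hF : ContMDiff 𝓘(ℝ, E) 𝓘(ℝ, ℝ) ∞ F) {β : ℝ}
    (hβ : |F p| ≤ β * √(SS E u p)) (hβ0 : 0 ≤ β) (i : Fin m) :
    |Ψ p * (c (Gr E u p) * Gam E (u i) F p) - EE E Ψ (u i) (fun q => c (Gr E u q) * F q) p| ≤
      β * (8 * C + C * (m + 1)) * (Ψ p * SS E u p) +
        2 * β * C * (√(Gam E Ψ Ψ p) * √(SS E u p)) := by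
  have hX := fun i j => Gr_le h4 i j
  obtain ⟨hc1, hc2⟩ := hC _ hX
  have hC0 : 0 ≤ C := (abs_nonneg _).trans hc1
  set s := √(SS E u p) with hs
  have hs0 : 0 ≤ s := Real.sqrt_nonneg _
  have hs2 : SS E u p = s * s := (Real.mul_self_sqrt (SS_nonneg hu p)).symm
  set y := √(Gam E Ψ Ψ p) with hy
  have hy0 : 0 ≤ y := Real.sqrt_nonneg _
  have hr := smooth_comp_Gr hu hc
  have ha : √(Gam E (u i) (u i) p) ≤ 2 := by
    rw [Real.sqrt_le_left (by norm_num)]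
    linarith only [h4 i]
  have h1 : |Gam E (u i) (fun q => c (Gr E u q)) p| ≤ 8 * C * s := by
    refine (Gam_comp_Gr_le hu h4 hc hc2 (u i)).trans ?_
    calc C * (4 * √(SS E u p) * √(Gam E (u i) (u i) p)) ≤ C * (4 * s * 2) := by gcongr
      _ = 8 * C * s := by ring
  have h2 : |Gam E (u i) Ψ p| ≤ 2 * y := by
    refine (Gam_abs (u i) Ψ p).trans ?_
    gcongr
  have h3 := Lap_le hm hu p i
  have h5 : EE E Ψ (u i) (fun q => c (Gr E u q) * F q) p =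
      Ψ p * (c (Gr E u p) * Gam E (u i) F p + F p * Gam E (u i) (fun q => c (Gr E u q)) p) +
      c (Gr E u p) * F p * Gam E (u i) Ψ p + Ψ p * (c (Gr E u p) * F p) * Lap E (u i) p := by
    have hrF : ContMDiff 𝓘(ℝ, E) 𝓘(ℝ, ℝ) ∞ (fun q => c (Gr E u q) * F q) := hr.mul hF
    rw [EE_eq hΨ hrF, Gam_mul (u i) (diff_chart hr p) (diff_chart hF p)]
  have e1 : |Ψ p * (F p * Gam E (u i) (fun q => c (Gr E u q)) p)| ≤
      Ψ p * ((β * s) * (8 * C * s)) := by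
    rw [abs_mul, abs_of_nonneg h0, abs_mul]
    gcongr
  have e2 : |c (Gr E u p) * F p * Gam E (u i) Ψ p| ≤ C * (β * s) * (2 * y) := by
    rw [abs_mul, abs_mul]
    gcongr
  have e3 : |Ψ p * (c (Gr E u p) * F p) * Lap E (u i) p| ≤
      Ψ p * (C * (β * s)) * ((m + 1) * s) := by
    rw [abs_mul, abs_mul, abs_of_nonneg h0, abs_mul]
    gcongr
  rw [h5, hs2]
  have e4 : Ψ p * (c (Gr E u p) * Gam E (u i) F p) -
      (Ψ p * (c (Gr E u p) * Gam E (u i) F p + F p * Gam E (u i) (fun q => c (Gr E u q)) p) +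
      c (Gr E u p) * F p * Gam E (u i) Ψ p + Ψ p * (c (Gr E u p) * F p) * Lap E (u i) p) =
      -(Ψ p * (F p * Gam E (u i) (fun q => c (Gr E u q)) p)) +
      -(c (Gr E u p) * F p * Gam E (u i) Ψ p) +
      -(Ψ p * (c (Gr E u p) * F p) * Lap E (u i) p) := by ring
  rw [e4]
  refine (abs_add_three _ _ _).trans ?_
  rw [abs_neg, abs_neg, abs_neg]
  refine (add_le_add (add_le_add e1 e2) e3).trans_eq ?_
  ring

/-- the term with the Laplacian of `|∇u|²` -/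
theorem termL_le {u : Fin m → M → ℝ} (hu : ∀ i, ContMDiff 𝓘(ℝ, E) 𝓘(ℝ, ℝ) ∞ (u i))
    {Ψ : M → ℝ} {p : M}
    (hΨ : DifferentiableAt ℝ (Ψ ∘ (chartAt E p).symm) (chartAt E p p)) (h0 : 0 ≤ Ψ p)
    (h4 : ∀ i, Gam E (u i) (u i) p ≤ 4) {c : (Fin m → Fin m → ℝ) → ℝ} (hc : ContDiff ℝ ∞ c)
    {C : ℝ} (hC : ∀ X, (∀ i j, |X i j| ≤ 4) → |c X| ≤ C ∧ ‖fderiv ℝ c X‖ ≤ C) (j : Fin m) :
    |Ψ p * (c (Gr E u p) * Lap E (Gam E (u j) (u j)) p) -
        EE E Ψ (Gam E (u j) (u j)) (fun q => c (Gr E u q)) p| ≤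
      16 * C * (Ψ p * SS E u p) + 4 * C * (√(Gam E Ψ Ψ p) * √(SS E u p)) := by
  have hX := fun i j => Gr_le h4 i j
  obtain ⟨hc1, hc2⟩ := hC _ hX
  have hC0 : 0 ≤ C := (abs_nonneg _).trans hc1
  set s := √(SS E u p) with hs
  have hs0 : 0 ≤ s := Real.sqrt_nonneg _
  have hs2 : SS E u p = s * s := (Real.mul_self_sqrt (SS_nonneg hu p)).symm
  set y := √(Gam E Ψ Ψ p) with hy
  have hy0 : 0 ≤ y := Real.sqrt_nonneg _
  have hr := smooth_comp_Gr hu hc
  set a := Gam E (u j) (u j) with ha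
  set t := √(Gam E a a p) with ht
  have ht0 : 0 ≤ t := Real.sqrt_nonneg _
  have ht2 : Gam E a a p = t * t := (Real.mul_self_sqrt (Gam_nonneg a p)).symm
  have ht4 : t ≤ 4 * s := by
    have h1 := Gam_Gr hu h4 a j j
    rw [← ha, ← hs, ← ht, abs_of_nonneg (Gam_nonneg a p), ht2] at h1
    by_contra hn
    push Not at hn
    have h2 : 0 < t := lt_of_le_of_lt (by positivity) hn
    have h3 : 4 * s * t < t * t := mul_lt_mul_of_pos_right hn h2
    linarith only [h1, h3]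
  have h1 : |Gam E a (fun q => c (Gr E u q)) p| ≤ 16 * C * (s * s) := by
    refine (Gam_comp_Gr_le hu h4 hc hc2 a).trans ?_
    calc C * (4 * √(SS E u p) * √(Gam E a a p)) ≤ C * (4 * s * (4 * s)) := by gcongr
      _ = 16 * C * (s * s) := by ring
  have h2 : |Gam E a Ψ p| ≤ 4 * s * y := by
    refine (Gam_abs a Ψ p).trans ?_
    gcongr
  have h5 : EE E Ψ a (fun q => c (Gr E u q)) p =
      Ψ p * Gam E a (fun q => c (Gr E u q)) p + c (Gr E u p) * Gam E a Ψ p +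
        Ψ p * c (Gr E u p) * Lap E a p := EE_eq hΨ hr
  have e1 : |Ψ p * Gam E a (fun q => c (Gr E u q)) p| ≤ Ψ p * (16 * C * (s * s)) := by
    rw [abs_mul, abs_of_nonneg h0]
    gcongr
  have e2 : |c (Gr E u p) * Gam E a Ψ p| ≤ C * (4 * s * y) := by
    rw [abs_mul]
    gcongr
  have e4 : Ψ p * (c (Gr E u p) * Lap E a p) -
      (Ψ p * Gam E a (fun q => c (Gr E u q)) p + c (Gr E u p) * Gam E a Ψ p +
        Ψ p * c (Gr E u p) * Lap E a p) =
      -(Ψ p * Gam E a (fun q => c (Gr E u q)) p) + -(c (Gr E u p) * Gam E a Ψ p) := by ring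
  rw [h5, hs2, e4]
  refine (abs_add_le _ _).trans ?_
  rw [abs_neg, abs_neg]
  refine (add_le_add e1 e2).trans_eq ?_
  ring

variable (E) in
/-- total divergence -/
def Tot (Ψ : M → ℝ) (u : Fin m → M → ℝ) (p : M) : ℝ :=
  ∑ j, (1 / 2 * EE E Ψ (Gam E (u j) (u j)) (fun q => cP j (Gr E u q)) p -
    EE E Ψ (u j) (fun q => cP j (Gr E u q) * Lap E (u j) q) p) +
  ∑ i, ∑ l, ∑ j, ∑ k,
    (EE E Ψ (u i) (fun q => cR i l j k (Gr E u q) * HH E (u l) (u j) (u k) q) p -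
      EE E Ψ (u j) (fun q => cR i l j k (Gr E u q) * HH E (u l) (u i) (u k) q) p)

/-- constant -/
def c1 (m : ℕ) (C : ℝ) : ℝ :=
  m * (8 * C + (m + 1) * (8 * C + C * (m + 1))) +
    m * (m * (m * (m * (2 * (4 * (8 * C + C * (m + 1))))))) + (C + 16 * m ^ 4 * C)

/-- constant -/
def c2 (m : ℕ) (C : ℝ) : ℝ :=
  m * (2 * C + 2 * (m + 1) * C) + m * (m * (m * (m * (2 * (2 * 4 * C)))))

theorem ae_ineq (hm : Module.finrank ℝ E = m + 1) {K : ℝ} (hK : 0 ≤ K) (hric : RicGE E M (-K))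
    (hscal : ScalGE E M 1) {u : Fin m → M → ℝ} (hu : ∀ i, ContMDiff 𝓘(ℝ, E) 𝓘(ℝ, ℝ) ∞ (u i))
    {C : ℝ} (hP : ∀ j X, (∀ i j, |X i j| ≤ 4) → |cP (m := m) j X| ≤ C ∧
      ‖fderiv ℝ (cP (m := m) j) X‖ ≤ C)
    (hRC : ∀ i l j k X, (∀ i j, |X i j| ≤ 4) → |cR (m := m) i l j k X| ≤ C ∧
      ‖fderiv ℝ (cR (m := m) i l j k) X‖ ≤ C)
    {Ψ : M → ℝ} (h0 : ∀ p, 0 ≤ Ψ p) {p : M}
    (hΨ : DifferentiableAt ℝ (Ψ ∘ (chartAt E p).symm) (chartAt E p p))
    (h4 : Ψ p ≠ 0 → ∀ i, Gam E (u i) (u i) p ≤ 4) :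
    Ψ p * (Matrix.of (Gr E u p)).det ^ 2 ≤ Tot E Ψ u p + c1 m C * (Ψ p * SS E u p) +
      c2 m C * (√(Gam E Ψ Ψ p) * √(SS E u p)) + 4 * m * C * K * Ψ p := by
  have hrP := fun j => smooth_comp_Gr hu (contDiff_cP j)
  have hrR := fun i l j k => smooth_comp_Gr hu (contDiff_cR (m := m) i l j k)
  by_cases hz : Ψ p = 0
  · have h1 : ∀ (a : M → ℝ) {g : M → ℝ}, ContMDiff 𝓘(ℝ, E) 𝓘(ℝ, ℝ) ∞ g →
        EE E Ψ a g p = 0 := by
      intro a g hg
      rw [EE_eq hΨ hg, Gam_zero_of_min h0 hz, hz]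
      ring
    have h2 : Tot E Ψ u p = 0 := by
      rw [Tot]
      have h3 : ∀ j, EE E Ψ (Gam E (u j) (u j)) (fun q => cP j (Gr E u q)) p = 0 :=
        fun j => h1 _ (hrP j)
      have h4 : ∀ j, EE E Ψ (u j) (fun q => cP j (Gr E u q) * Lap E (u j) q) p = 0 :=
        fun j => h1 _ ((hrP j).mul (contMDiff_Lap (hu j)))
      have h5 : ∀ i l j k, EE E Ψ (u i) (fun q => cR i l j k (Gr E u q) *
          HH E (u l) (u j) (u k) q) p = 0 :=
        fun i l j k => h1 _ ((hrR i l j k).mul (contMDiff_HH (hu l) (hu j) (hu k)))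
      have h6 : ∀ i l j k, EE E Ψ (u j) (fun q => cR i l j k (Gr E u q) *
          HH E (u l) (u i) (u k) q) p = 0 :=
        fun i l j k => h1 _ ((hrR i l j k).mul (contMDiff_HH (hu l) (hu i) (hu k)))
      simp only [h3, h4, h5, h6, mul_zero, sub_zero, Finset.sum_const_zero, add_zero]
    rw [h2, Gam_zero_of_min h0 hz, hz]
    simp
  · replace h4 := h4 hz
    have hp0 := h0 p
    have hX := fun i j => Gr_le h4 i j
    have h1 := pc hm hK hric hscal hu (C := C) (fun j X hX => (hP j X hX).1)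
      (fun i l j k X hX => (hRC i l j k X hX).1) (fun i j => Gr_le h4 i j)
    have h2 := mul_le_mul_of_nonneg_left h1 hp0
    set s2 := Ψ p * SS E u p with hs2
    set ys := √(Gam E Ψ Ψ p) * √(SS E u p) with hys
    have hJ : ∀ j, Ψ p * (cP j (Gr E u p) * ((1 / 2) * Lap E (Gam E (u j) (u j)) p -
        Gam E (u j) (Lap E (u j)) p)) ≤
        (1 / 2 * EE E Ψ (Gam E (u j) (u j)) (fun q => cP j (Gr E u q)) p -
          EE E Ψ (u j) (fun q => cP j (Gr E u q) * Lap E (u j) q) p) +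
        ((8 * C + (m + 1) * (8 * C + C * (m + 1))) * s2 + (2 * C + 2 * (m + 1) * C) * ys) := by
      intro j
      have t1 := (abs_le.1 (termL_le hu hΨ hp0 h4 (contDiff_cP j) (hP j) j)).2
      have t2 := (abs_le.1 (term_le hu hm hΨ hp0 h4 (contDiff_cP j) (hP j)
        (contMDiff_Lap (hu j)) (Lap_le hm hu p j) (by positivity) j)).1
      rw [← hs2, ← hys] at t1 t2
      linarith only [t1, t2]
    have hI : ∀ i l j k, Ψ p * (cR i l j k (Gr E u p) *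
        (Gam E (u i) (HH E (u l) (u j) (u k)) p - Gam E (u j) (HH E (u l) (u i) (u k)) p)) ≤
        (EE E Ψ (u i) (fun q => cR i l j k (Gr E u q) * HH E (u l) (u j) (u k) q) p -
          EE E Ψ (u j) (fun q => cR i l j k (Gr E u q) * HH E (u l) (u i) (u k) q) p) +
        ((2 * (4 * (8 * C + C * (m + 1)))) * s2 + (2 * (2 * 4 * C)) * ys) := by
      intro i l j k
      have t1 := (abs_le.1 (term_le hu hm hΨ hp0 h4 (contDiff_cR i l j k) (hRC i l j k)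
        (contMDiff_HH (hu l) (hu j) (hu k)) (HH_le hu h4 l j k) (by norm_num) i)).2
      have t2 := (abs_le.1 (term_le hu hm hΨ hp0 h4 (contDiff_cR i l j k) (hRC i l j k)
        (contMDiff_HH (hu l) (hu i) (hu k)) (HH_le hu h4 l i k) (by norm_num) j)).1
      rw [← hs2, ← hys] at t1 t2
      linarith only [t1, t2]
    have hJ' := Finset.sum_le_sum fun j (_ : j ∈ Finset.univ) => hJ j
    have hI' := Finset.sum_le_sum fun i (_ : i ∈ Finset.univ) => Finset.sum_le_sum fun l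
      (_ : l ∈ Finset.univ) => Finset.sum_le_sum fun j (_ : j ∈ Finset.univ) =>
      Finset.sum_le_sum fun k (_ : k ∈ Finset.univ) => hI i l j k
    rw [Finset.sum_add_distrib] at hJ'
    simp only [Finset.sum_add_distrib, Finset.sum_const, Finset.card_univ, Fintype.card_fin,
      nsmul_eq_mul] at hI' hJ'
    simp only [mul_add, Finset.mul_sum] at h2
    have h3 : Tot E Ψ u p = ∑ j, (1 / 2 * EE E Ψ (Gam E (u j) (u j)) (fun q => cP j (Gr E u q)) p -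
      EE E Ψ (u j) (fun q => cP j (Gr E u q) * Lap E (u j) q) p) +
      ∑ i, ∑ l, ∑ j, ∑ k,
      (EE E Ψ (u i) (fun q => cR i l j k (Gr E u q) * HH E (u l) (u j) (u k) q) p -
      EE E Ψ (u j) (fun q => cR i l j k (Gr E u q) * HH E (u l) (u i) (u k) q) p) := rfl
    rw [h3, c1, c2]
    have e1 : Ψ p * ((C + 16 * (m : ℝ) ^ 4 * C) * SS E u p) = (C + 16 * (m : ℝ) ^ 4 * C) * s2 := by
      rw [hs2]; ring
    have e2 : Ψ p * (4 * (m : ℝ) * C * K) = 4 * m * C * K * Ψ p := by ring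
    rw [e1, e2] at h2
    linarith only [h2, hI', hJ']

end Vale.Agent.P210.R2.H973
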