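import Vale.Agent.P210.R2.H973.SMf
import Vale.Agent.P210.R2.H973.Scx

/-!
# The integrated scalar curvature inequality, with a function as lower bound
-/

open scoped Manifold ContDiff Topology Bundle
open Set Metric Filter Bundle IsManifold MeasureTheory Manifold

set_option maxSynthPendingDepth 3
set_option linter.unusedSectionVars false

noncomputable section

namespace Vale.Agent.P210.R2.H973

open Vale.Agent.P210.R2.H53
open Vale.Agent.P210.R2.H755 (contMDiff_Gam contMDiff_Lap Gam_chart Lap_chart HS_chart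
  contDiffOn_chart comp_chart_eq mem_chartAt_atlas bochner_ric)

variable {E : Type} [NormedAddCommGroup E] [NormedSpace ℝ E] [FiniteDimensional ℝ E]
  {M : Type} [MetricSpace M] [ChartedSpace E M]
  [RiemannianBundle (fun x : M => TangentSpace 𝓘(ℝ, E) x)]
  [IsManifold 𝓘(ℝ, E) ∞ M]
  [IsContMDiffRiemannianBundle 𝓘(ℝ, E) ∞ E (fun x : M => TangentSpace 𝓘(ℝ, E) x)] {m : ℕ}

theorem ae_ineqS (hm : Module.finrank ℝ E = m + 1) {K : ℝ} (hK : 0 ≤ K) (hric : RicGE E M (-K))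
    {S : M → ℝ} (hscal : ScalGEf E M S) {u : Fin m → M → ℝ} (hu : ∀ i, ContMDiff 𝓘(ℝ, E) 𝓘(ℝ, ℝ) ∞ (u i))
    {C : ℝ} (hP : ∀ j X, (∀ i j, |X i j| ≤ 4) → |cP (m := m) j X| ≤ C ∧
      ‖fderiv ℝ (cP (m := m) j) X‖ ≤ C)
    (hRC : ∀ i l j k X, (∀ i j, |X i j| ≤ 4) → |cR (m := m) i l j k X| ≤ C ∧
      ‖fderiv ℝ (cR (m := m) i l j k) X‖ ≤ C)
    {Ψ : M → ℝ} (h0 : ∀ p, 0 ≤ Ψ p) {p : M}
    (hΨ : DifferentiableAt ℝ (Ψ ∘ (chartAt E p).symm) (chartAt E p p))
    (h4 : Ψ p ≠ 0 → ∀ i, Gam E (u i) (u i) p ≤ 4) :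
    Ψ p * ((Matrix.of (Gr E u p)).det ^ 2 * S p) ≤ Tot E Ψ u p + c1 m C * (Ψ p * SS E u p) +
      c2 m C * (√(Gam E Ψ Ψ p) * √(SS E u p)) + 4 * m * C * K * Ψ p := by
  have hrP := fun j => smooth_comp_Gr hu (contDiff_cP j)
  have hrR := fun i l j k => smooth_comp_Gr hu (contDiff_cR (m := m) i l j k)
  by_cases hz : Ψ p = 0
  · have h1 : ∀ (a : M → ℝ) {g : M → ℝ}, ContMDiff 𝓘(ℝ, E) 𝓘(ℝ, ℝ) ∞ g →
        EE E Ψ a g p = 0 := by
      intro a g hg
      rw [EE_eq hΨ hg, Gam_zero_of_min h0 hz, hz]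
      ring
    have h2 : Tot E Ψ u p = 0 := by
      rw [Tot]
      have h3 : ∀ j, EE E Ψ (Gam E (u j) (u j)) (fun q => cP j (Gr E u q)) p = 0 :=
        fun j => h1 _ (hrP j)
      have h4 : ∀ j, EE E Ψ (u j) (fun q => cP j (Gr E u q) * Lap E (u j) q) p = 0 :=
        fun j => h1 _ ((hrP j).mul (contMDiff_Lap (hu j)))
      have h5 : ∀ i l j k, EE E Ψ (u i) (fun q => cR i l j k (Gr E u q) *
          HH E (u l) (u j) (u k) q) p = 0 :=
        fun i l j k => h1 _ ((hrR i l j k).mul (contMDiff_HH (hu l) (hu j) (hu k)))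
      have h6 : ∀ i l j k, EE E Ψ (u j) (fun q => cR i l j k (Gr E u q) *
          HH E (u l) (u i) (u k) q) p = 0 :=
        fun i l j k => h1 _ ((hrR i l j k).mul (contMDiff_HH (hu l) (hu i) (hu k)))
      simp only [h3, h4, h5, h6, mul_zero, sub_zero, Finset.sum_const_zero, add_zero]
    rw [h2, Gam_zero_of_min h0 hz, hz]
    simp
  · replace h4 := h4 hz
    have hp0 := h0 p
    have hX := fun i j => Gr_le h4 i j
    have h1 := pcS hm hK hric hscal hu (C := C) (fun j X hX => (hP j X hX).1)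
      (fun i l j k X hX => (hRC i l j k X hX).1) (fun i j => Gr_le h4 i j)
    have h2 := mul_le_mul_of_nonneg_left h1 hp0
    set s2 := Ψ p * SS E u p with hs2
    set ys := √(Gam E Ψ Ψ p) * √(SS E u p) with hys
    have hJ : ∀ j, Ψ p * (cP j (Gr E u p) * ((1 / 2) * Lap E (Gam E (u j) (u j)) p -
        Gam E (u j) (Lap E (u j)) p)) ≤
        (1 / 2 * EE E Ψ (Gam E (u j) (u j)) (fun q => cP j (Gr E u q)) p -
          EE E Ψ (u j) (fun q => cP j (Gr E u q) * Lap E (u j) q) p) +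
        ((8 * C + (m + 1) * (8 * C + C * (m + 1))) * s2 + (2 * C + 2 * (m + 1) * C) * ys) := by
      intro j
      have t1 := (abs_le.1 (termL_le hu hΨ hp0 h4 (contDiff_cP j) (hP j) j)).2
      have t2 := (abs_le.1 (term_le hu hm hΨ hp0 h4 (contDiff_cP j) (hP j)
        (contMDiff_Lap (hu j)) (Lap_le hm hu p j) (by positivity) j)).1
      rw [← hs2, ← hys] at t1 t2
      linarith only [t1, t2]
    have hI : ∀ i l j k, Ψ p * (cR i l j k (Gr E u p) *
        (Gam E (u i) (HH E (u l) (u j) (u k)) p - Gam E (u j) (HH E (u l) (u i) (u k)) p)) ≤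
        (EE E Ψ (u i) (fun q => cR i l j k (Gr E u q) * HH E (u l) (u j) (u k) q) p -
          EE E Ψ (u j) (fun q => cR i l j k (Gr E u q) * HH E (u l) (u i) (u k) q) p) +
        ((2 * (4 * (8 * C + C * (m + 1)))) * s2 + (2 * (2 * 4 * C)) * ys) := by
      intro i l j k
      have t1 := (abs_le.1 (term_le hu hm hΨ hp0 h4 (contDiff_cR i l j k) (hRC i l j k)
        (contMDiff_HH (hu l) (hu j) (hu k)) (HH_le hu h4 l j k) (by norm_num) i)).2
      have t2 := (abs_le.1 (term_le hu hm hΨ hp0 h4 (contDiff_cR i l j k) (hRC i l j k)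
        (contMDiff_HH (hu l) (hu i) (hu k)) (HH_le hu h4 l i k) (by norm_num) j)).1
      rw [← hs2, ← hys] at t1 t2
      linarith only [t1, t2]
    have hJ' := Finset.sum_le_sum fun j (_ : j ∈ Finset.univ) => hJ j
    have hI' := Finset.sum_le_sum fun i (_ : i ∈ Finset.univ) => Finset.sum_le_sum fun l
      (_ : l ∈ Finset.univ) => Finset.sum_le_sum fun j (_ : j ∈ Finset.univ) =>
      Finset.sum_le_sum fun k (_ : k ∈ Finset.univ) => hI i l j k
    rw [Finset.sum_add_distrib] at hJ'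
    simp only [Finset.sum_add_distrib, Finset.sum_const, Finset.card_univ, Fintype.card_fin,
      nsmul_eq_mul] at hI' hJ'
    simp only [mul_add, Finset.mul_sum] at h2
    have h3 : Tot E Ψ u p = ∑ j, (1 / 2 * EE E Ψ (Gam E (u j) (u j)) (fun q => cP j (Gr E u q)) p -
      EE E Ψ (u j) (fun q => cP j (Gr E u q) * Lap E (u j) q) p) +
      ∑ i, ∑ l, ∑ j, ∑ k,
      (EE E Ψ (u i) (fun q => cR i l j k (Gr E u q) * HH E (u l) (u j) (u k) q) p -
      EE E Ψ (u j) (fun q => cR i l j k (Gr E u q) * HH E (u l) (u i) (u k) q) p) := rfl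
    rw [h3, c1, c2]
    have e1 : Ψ p * ((C + 16 * (m : ℝ) ^ 4 * C) * SS E u p) = (C + 16 * (m : ℝ) ^ 4 * C) * s2 := by
      rw [hs2]; ring
    have e2 : Ψ p * (4 * (m : ℝ) * C * K) = 4 * m * C * K * Ψ p := by ring
    rw [e1, e2] at h2
    linarith only [h2, hI', hJ']

end Vale.Agent.P210.R2.H973
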